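import Vale.Agent.P065.H587.Ent

/-!
# P065: points near the cut of a shifted dyadic cell (helper154)

`cell M m t x` is the dyadic cell of scale `t` of the point `x` after the shift by `m / 2 ^ M`.
`near` says that the point lies in one of the two cells of scale `t + g` which touch the midpoint
of its cell of scale `t`. Averaged over all shifts, the surprise of the next dyadic digit at the
scales where the point is near the cut is at most `2 (g + 3) 2 ^ (-g)` times the whole surprise.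
-/

set_option autoImplicit false

open Finset Real

noncomputable section

namespace Vale.Agent.P065.H154

open Vale.Agent.P065.Ent

/-- shifted dyadic cell -/
def cell (M m t : ℕ) (x : ℝ) : ℤ := ⌊(2 : ℝ) ^ t * (x + m / 2 ^ M)⌋

lemma cell_half (M m t : ℕ) (x : ℝ) : cell M m t x = cell M m (t + 1) x / 2 := by
  unfold cell
  rw [pow_succ, mul_right_comm]
  set y := (2 : ℝ) ^ t * (x + m / 2 ^ M)
  apply le_antisymm
  · rw [Int.le_ediv_iff_mul_le (by norm_num), Int.le_floor]
    push_cast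
    linarith [Int.floor_le y]
  · rw [Int.le_floor]
    have h1 : (⌊y * 2⌋ : ℤ) / 2 * 2 ≤ ⌊y * 2⌋ := Int.ediv_mul_le _ (by norm_num)
    have h2 : (((⌊y * 2⌋ : ℤ) / 2 * 2 : ℤ) : ℝ) ≤ y * 2 :=
      le_trans (by exact_mod_cast h1) (Int.floor_le _)
    push_cast at h2
    linarith

lemma cell_div (M m t n : ℕ) (x : ℝ) : cell M m t x = cell M m (t + n) x / 2 ^ n := by
  induction n with
  | zero => simp
  | succ n ih =>
    rw [ih, cell_half M m (t + n), pow_succ', Int.ediv_ediv_of_nonneg (by norm_num), add_assoc]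

/-- the cell in integers -/
lemma cell_eq {M u : ℕ} (hu : u ≤ M) (m : ℕ) (x : ℝ) :
    cell M m u x = ((m : ℤ) + ⌊(2 : ℝ) ^ M * x⌋) / 2 ^ (M - u) := by
  have h1 : cell M m u x = cell M m M x / 2 ^ (M - u) := by
    have := cell_div M m u (M - u) x
    rwa [Nat.add_sub_cancel' hu] at this
  rw [h1]
  congr 1
  unfold cell
  have h2 : (2 : ℝ) ^ M * (x + m / 2 ^ M) = (m : ℝ) + 2 ^ M * x := by
    field_simp
    ring
  rw [h2, Int.floor_natCast_add]

/-- the residue of the cell is uniform -/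
lemma card_cell_mod (x : ℝ) {M u n : ℕ} (hn : n ≤ u) (hu : u ≤ M) (c : ℤ) :
    #{m ∈ range (2 ^ M) | cell M m u x % 2 ^ n = c} ≤ 2 ^ (M - n) := by
  set Z : ℤ := ⌊(2 : ℝ) ^ M * x⌋ with hZ
  set K : ℕ := 2 ^ (M - u) with hK
  set N : ℕ := 2 ^ n with hN
  set Q : ℕ := 2 ^ (u - n) with hQ
  have hK0 : 0 < K := by positivity
  have hN0 : 0 < N := by positivity
  have hM1 : 2 ^ M = K * N * Q := by
    rw [hK, hN, hQ, ← pow_add, ← pow_add]
    congr 1
    omega
  have hM2 : 2 ^ (M - n) = Q * K := by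
    rw [hK, hQ, ← pow_add]
    congr 1
    omega
  rw [hM2]
  have h1 : #((range Q) ×ˢ (range K)) = Q * K := by
    rw [card_product, card_range, card_range]
  rw [← h1]
  apply card_le_card_of_injOn (fun m => (m / (K * N), (((m : ℤ) + Z) % K).toNat))
  · intro m hm
    have hm' := (mem_filter.1 hm).1
    rw [mem_range, hM1] at hm'
    rw [mem_coe, mem_product, mem_range, mem_range]
    refine ⟨Nat.div_lt_of_lt_mul hm', ?_⟩
    have h2 : ((m : ℤ) + Z) % K < K := Int.emod_lt_of_pos _ (by exact_mod_cast hK0)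
    have h3 : 0 ≤ ((m : ℤ) + Z) % K := Int.emod_nonneg _ (by exact_mod_cast hK0.ne')
    show (((m : ℤ) + Z) % K).toNat < K
    omega
  · intro m hm m' hm' h
    have e1 := (mem_filter.1 hm).2
    have e2 := (mem_filter.1 hm').2
    rw [cell_eq hu, ← hZ] at e1 e2
    have hcast : ((2 : ℤ) ^ (M - u)) = (K : ℤ) := by rw [hK]; push_cast; rfl
    have hcast' : ((2 : ℤ) ^ n) = (N : ℤ) := by rw [hN]; push_cast; rfl
    rw [hcast, hcast'] at e1 e2
    obtain ⟨h4, h5⟩ := Prod.mk.inj h
    have h6 : ((m : ℤ) + Z) % K = ((m' : ℤ) + Z) % K := by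
      have a1 : 0 ≤ ((m : ℤ) + Z) % K := Int.emod_nonneg _ (by exact_mod_cast hK0.ne')
      have a2 : 0 ≤ ((m' : ℤ) + Z) % K := Int.emod_nonneg _ (by exact_mod_cast hK0.ne')
      have h5' : (((m : ℤ) + Z) % K).toNat = (((m' : ℤ) + Z) % K).toNat := h5
      omega
    have key : ∀ z : ℤ, z % (K * N : ℕ) = K * ((z / K) % N) + z % K := by
      intro z
      push_cast
      have b1 := Int.mul_ediv_add_emod z K
      have b2 := Int.mul_ediv_add_emod (z / K) N
      have b3 := Int.mul_ediv_add_emod z (K * N)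
      have b4 : z / K / N = z / (K * N) := Int.ediv_ediv_of_nonneg (by positivity)
      rw [b4] at b2
      linear_combination b3 - b1 - (K : ℤ) * b2
    have h7 : ((m : ℤ) + Z) % (K * N : ℕ) = ((m' : ℤ) + Z) % (K * N : ℕ) := by
      rw [key, key, e1, e2, h6]
    have h8 : (m : ℤ) % (K * N : ℕ) = (m' : ℤ) % (K * N : ℕ) := by
      have := Int.ModEq.add_right_cancel' Z (show (m : ℤ) + Z ≡ m' + Z [ZMOD (K * N : ℕ)] from h7)
      exact this
    have h9 : m % (K * N) = m' % (K * N) := by exact_mod_cast h8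
    have h10 : m / (K * N) = m' / (K * N) := h4
    calc m = K * N * (m / (K * N)) + m % (K * N) := (Nat.div_add_mod _ _).symm
      _ = K * N * (m' / (K * N)) + m' % (K * N) := by rw [h9, h10]
      _ = m' := Nat.div_add_mod _ _

/-- the point is close to the midpoint of its cell of scale `t` -/
def near (M m g t : ℕ) (x : ℝ) : Prop :=
  cell M m (t + g) x % 2 ^ g = 2 ^ (g - 1) - 1 ∨ cell M m (t + g) x % 2 ^ g = 2 ^ (g - 1)

instance (M m g t : ℕ) (x : ℝ) : Decidable (near M m g t x) := by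
  unfold near; infer_instance

lemma card_near (x : ℝ) {M g t : ℕ} (h : t + g ≤ M) :
    #{m ∈ range (2 ^ M) | near M m g t x} ≤ 2 * 2 ^ (M - g) := by
  have h1 : {m ∈ range (2 ^ M) | near M m g t x} ⊆
      {m ∈ range (2 ^ M) | cell M m (t + g) x % 2 ^ g = 2 ^ (g - 1) - 1} ∪
      {m ∈ range (2 ^ M) | cell M m (t + g) x % 2 ^ g = 2 ^ (g - 1)} := by
    intro m hm
    obtain ⟨h2, h3⟩ := mem_filter.1 hm
    rw [mem_union, mem_filter, mem_filter]
    rcases h3 with h3 | h3
    · exact Or.inl ⟨h2, h3⟩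
    · exact Or.inr ⟨h2, h3⟩
  refine (card_le_card h1).trans ((card_union_le _ _).trans ?_)
  have h2 := card_cell_mod x (n := g) (u := t + g) (by omega) h (2 ^ (g - 1) - 1)
  have h3 := card_cell_mod x (n := g) (u := t + g) (by omega) h (2 ^ (g - 1))
  omega

/-- position in the cell: the point is close to the midpoint but the cell of scale `t + n` does
not touch it, `n > g ≥ 2`. Then a point at distance `< 2 ^ -(t + n)` is in the same half -/
lemma same_half {M m g t n : ℕ} (hg : 2 ≤ g) (hn : g < n) {x x' : ℝ} (h1 : near M m g t x)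
    (h2 : ¬ near M m n t x) (h3 : |x' - x| < 1 / 2 ^ (t + n)) :
    cell M m (t + 1) x' = cell M m (t + 1) x := by
  set c := cell M m (t + n) x with hc
  set c' := cell M m (t + n) x' with hc'
  have h4 : c' ≤ c + 1 ∧ c ≤ c' + 1 := by
    rw [abs_lt] at h3
    have hp : (0 : ℝ) < 2 ^ (t + n) := by positivity
    have e1 : (2 : ℝ) ^ (t + n) * (x' - x) < 1 := by
      calc (2 : ℝ) ^ (t + n) * (x' - x) < 2 ^ (t + n) * (1 / 2 ^ (t + n)) :=
            mul_lt_mul_of_pos_left h3.2 hp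
        _ = 1 := by field_simp
    have e2 : (2 : ℝ) ^ (t + n) * (x - x') < 1 := by
      calc (2 : ℝ) ^ (t + n) * (x - x') < 2 ^ (t + n) * (1 / 2 ^ (t + n)) :=
            mul_lt_mul_of_pos_left (by linarith [h3.1]) hp
        _ = 1 := by field_simp
    constructor
    · rw [hc, hc']
      unfold cell
      rw [← Int.floor_add_one]
      apply Int.floor_mono
      linarith
    · rw [hc, hc']
      unfold cell
      rw [← Int.floor_add_one]
      apply Int.floor_mono
      linarith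
  obtain ⟨k, rfl⟩ : ∃ k, n = g + k := ⟨n - g, by omega⟩
  have hk : 1 ≤ k := by omega
  obtain ⟨g', rfl⟩ : ∃ g', g = g' + 2 := ⟨g - 2, by omega⟩
  -- the half cells
  have e1 : cell M m (t + 1) x = c / 2 ^ (g' + k + 1) := by
    rw [hc, cell_div M m (t + 1) (g' + k + 1)]
    congr 2
    omega
  have e2 : cell M m (t + 1) x' = c' / 2 ^ (g' + k + 1) := by
    rw [hc', cell_div M m (t + 1) (g' + k + 1)]
    congr 2
    omega
  have e3 : cell M m (t + (g' + 2)) x = c / 2 ^ k := by
    rw [hc, cell_div M m (t + (g' + 2)) k]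
    congr 2
    omega
  rw [e1, e2]
  set A : ℤ := 2 ^ g' with hA
  set B : ℤ := 2 ^ k with hB
  have hA1 : 1 ≤ A := one_le_pow₀ (by norm_num)
  have hB2 : 2 ≤ B := by
    calc (2 : ℤ) = 2 ^ 1 := (pow_one 2).symm
      _ ≤ 2 ^ k := pow_le_pow_right₀ (by norm_num) hk
  have p1 : (2 : ℤ) ^ (g' + k + 1) = 2 * (A * B) := by rw [hA, hB]; ring
  have p2 : (2 : ℤ) ^ (g' + 2) = 4 * A := by rw [hA]; ring
  have p3 : (2 : ℤ) ^ (g' + 2 - 1) = 2 * A := by
    rw [hA, show g' + 2 - 1 = g' + 1 by omega]; ring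
  have p4 : (2 : ℤ) ^ (g' + 2 + k) = 4 * (A * B) := by rw [hA, hB]; ring
  have p5 : (2 : ℤ) ^ (g' + 2 + k - 1) = 2 * (A * B) := by
    rw [hA, hB, show g' + 2 + k - 1 = g' + k + 1 by omega]; ring
  unfold near at h1 h2
  rw [← hc, p4, p5] at h2
  rw [e3, p2, p3] at h1
  rw [p1]
  have hAB : B ≤ A * B := by nlinarith
  -- write `c = 4 A B q + r`
  obtain ⟨q, r, hr0, hr1, hcr⟩ : ∃ q r : ℤ, 0 ≤ r ∧ r < 4 * (A * B) ∧ c = 4 * (A * B) * q + r :=
    ⟨c / (4 * (A * B)), c % (4 * (A * B)), Int.emod_nonneg _ (by positivity),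
      Int.emod_lt_of_pos _ (by positivity), (Int.mul_ediv_add_emod _ _).symm⟩
  have hr : c % (4 * (A * B)) = r := by
    rw [hcr, Int.add_comm, Int.add_mul_emod_self_left, Int.emod_eq_of_lt hr0 hr1]
  rw [hr] at h2
  have h5 : c / B = 4 * A * q + r / B := by
    rw [hcr, show 4 * (A * B) * q + r = r + B * (4 * A * q) by ring,
      Int.add_mul_ediv_left _ _ (by positivity)]
    ring
  have h6 : (c / B) % (4 * A) = r / B := by
    rw [h5, Int.add_comm, Int.add_mul_emod_self_left]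
    apply Int.emod_eq_of_lt
    · exact Int.ediv_nonneg hr0 (by positivity)
    · rw [Int.ediv_lt_iff_lt_mul (by positivity)]
      linarith
  rw [h6] at h1
  -- the range of `r`
  have h7 : 2 * (A * B) - B ≤ r ∧ r < 2 * (A * B) + B := by
    have b1 := Int.mul_ediv_add_emod r B
    have b2 : 0 ≤ r % B := Int.emod_nonneg _ (by positivity)
    have b3 : r % B < B := Int.emod_lt_of_pos _ (by positivity)
    rcases h1 with h1 | h1
    · rw [h1] at b1
      constructor <;> nlinarith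
    · rw [h1] at b1
      constructor <;> nlinarith
  -- both cells are in the same half
  have h8 : ∀ z : ℤ, 0 ≤ z → z < 2 * (A * B) → (4 * (A * B) * q + z) / (2 * (A * B)) = 2 * q := by
    intro z hz0 hz1
    rw [show 4 * (A * B) * q + z = z + (2 * (A * B)) * (2 * q) by ring,
      Int.add_mul_ediv_left _ _ (by positivity), Int.ediv_eq_zero_of_lt hz0 hz1, zero_add]
  have h9 : ∀ z : ℤ, 2 * (A * B) ≤ z → z < 4 * (A * B) →
      (4 * (A * B) * q + z) / (2 * (A * B)) = 2 * q + 1 := by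
    intro z hz0 hz1
    rw [show 4 * (A * B) * q + z = (z - 2 * (A * B)) + (2 * (A * B)) * (2 * q + 1) by ring,
      Int.add_mul_ediv_left _ _ (by positivity), Int.ediv_eq_zero_of_lt (by linarith)
        (by linarith), zero_add]
  have h10 : c' = 4 * (A * B) * q + (r + (c' - c)) := by rw [hcr]; ring
  push Not at h2
  rcases lt_or_ge r (2 * (A * B)) with hlt | hge
  · rw [hcr, h8 r hr0 hlt, h10, h8]
    · omega
    · omega
  · rw [hcr, h9 r hge hr1, h10, h9]
    · omega
    · omega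

/-- two points of a cell are close -/
lemma close_of_cell {M m t : ℕ} {x x' : ℝ} (h : cell M m t x' = cell M m t x) :
    |x' - x| < 1 / 2 ^ t := by
  have hp : (0 : ℝ) < 2 ^ t := by positivity
  have h1 := Int.floor_le ((2 : ℝ) ^ t * (x + m / 2 ^ M))
  have h2 := Int.lt_floor_add_one ((2 : ℝ) ^ t * (x + m / 2 ^ M))
  have h3 := Int.floor_le ((2 : ℝ) ^ t * (x' + m / 2 ^ M))
  have h4 := Int.lt_floor_add_one ((2 : ℝ) ^ t * (x' + m / 2 ^ M))
  unfold cell at h
  rw [h] at h3 h4
  rw [abs_lt, lt_div_iff₀ hp, neg_lt, lt_div_iff₀ hp]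
  constructor <;> nlinarith

section main

variable {Ω : Type*} [Fintype Ω] {α : Type*} {β : ℕ → Type*}

open Classical in
/-- mass of the points at distance `< 2 ^ -u` with the same label -/
def ball (μ : Ω → ℝ) (x : Ω → ℝ) (N : ∀ t, Ω → β t) (u : ℕ) (ω : Ω) : ℝ :=
  ∑ ω', if |x ω' - x ω| < 1 / 2 ^ u ∧ N u ω' = N u ω then μ ω' else 0

/-- surprise of the next digit of the cell of scale `t` -/
def sup (M m : ℕ) (μ : Ω → ℝ) (x : Ω → ℝ) (N : ∀ t, Ω → β t) (t : ℕ) (ω : Ω) : ℝ :=
  log (Pr μ (fun ω => (cell M m t (x ω), N t ω)) (cell M m t (x ω), N t ω)) -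
    log (Pr μ (fun ω => (cell M m (t + 1) (x ω), N t ω)) (cell M m (t + 1) (x ω), N t ω))

variable {μ : Ω → ℝ} {x : Ω → ℝ} {N : ∀ t, Ω → β t} {ρ : Ω → α}

lemma det_le (hN : ∀ t, Det (N (t + 1)) (N t)) {t u : ℕ} (h : t ≤ u) : Det (N u) (N t) := by
  induction u, h using Nat.le_induction with
  | base => exact Det.refl _
  | succ n _ ih => exact (hN n).trans ih

lemma ball_anti (hμ : IsProb μ) (hN : ∀ t, Det (N (t + 1)) (N t)) {u v : ℕ} (h : u ≤ v) (ω : Ω) :
    ball μ x N v ω ≤ ball μ x N u ω := by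
  unfold ball
  refine sum_le_sum fun ω' _ => ?_
  split_ifs with h1 h2 h2
  · exact le_rfl
  · exfalso
    refine h2 ⟨h1.1.trans_le ?_, det_le hN h _ _ h1.2⟩
    exact one_div_le_one_div_of_le (by positivity) (pow_le_pow_right₀ (by norm_num) h)
  · exact hμ.nonneg _
  · exact le_rfl

lemma le_ball (hμ : IsProb μ) (hx : Det ρ x) (hρ : ∀ t, Det ρ (N t)) (u : ℕ) (ω : Ω) :
    Pr μ ρ (ρ ω) ≤ ball μ x N u ω := by
  unfold ball Pr
  refine sum_le_sum fun ω' _ => ?_
  split_ifs with h1 h2 h2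
  · exact le_rfl
  · exfalso
    refine h2 ⟨?_, hρ u _ _ h1⟩
    rw [hx _ _ h1, sub_self, abs_zero]
    positivity
  · exact hμ.nonneg _
  · exact le_rfl

lemma Pr_cell_le (hμ : IsProb μ) (M m t : ℕ) (ω : Ω) :
    Pr μ (fun ω => (cell M m t (x ω), N t ω)) (cell M m t (x ω), N t ω) ≤ ball μ x N t ω := by
  unfold ball Pr
  refine sum_le_sum fun ω' _ => ?_
  split_ifs with h1 h2 h2
  · exact le_rfl
  · exact absurd ⟨close_of_cell (Prod.mk.inj h1).1, (Prod.mk.inj h1).2⟩ h2
  · exact hμ.nonneg _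
  · exact le_rfl

lemma ball_le_Pr (hμ : IsProb μ) (hN : ∀ t, Det (N (t + 1)) (N t)) {M m g t n : ℕ} (hg : 2 ≤ g)
    (hn : g < n) {ω : Ω} (h1 : near M m g t (x ω)) (h2 : ¬ near M m n t (x ω)) :
    ball μ x N (t + n) ω ≤
      Pr μ (fun ω => (cell M m (t + 1) (x ω), N t ω)) (cell M m (t + 1) (x ω), N t ω) := by
  unfold ball Pr
  refine sum_le_sum fun ω' _ => ?_
  split_ifs with h3 h4 h4
  · exact le_rfl
  · exfalso
    refine h4 ?_
    show (cell M m (t + 1) (x ω'), N t ω') = (cell M m (t + 1) (x ω), N t ω)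
    rw [same_half hg hn h1 h2 h3.1, det_le hN (Nat.le_add_right t n) _ _ h3.2]
  · exact hμ.nonneg _
  · exact le_rfl

lemma rho_le_Pr (hμ : IsProb μ) (hx : Det ρ x) (hρ : ∀ t, Det ρ (N t)) (M m t s : ℕ) (ω : Ω) :
    Pr μ ρ (ρ ω) ≤ Pr μ (fun ω => (cell M m s (x ω), N t ω)) (cell M m s (x ω), N t ω) := by
  refine Pr_mono hμ (Y := fun ω => (cell M m s (x ω), N t ω)) ?_ ω
  intro a b h
  simp only [hx _ _ h, hρ t _ _ h]

/-- the surprise in one cell -/
lemma sup_le (hμ : IsProb μ) (hN : ∀ t, Det (N (t + 1)) (N t)) (hx : Det ρ x)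
    (hρ : ∀ t, Det ρ (N t)) {M m g t K : ℕ} (hg : 2 ≤ g) {ω : Ω} (hω : 0 < μ ω)
    (h1 : near M m g t (x ω)) :
    sup M m μ x N t ω ≤ (-log (ball μ x N (t + (g + 1)) ω) + log (ball μ x N t ω)) +
      ∑ i ∈ Ico (g + 1) (g + 1 + K), (if near M m i t (x ω) then
        (-log (ball μ x N (t + (i + 1)) ω) + log (ball μ x N (t + i) ω)) else 0) +
      (if near M m (g + 1 + K) t (x ω) then -log (Pr μ ρ (ρ ω)) else 0) := by
  have hr : 0 < Pr μ ρ (ρ ω) := Pr_pos hμ ρ hω
  have hb : ∀ u, 0 < ball μ x N u ω := fun u => hr.trans_le (le_ball hμ hx hρ u ω)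
  have hd : ∀ u v, u ≤ v → 0 ≤ -log (ball μ x N v ω) + log (ball μ x N u ω) := by
    intro u v huv
    have := Real.log_le_log (hb v) (ball_anti (x := x) hμ hN huv ω)
    linarith
  have hr1 : Pr μ ρ (ρ ω) ≤ 1 := Pr_le_one hμ ρ _
  have hr2 : 0 ≤ -log (Pr μ ρ (ρ ω)) := by
    have := Real.log_nonpos hr.le hr1
    linarith
  have hc1 : log (Pr μ (fun ω => (cell M m t (x ω), N t ω)) (cell M m t (x ω), N t ω)) ≤
      log (ball μ x N t ω) :=
    Real.log_le_log (hr.trans_le (rho_le_Pr hμ hx hρ M m t t ω)) (Pr_cell_le hμ M m t ω)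
  have hlast : 0 ≤ (if near M m (g + 1 + K) t (x ω) then -log (Pr μ ρ (ρ ω)) else 0) := by
    split_ifs
    · exact hr2
    · exact le_rfl
  have hterm : ∀ i, 0 ≤ (if near M m i t (x ω) then
      (-log (ball μ x N (t + (i + 1)) ω) + log (ball μ x N (t + i) ω)) else 0) := by
    intro i
    split_ifs
    · exact hd _ _ (by omega)
    · exact le_rfl
  by_cases hall : ∀ i ∈ Icc (g + 1) (g + 1 + K), near M m i t (x ω)
  · -- the point is extremely close to the midpoint
    have h2 : ∀ k ≤ K, ∑ i ∈ Ico (g + 1) (g + 1 + k), (if near M m i t (x ω) then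
        (-log (ball μ x N (t + (i + 1)) ω) + log (ball μ x N (t + i) ω)) else 0) =
        -log (ball μ x N (t + (g + 1 + k)) ω) + log (ball μ x N (t + (g + 1)) ω) := by
      intro k hk
      induction k with
      | zero => simp
      | succ k ih =>
        rw [← add_assoc, sum_Ico_succ_top (by omega), ih (by omega),
          if_pos (hall _ (mem_Icc.2 ⟨by omega, by omega⟩))]
        ring
    rw [h2 K le_rfl, if_pos (hall _ (mem_Icc.2 ⟨by omega, le_rfl⟩))]
    have h3 : log (Pr μ ρ (ρ ω)) ≤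
        log (Pr μ (fun ω => (cell M m (t + 1) (x ω), N t ω)) (cell M m (t + 1) (x ω), N t ω)) :=
      Real.log_le_log hr (rho_le_Pr hμ hx hρ M m t (t + 1) ω)
    have h4 := hd (t + (g + 1 + K)) (t + (g + 1 + K)) le_rfl
    have h5 : log (ball μ x N (t + (g + 1 + K)) ω) ≤ 0 := by
      apply Real.log_nonpos (hb _).le
      unfold ball
      calc _ ≤ ∑ ω', μ ω' := sum_le_sum fun ω' _ => by
            split_ifs
            · exact le_rfl
            · exact hμ.nonneg _
        _ = 1 := hμ.sum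
    unfold sup
    linarith
  · push Not at hall
    obtain ⟨i₀, hi₀, hi₁⟩ := hall
    -- the first scale at which the cell does not touch the midpoint
    classical
    have hex : ∃ i, g + 1 ≤ i ∧ ¬ near M m i t (x ω) := ⟨i₀, (mem_Icc.1 hi₀).1, hi₁⟩
    set n := Nat.find hex with hn
    obtain ⟨hn1, hn2⟩ := Nat.find_spec hex
    rw [← hn] at hn1 hn2
    have hn3 : n ≤ g + 1 + K :=
      (Nat.find_min' hex ⟨(mem_Icc.1 hi₀).1, hi₁⟩).trans (mem_Icc.1 hi₀).2
    have hn4 : ∀ i, g + 1 ≤ i → i < n → near M m i t (x ω) := by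
      intro i h3 h4
      by_contra h5
      exact Nat.find_min hex h4 ⟨h3, h5⟩
    have h2 : ∀ k, g + 1 + k ≤ n → ∑ i ∈ Ico (g + 1) (g + 1 + k), (if near M m i t (x ω) then
        (-log (ball μ x N (t + (i + 1)) ω) + log (ball μ x N (t + i) ω)) else 0) =
        -log (ball μ x N (t + (g + 1 + k)) ω) + log (ball μ x N (t + (g + 1)) ω) := by
      intro k hk
      induction k with
      | zero => simp
      | succ k ih =>
        rw [← add_assoc, sum_Ico_succ_top (by omega), ih (by omega),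
          if_pos (hn4 _ (by omega) (by omega))]
        ring
    have h3 := h2 (n - (g + 1)) (by omega)
    rw [Nat.add_sub_cancel' hn1] at h3
    have h4 : ∑ i ∈ Ico (g + 1) n, (if near M m i t (x ω) then
        (-log (ball μ x N (t + (i + 1)) ω) + log (ball μ x N (t + i) ω)) else 0) ≤
        ∑ i ∈ Ico (g + 1) (g + 1 + K), (if near M m i t (x ω) then
        (-log (ball μ x N (t + (i + 1)) ω) + log (ball μ x N (t + i) ω)) else 0) :=
      sum_le_sum_of_subset_of_nonneg (Ico_subset_Ico_right hn3) fun i _ _ => hterm i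
    have h5 : log (ball μ x N (t + n) ω) ≤
        log (Pr μ (fun ω => (cell M m (t + 1) (x ω), N t ω)) (cell M m (t + 1) (x ω), N t ω)) :=
      Real.log_le_log (hb _) (ball_le_Pr hμ hN hg (by omega) h1 hn2)
    unfold sup
    linarith

end main

end Vale.Agent.P065.H154
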