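import Vale.Agent.P065.H60.Ext
import Vale.Agent.P065.H268.TimeShift
import Vale.Agent.P065.H725.Dyad
import Vale.Agent.P065.H700.QLaw
import Vale.Agent.P065.H819.RowSum2

/-!
# P065, FRAME: the concrete definitions of the assembly (helper154)

`Fr Ω` : nested pieces of time with dyadic centres `x ω`; `T' ω` is the frozen scale of the piece
(`2 ^ T' x` is an integer, two different centres are at distance at least `2 ^ (-T')`).
`Prm` : the parameters. A column is `((a, j, b₀, b₁), i)`: `a` the slope system, `k₀ + j` the slope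
scale, `b₀`, `b₁` two slope blocks, `i` the offset of the rows.
-/

set_option autoImplicit false

open Finset

noncomputable section

namespace Vale.Agent.P065.H268.Pcs

variable {Ω : Type*}

/-- a later last level -/
def up (P : Pcs Ω) (s : ℕ) : Pcs Ω where
  x := P.x
  W := P.W
  δ := P.δ
  T := P.T + s
  mono := P.mono
  nest := P.nest
  δ_pos := P.δ_pos
  sep := P.sep
  diam := P.diam
  bot := by
    have h1 := P.bot
    have h2 := P.δ_pos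
    have h3 : (1 : ℝ) ≤ 2 ^ s := one_le_pow₀ (by norm_num)
    have h4 : (0 : ℝ) < 2 ^ P.T := by positivity
    rw [pow_add]
    nlinarith [mul_pos h4 h2]

@[simp] lemma up_x (P : Pcs Ω) (s : ℕ) : (P.up s).x = P.x := rfl
@[simp] lemma up_W (P : Pcs Ω) (s : ℕ) : (P.up s).W = P.W := rfl
@[simp] lemma up_T (P : Pcs Ω) (s : ℕ) : (P.up s).T = P.T + s := rfl
@[simp] lemma up_D (P : Pcs Ω) (s t : ℕ) (ω : Ω) : (P.up s).D t ω = P.D t ω := rfl

variable [Fintype Ω]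

lemma up_len (P : Pcs Ω) (s j : ℕ) (ω : Ω) : (P.up s).len j ω = P.len j ω := rfl

lemma up_tm (P : Pcs Ω) (s j : ℕ) (ω : Ω) : (P.up s).tm j ω = P.tm j ω := by
  apply le_antisymm
  · exact (P.up s).tm_le (P.tm_spec j ω)
  · exact P.tm_le ((P.up s).tm_spec j ω)

end Vale.Agent.P065.H268.Pcs

namespace Vale.Agent.P065.H154

open Vale.Agent.P065.UB Vale.Agent.P065.Ent Vale.Agent.P065.H268 Vale.Agent.P065.H725

/-! ## Time -/

/-- nested pieces of time with dyadic centres -/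
structure Fr (Ω : Type*) where
  P : Pcs Ω
  n : ℕ
  /-- the frozen scale -/
  T' : Ω → ℕ
  /-- the finest scale -/
  Tm : ℕ
  T'_le : ∀ ω, T' ω ≤ Tm
  Tm_le : Tm ≤ P.T
  dyadic : ∀ ω, ∃ z : ℤ, 2 ^ T' ω * P.x ω = z
  sep : ∀ ω ω', P.x ω ≠ P.x ω' → 1 ≤ 2 ^ T' ω * |P.x ω - P.x ω'|
  xW : ∀ ω ω', P.W n ω = P.W n ω' → P.x ω = P.x ω'
  T'x : ∀ ω ω', P.x ω = P.x ω' → T' ω = T' ω'

namespace Fr

variable {Ω : Type*} (F : Fr Ω)

/-- the pieces with the time shift `u` and the last level `P.T + s` -/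
def Q (u : ℝ) (s : ℕ) : Pcs Ω := (F.P.shift u).up s

@[simp] lemma Q_T (u : ℝ) (s : ℕ) : (F.Q u s).T = F.P.T + s := rfl
@[simp] lemma Q_W (u : ℝ) (s : ℕ) : (F.Q u s).W = F.P.W := rfl
lemma Q_x (u : ℝ) (s : ℕ) (ω : Ω) : (F.Q u s).x ω = F.P.x ω + u := rfl

/-- the dyadic cell of time -/
def D (u : ℝ) (t : ℕ) (ω : Ω) : ℤ := ⌊(2 : ℝ) ^ t * (F.P.x ω + u)⌋

lemma Q_D (u : ℝ) (s t : ℕ) (ω : Ω) : (F.Q u s).D t ω = F.D u t ω := rfl

/-- 819's form -/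
lemma D_eq_Dt (u : ℝ) (t : ℕ) (ω : Ω) :
    F.D u t ω = H819.Dt (fun ω => F.P.x ω + u) t ω := rfl

lemma D_of_x {u : ℝ} {t : ℕ} {ω ω' : Ω} (h : F.P.x ω = F.P.x ω') : F.D u t ω = F.D u t ω' := by
  unfold D
  rw [h]

lemma D_det (u : ℝ) (t : ℕ) : Det (F.D u (t + 1)) (F.D u t) := fun _ _ h =>
  (F.Q u 0).D_nest (Nat.le_succ t) h

lemma D_det_le (u : ℝ) {s t : ℕ} (h : s ≤ t) : Det (F.D u t) (F.D u s) := fun _ _ h' =>
  (F.Q u 0).D_nest h h'

/-- a cell with two different centres is longer than the frozen scales -/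
lemma lt_of_ne {u : ℝ} {t : ℕ} {ω ω' : Ω} (h : F.D u t ω = F.D u t ω')
    (hx : F.P.x ω ≠ F.P.x ω') : t < F.T' ω := by
  by_contra hc
  push Not at hc
  have h1 := F.sep ω ω' hx
  have h2 : (2 : ℝ) ^ F.T' ω ≤ 2 ^ t := pow_le_pow_right₀ (by norm_num) hc
  have h3 : 1 ≤ 2 ^ t * |F.P.x ω - F.P.x ω'| :=
    h1.trans (mul_le_mul_of_nonneg_right h2 (abs_nonneg _))
  have h4 := (F.Q u 0).D_close (ω := ω) (ω' := ω') h
  have h5 := (F.Q u 0).D_close (ω := ω') (ω' := ω) h.symm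
  rw [Q_x, Q_x] at h4 h5
  have h6 : (2 : ℝ) ^ t * |F.P.x ω - F.P.x ω'| < 1 := by
    rcases le_total 0 (F.P.x ω - F.P.x ω') with h0 | h0
    · rw [abs_of_nonneg h0]
      linarith
    · rw [abs_of_nonpos h0]
      linarith
  linarith

/-- in a cell at least as fine as a frozen scale there is one centre -/
lemma x_eq_of_le {u : ℝ} {t : ℕ} {ω ω' : Ω} (h : F.D u t ω = F.D u t ω') (ht : F.T' ω ≤ t) :
    F.P.x ω = F.P.x ω' := by
  by_contra hx
  exact absurd (F.lt_of_ne h hx) (by omega)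

/-- the frozen scales of a cell: equal, or all larger than the level -/
lemma T'_cases {u : ℝ} {t : ℕ} {ω ω' : Ω} (h : F.D u t ω = F.D u t ω') :
    F.P.x ω = F.P.x ω' ∧ F.T' ω = F.T' ω' ∨ t < F.T' ω ∧ t < F.T' ω' := by
  by_cases hx : F.P.x ω = F.P.x ω'
  · exact Or.inl ⟨hx, F.T'x _ _ hx⟩
  · exact Or.inr ⟨F.lt_of_ne h hx, F.lt_of_ne h.symm (Ne.symm hx)⟩

end Fr

/-! ## Lines -/

/-- the offset of the slope system -/
def os (k₀ : ℤ) (a : Bool) : ℝ := if a then 2 ^ (-k₀) / 3 else 0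

/-- the slope cell -/
def Sc (k₀ : ℤ) (a : Bool) (k : ℤ) (v : Pt) : ℤ := dy (os k₀ a) k v.1

/-- the position of the slope in its cell -/
def fs (k₀ : ℤ) (a : Bool) (k : ℤ) (v : Pt) : ℝ := Int.fract ((v.1 - os k₀ a) * 2 ^ k)

lemma fs_nonneg (k₀ : ℤ) (a : Bool) (k : ℤ) (v : Pt) : 0 ≤ fs k₀ a k v := Int.fract_nonneg _

lemma fs_lt_one (k₀ : ℤ) (a : Bool) (k : ℤ) (v : Pt) : fs k₀ a k v < 1 := Int.fract_lt_one _

lemma Sc_add_fs (k₀ : ℤ) (a : Bool) (k : ℤ) (v : Pt) :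
    (Sc k₀ a k v : ℝ) + fs k₀ a k v = (v.1 - os k₀ a) * 2 ^ k := Int.floor_add_fract _

/-- the slope cells are nested -/
lemma Sc_nest {k₀ : ℤ} {a : Bool} {k k' : ℤ} (h : k ≤ k') {u v : Pt}
    (huv : Sc k₀ a k' u = Sc k₀ a k' v) : Sc k₀ a k u = Sc k₀ a k v := dy_nest h huv

/-- the slope block with `PP` digits -/
def bk (k₀ : ℤ) (a : Bool) (k : ℤ) (PP : ℕ) (v : Pt) : ℤ := ⌊fs k₀ a k v * 2 ^ PP⌋

lemma bk_nonneg (k₀ : ℤ) (a : Bool) (k : ℤ) (PP : ℕ) (v : Pt) : 0 ≤ bk k₀ a k PP v := by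
  apply Int.floor_nonneg.2
  have := fs_nonneg k₀ a k v
  positivity

lemma bk_lt (k₀ : ℤ) (a : Bool) (k : ℤ) (PP : ℕ) (v : Pt) : bk k₀ a k PP v < 2 ^ PP := by
  apply Int.floor_lt.2
  have h1 := fs_lt_one k₀ a k v
  have h2 : (0 : ℝ) < 2 ^ PP := by positivity
  push_cast
  nlinarith

/-- slope cell and block form the slope cell of the scale `k + PP` -/
lemma Sc_add (k₀ : ℤ) (a : Bool) (k : ℤ) (PP : ℕ) (v : Pt) :
    Sc k₀ a (k + PP) v = Sc k₀ a k v * 2 ^ PP + bk k₀ a k PP v := by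
  have h := Sc_add_fs k₀ a k v
  unfold Sc dy at h ⊢
  unfold bk
  rw [zpow_add₀ (by norm_num), zpow_natCast, ← mul_assoc, ← h]
  unfold fs
  have e : ((⌊(v.1 - os k₀ a) * 2 ^ k⌋ : ℝ) + Int.fract ((v.1 - os k₀ a) * 2 ^ k)) * 2 ^ PP =
      ((⌊(v.1 - os k₀ a) * 2 ^ k⌋ * 2 ^ PP : ℤ) : ℝ) +
        Int.fract ((v.1 - os k₀ a) * 2 ^ k) * 2 ^ PP := by
    push_cast
    ring
  rw [e, Int.floor_intCast_add, Int.floor_add_fract]

/-- height of the line at the time `x`, relative to the reference line of its slope cell, in units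
of `2 ^ (-k)` -/
def hl (k₀ : ℤ) (a : Bool) (k : ℤ) (x : ℝ) (v : Pt) : ℝ := x * fs k₀ a k v - 2 ^ k * v.2

lemma hl_eq (k₀ : ℤ) (a : Bool) (k : ℤ) (x : ℝ) (v : Pt) :
    hl k₀ a k x v = 2 ^ k * (- ht x v) - x * (os k₀ a * 2 ^ k + Sc k₀ a k v) := by
  have h := Sc_add_fs k₀ a k v
  have h2 : fs k₀ a k v = (v.1 - os k₀ a) * 2 ^ k - Sc k₀ a k v := by linarith
  unfold hl ht
  rw [h2]
  ring

lemma hl_sub (k₀ : ℤ) (a : Bool) (k : ℤ) (x x' : ℝ) (v : Pt) :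
    hl k₀ a k x' v - hl k₀ a k x v = (x' - x) * fs k₀ a k v := by
  unfold hl
  ring

/-! ## Parameters and columns -/

/-- the parameters of the frame -/
structure Prm where
  /-- the coarsest slope scale -/
  k₀ : ℤ
  /-- number of slope scales (minus one) -/
  K : ℕ
  /-- digits of the finest row below the time unit one -/
  M : ℕ
  /-- the largest guard -/
  Γ : ℕ
  /-- digits of the slope blocks -/
  PP : ℕ

namespace Prm

variable (p : Prm)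

/-- the number of offsets -/
def nT : ℕ := 3 * 2 ^ (p.K + p.M + p.Γ)

lemma nT_pos : 0 < p.nT := by unfold nT; positivity

instance : NeZero p.nT := ⟨p.nT_pos.ne'⟩

/-- columns without the offset: slope system, slope scale, two blocks -/
abbrev Kap : Type := Bool × Fin (p.K + 1) × Fin (2 ^ p.PP) × Fin (2 ^ p.PP)

/-- columns -/
abbrev Col : Type := p.Kap × Fin p.nT

variable {p}

/-- slope system -/
def sy (c : p.Kap) : Bool := c.1
/-- slope scale, as a number of steps -/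
def js (c : p.Kap) : ℕ := c.2.1
/-- slope scale -/
def sc (c : p.Kap) : ℤ := p.k₀ + c.2.1
/-- first block -/
def b0 (c : p.Kap) : ℕ := c.2.2.1
/-- second block -/
def b1 (c : p.Kap) : ℕ := c.2.2.2
/-- number of digits of the offset -/
def ex (c : p.Kap) : ℕ := p.K - c.2.1 + p.M

lemma js_le (c : p.Kap) : js c ≤ p.K := Nat.lt_succ_iff.1 c.2.1.2

/-- the slope cell of the column -/
def S (c : p.Kap) (v : Pt) : ℤ := Sc p.k₀ (sy c) (sc c) v
/-- the position of the slope in its cell -/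
def f (c : p.Kap) (v : Pt) : ℝ := fs p.k₀ (sy c) (sc c) v

lemma f_nonneg (c : p.Kap) (v : Pt) : 0 ≤ f c v := fs_nonneg _ _ _ _
lemma f_lt_one (c : p.Kap) (v : Pt) : f c v < 1 := fs_lt_one _ _ _ _

/-- the relative height in units of the offset -/
def b (c : p.Kap) (x : ℝ) (v : Pt) : ℝ := 3 * 2 ^ ex c * hl p.k₀ (sy c) (sc c) x v

lemma b_sub (c : p.Kap) (x x' : ℝ) (v : Pt) :
    b c x' v - b c x v = 3 * 2 ^ ex c * ((x' - x) * f c v) := by
  unfold b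
  rw [← mul_sub, hl_sub]
  rfl

/-- the normalised height (819's `h`) -/
def h (c : p.Col) (x : ℝ) (v : Pt) : ℝ :=
  hl p.k₀ (sy c.1) (sc c.1) x v + (c.2 : ℕ) / (3 * 2 ^ ex c.1)

lemma h_eq (c : p.Col) (x : ℝ) (v : Pt) : h c x v = (b c.1 x v + (c.2 : ℕ)) / (3 * 2 ^ ex c.1) := by
  unfold h b
  field_simp

lemma h_sub (c : p.Col) (x x' : ℝ) (v : Pt) : h c x' v - h c x v = (x' - x) * f c.1 v := by
  unfold h
  have := hl_sub p.k₀ (sy c.1) (sc c.1) x x' v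
  unfold f
  linarith

/-- the row with units `2 ^ (-t)` (normalised) and guard `γ` -/
def N (γ t : ℕ) (c : p.Col) (x : ℝ) (v : Pt) : ℤ := ⌊2 ^ t * h c x v / 2 ^ γ⌋

/-- 353's form of the rows -/
lemma N_eq {γ t : ℕ} (c : p.Col) (ht : t ≤ ex c.1 + γ) (x : ℝ) (v : Pt) :
    N γ t c x v = ⌊(b c.1 x v + (c.2 : ℕ)) / ((3 : ℕ) * 2 ^ (ex c.1 + γ - t))⌋ := by
  unfold N
  congr 1
  rw [h_eq]
  obtain ⟨d, hd⟩ : ∃ d, ex c.1 + γ = t + d := ⟨ex c.1 + γ - t, by omega⟩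
  have e1 : ex c.1 + γ - t = d := by omega
  rw [e1]
  have e2 : (2 : ℝ) ^ ex c.1 * 2 ^ γ = 2 ^ t * 2 ^ d := by rw [← pow_add, ← pow_add, hd]
  have h1 : (0 : ℝ) < 2 ^ ex c.1 := by positivity
  have h2 : (0 : ℝ) < 2 ^ γ := by positivity
  have h3 : (0 : ℝ) < 2 ^ t := by positivity
  have h4 : (0 : ℝ) < 2 ^ d := by positivity
  push_cast
  rw [mul_div_assoc', div_div, div_eq_div_iff (by positivity) (by positivity)]
  calc 2 ^ t * (b c.1 x v + (c.2 : ℕ)) * (3 * 2 ^ d)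
      = (b c.1 x v + (c.2 : ℕ)) * 3 * (2 ^ t * 2 ^ d) := by ring
    _ = (b c.1 x v + (c.2 : ℕ)) * 3 * (2 ^ ex c.1 * 2 ^ γ) := by rw [e2]
    _ = (b c.1 x v + (c.2 : ℕ)) * (3 * 2 ^ ex c.1 * 2 ^ γ) := by ring

/-- the rows are nested -/
lemma N_succ (γ t : ℕ) (c : p.Col) (x : ℝ) (v : Pt) : N γ t c x v = N γ (t + 1) c x v / 2 := by
  unfold N
  have e : (2 : ℝ) ^ t * h c x v / 2 ^ γ = 2 ^ (t + 1) * h c x v / 2 ^ γ / ((2 : ℕ) : ℝ) := by
    rw [pow_succ]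
    push_cast
    ring
  rw [e, Int.floor_div_natCast]
  rfl

/-- rows depend on the difference of level and guard only -/
lemma N_add (γ t s : ℕ) (c : p.Col) (x : ℝ) (v : Pt) : N (γ + s) (t + s) c x v = N γ t c x v := by
  unfold N
  congr 1
  rw [pow_add, pow_add, mul_assoc, mul_comm ((2 : ℝ) ^ s), ← mul_assoc,
    mul_div_mul_right _ _ (by positivity)]

lemma N_nest {γ s t : ℕ} (hst : s ≤ t) {c : p.Col} {x x' : ℝ} {v v' : Pt}
    (h : N γ t c x v = N γ t c x' v') : N γ s c x v = N γ s c x' v' := by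
  induction t, hst using Nat.le_induction with
  | base => exact h
  | succ m _ ih =>
    apply ih
    rw [N_succ γ m c x v, N_succ γ m c x' v', h]

/-- larger guards give coarser rows -/
lemma N_guard {γ γ' t : ℕ} (hγ : γ ≤ γ') {c : p.Col} {x x' : ℝ} {v v' : Pt}
    (h : N γ t c x v = N γ t c x' v') : N γ' t c x v = N γ' t c x' v' := by
  obtain ⟨d, rfl⟩ : ∃ d, γ' = γ + d := ⟨γ' - γ, by omega⟩
  have h1 : N (γ + d) (t + d) c x v = N (γ + d) (t + d) c x' v' := by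
    rw [N_add, N_add, h]
  exact N_nest (Nat.le_add_right t d) h1

end Prm

/-! ## Boxes -/

section boxes

variable {Ω : Type*} (F : Fr Ω) (ln : Ω → Pt) (p : Prm)

/-- the row of a flag, frozen at the scale `T' + γ` -/
def Nf (γ t : ℕ) (c : p.Col) (ω : Ω) : ℤ := Prm.N γ (min t (F.T' ω + γ)) c (F.P.x ω) (ln ω)

/-- the fine row of a flag: units `2 ^ (-T')` -/
def Nr (c : p.Col) (ω : Ω) : ℤ := Prm.N 0 (F.T' ω) c (F.P.x ω) (ln ω)

/-- **the boxes** `R_t` with guard `γ` and time shift `u` : column, slope cell, time cell, row -/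
def Rt (u : ℝ) (γ t : ℕ) (q : p.Col × Ω) : p.Col × ℤ × ℤ × ℤ :=
  (q.1, Prm.S q.1.1 (ln q.2), F.D u t q.2, Nf F ln p γ t q.1 q.2)

/-- **the fine box** of a flag in a column: bottom piece, label, slope cell, fine row -/
def rho {Lab : Type*} (lam : Ω → Lab) (c : p.Col) (ω : Ω) : (ℕ × Lab) × ℤ × ℤ :=
  ((F.P.W F.n ω, lam ω), Prm.S c.1 (ln ω), Nr F ln p c ω)

/-- **the label** of a flag in a column -/
def lb (c : p.Col) (ω : Ω) : Option Bool :=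
  if bk p.k₀ (Prm.sy c.1) (Prm.sc c.1) p.PP (ln ω) = Prm.b0 c.1 then some false
  else if bk p.k₀ (Prm.sy c.1) (Prm.sc c.1) p.PP (ln ω) = Prm.b1 c.1 then some true
  else none

/-- **the columns** in the sense of 700, with weights `f` -/
def cols {Lab : Type*} (lam : Ω → Lab) (f : p.Col → (ℕ × Lab) × ℤ × ℤ → ℝ)
    (f0 : ∀ k r, 0 ≤ f k r) (f1 : ∀ k r, f k r ≤ 1) :
    H700.Cols Ω p.Col ((ℕ × Lab) × ℤ × ℤ) where
  ρ := rho F ln p lam
  E := lb ln p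
  f := f
  f0 := f0
  f1 := f1

variable {F ln p}

/-- the slope of a labelled flag (819's `hE`) -/
lemma lb_some {c : p.Col} {ω : Ω} {b : Bool} (h : lb ln p c ω = some b) :
    (H819.blk (Prm.b0 c.1) (Prm.b1 c.1) b : ℝ) / 2 ^ p.PP ≤ Prm.f c.1 (ln ω) ∧
      Prm.f c.1 (ln ω) < (H819.blk (Prm.b0 c.1) (Prm.b1 c.1) b : ℝ) / 2 ^ p.PP + 1 / 2 ^ p.PP := by
  have key : ∀ n : ℕ, bk p.k₀ (Prm.sy c.1) (Prm.sc c.1) p.PP (ln ω) = n →
      (n : ℝ) / 2 ^ p.PP ≤ Prm.f c.1 (ln ω) ∧ Prm.f c.1 (ln ω) < (n : ℝ) / 2 ^ p.PP + 1 / 2 ^ p.PP := by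
    intro n hn
    have h2 : (0 : ℝ) < 2 ^ p.PP := by positivity
    have h3 := Int.floor_le (fs p.k₀ (Prm.sy c.1) (Prm.sc c.1) (ln ω) * 2 ^ p.PP)
    have h4 := Int.lt_floor_add_one (fs p.k₀ (Prm.sy c.1) (Prm.sc c.1) (ln ω) * 2 ^ p.PP)
    unfold bk at hn
    rw [hn] at h3 h4
    push_cast at h3 h4
    unfold Prm.f
    constructor
    · rw [div_le_iff₀ h2]
      exact h3
    · rw [← add_div, lt_div_iff₀ h2]
      exact h4
  unfold lb at h
  split_ifs at h with h1 h2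
  · cases b
    · exact key _ h1
    · simp at h
  · cases b
    · simp at h
    · exact key _ h2

lemma blk_le (c : p.Col) : Prm.b0 c.1 ≤ 2 ^ p.PP ∧ Prm.b1 c.1 ≤ 2 ^ p.PP :=
  ⟨c.1.2.2.1.2.le, c.1.2.2.2.2.le⟩

/-- the frozen rows are functions of the fine row -/
lemma Nf_of_Nr {γ t : ℕ} {c : p.Col} {ω ω' : Ω} (hx : F.P.x ω = F.P.x ω')
    (h : Nr F ln p c ω = Nr F ln p c ω') : Nf F ln p γ t c ω = Nf F ln p γ t c ω' := by
  unfold Nr at h
  unfold Nf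
  have hT := F.T'x _ _ hx
  rw [← hT] at h ⊢
  have h1 : Prm.N γ (F.T' ω + γ) c (F.P.x ω) (ln ω) = Prm.N γ (F.T' ω + γ) c (F.P.x ω') (ln ω') := by
    have e := Prm.N_add 0 (F.T' ω) γ c (F.P.x ω) (ln ω)
    have e' := Prm.N_add 0 (F.T' ω) γ c (F.P.x ω') (ln ω')
    rw [zero_add] at e e'
    rw [e, e', h]
  exact Prm.N_nest (min_le_right _ _) h1

/-- the last boxes have the fine row -/
lemma Nf_last {γ t : ℕ} (c : p.Col) {ω : Ω} (ht : F.T' ω + γ ≤ t) :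
    Nf F ln p γ t c ω = Nr F ln p c ω := by
  unfold Nf Nr
  rw [min_eq_right ht]
  have e := Prm.N_add 0 (F.T' ω) γ c (F.P.x ω) (ln ω)
  rwa [zero_add] at e

/-- before the frozen scale the rows are the true ones (819's `Nt`) -/
lemma Nf_eq {γ t : ℕ} (c : p.Col) {ω : Ω} (ht : t ≤ F.T' ω + γ) :
    Nf F ln p γ t c ω = H819.Nt (fun ω => Prm.h c (F.P.x ω) (ln ω)) γ t ω := by
  unfold Nf
  rw [min_eq_left ht]
  rfl

/-- **the boxes are nested** -/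
theorem Rt_det (u : ℝ) (γ t : ℕ) : Det (Rt F ln p u γ (t + 1)) (Rt F ln p u γ t) := by
  rintro ⟨c, ω⟩ ⟨c', ω'⟩ h
  unfold Rt at h ⊢
  simp only [Prod.mk.injEq] at h ⊢
  obtain ⟨rfl, h2, h3, h4⟩ := h
  refine ⟨rfl, h2, F.D_det u t _ _ h3, ?_⟩
  rcases F.T'_cases h3 with ⟨-, hT⟩ | ⟨hT, hT'⟩
  · unfold Nf at h4 ⊢
    rw [← hT] at h4 ⊢
    exact Prm.N_nest (by omega) h4
  · unfold Nf at h4 ⊢
    rw [min_eq_left (by omega), min_eq_left (by omega)] at h4 ⊢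
    exact Prm.N_nest (Nat.le_succ t) h4

theorem Rt_det_le (u : ℝ) (γ : ℕ) {s t : ℕ} (h : s ≤ t) :
    Det (Rt F ln p u γ t) (Rt F ln p u γ s) := by
  induction t, h using Nat.le_induction with
  | base => exact Det.refl _
  | succ m _ ih => exact (Rt_det u γ m).trans ih

theorem Rt_D (u : ℝ) (γ t : ℕ) : Det (Rt F ln p u γ t) (fun q => F.D u t q.2) := by
  intro q q' h
  unfold Rt at h
  simp only [Prod.mk.injEq] at h
  exact h.2.2.1

theorem Rt_col (u : ℝ) (γ t : ℕ) : Det (Rt F ln p u γ t) (fun q => q.1) := by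
  intro q q' h
  unfold Rt at h
  simp only [Prod.mk.injEq] at h
  exact h.1

/-- larger guards give coarser boxes -/
theorem Rt_guard (u : ℝ) {γ γ' : ℕ} (h : γ ≤ γ') (t : ℕ) :
    Det (Rt F ln p u γ t) (Rt F ln p u γ' t) := by
  rintro ⟨c, ω⟩ ⟨c', ω'⟩ h'
  unfold Rt at h' ⊢
  simp only [Prod.mk.injEq] at h' ⊢
  obtain ⟨rfl, h2, h3, h4⟩ := h'
  refine ⟨rfl, h2, h3, ?_⟩
  have key : ∀ ω₁ : Ω, Nf F ln p γ' t c ω₁ =
      Prm.N γ' (min t (F.T' ω₁ + γ')) c (F.P.x ω₁) (ln ω₁) := fun _ => rfl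
  rcases F.T'_cases h3 with ⟨hx, hT⟩ | ⟨hT, hT'⟩
  · by_cases ht : t ≤ F.T' ω + γ
    · unfold Nf at h4 ⊢
      rw [← hT] at h4 ⊢
      rw [min_eq_left ht] at h4
      rw [min_eq_left (by omega)]
      exact Prm.N_guard h h4
    · push Not at ht
      rw [Nf_last c ht.le, Nf_last c (by rw [← hT]; exact ht.le)] at h4
      exact Nf_of_Nr hx h4
  · unfold Nf at h4 ⊢
    rw [min_eq_left (by omega), min_eq_left (by omega)] at h4 ⊢
    exact Prm.N_guard h h4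

variable {Lab : Type*} {lam : Ω → Lab}

/-- column and fine box -/
def rb (F : Fr Ω) (ln : Ω → Pt) (p : Prm) (lam : Ω → Lab) (q : p.Col × Ω) :
    p.Col × (ℕ × Lab) × ℤ × ℤ := (q.1, rho F ln p lam q.1 q.2)

theorem rb_Rt (u : ℝ) (γ t : ℕ) : Det (rb F ln p lam) (Rt F ln p u γ t) := by
  rintro ⟨c, ω⟩ ⟨c', ω'⟩ h
  unfold rb rho at h
  unfold Rt
  simp only [Prod.mk.injEq] at h ⊢
  obtain ⟨rfl, ⟨h2, -⟩, h3, h4⟩ := h
  have hx := F.xW _ _ h2
  exact ⟨rfl, h3, F.D_of_x hx, Nf_of_Nr hx h4⟩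

theorem rb_W (j : ℕ) (hj : j ≤ F.n) : Det (rb F ln p lam) (fun q => F.P.W j q.2) := by
  rintro ⟨c, ω⟩ ⟨c', ω'⟩ h
  unfold rb rho at h
  simp only [Prod.mk.injEq] at h
  exact F.P.nest_le hj h.2.1.1

theorem rb_col : Det (rb F ln p lam) (fun q => q.1) := by
  rintro ⟨c, ω⟩ ⟨c', ω'⟩ h
  unfold rb at h
  simp only [Prod.mk.injEq] at h
  exact h.1

theorem rb_V : Det (rb F ln p lam) (fun q => (F.P.W F.n q.2, lam q.2)) := by
  rintro ⟨c, ω⟩ ⟨c', ω'⟩ h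
  unfold rb rho at h
  simp only [Prod.mk.injEq] at h ⊢
  exact h.2.1

/-! ### the hypotheses of the guard lemma -/

/-- a line moves by at most one unit in a cell -/
theorem b_le (c : p.Kap) (u : ℝ) {t : ℕ} (ht : t ≤ Prm.ex c) {ω ω' : Ω} (hl : ln ω = ln ω')
    (h : F.D u t ω = F.D u t ω') :
    Prm.b c (F.P.x ω') (ln ω') - Prm.b c (F.P.x ω) (ln ω) ≤ (3 : ℕ) * 2 ^ (Prm.ex c - t) := by
  rw [← hl, Prm.b_sub]
  have h4 := (F.Q u 0).D_close (ω := ω) (ω' := ω') h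
  rw [Fr.Q_x, Fr.Q_x] at h4
  have h0 := Prm.f_nonneg c (ln ω)
  have h1 := Prm.f_lt_one c (ln ω)
  have e : (2 : ℝ) ^ Prm.ex c = 2 ^ (Prm.ex c - t) * 2 ^ t := by
    rw [← pow_add, Nat.sub_add_cancel ht]
  have h5 : (0 : ℝ) < 2 ^ (Prm.ex c - t) := by positivity
  have h6 : (2 : ℝ) ^ t * ((F.P.x ω' - F.P.x ω) * Prm.f c (ln ω)) ≤ 1 := by
    have h7 : (2 : ℝ) ^ t * (F.P.x ω' - F.P.x ω) < 1 := by linarith
    rcases le_total 0 (F.P.x ω' - F.P.x ω) with h8 | h8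
    · have h9 : (0 : ℝ) ≤ 2 ^ t * (F.P.x ω' - F.P.x ω) := by positivity
      nlinarith
    · have h9 : (F.P.x ω' - F.P.x ω) * Prm.f c (ln ω) ≤ 0 := mul_nonpos_of_nonpos_of_nonneg h8 h0
      have h10 : (0 : ℝ) < 2 ^ t := by positivity
      nlinarith
  push_cast
  rw [e]
  nlinarith

/-- the boxes are determined by the line, the time cell and 353's row -/
theorem Rt_of_row (u : ℝ) {γ t : ℕ} (c : p.Col) (ht : t + 1 ≤ Prm.ex c.1 + γ) {ω ω' : Ω}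
    (hl : ln ω = ln ω') (hD : F.D u (t + 1) ω = F.D u (t + 1) ω')
    (hN : ⌊(Prm.b c.1 (F.P.x ω) (ln ω) + (c.2 : ℕ)) / ((3 : ℕ) * 2 ^ (Prm.ex c.1 + γ - (t + 1)))⌋ =
      ⌊(Prm.b c.1 (F.P.x ω') (ln ω') + (c.2 : ℕ)) / ((3 : ℕ) * 2 ^ (Prm.ex c.1 + γ - (t + 1)))⌋) :
    Rt F ln p u γ (t + 1) (c, ω) = Rt F ln p u γ (t + 1) (c, ω') := by
  rw [← Prm.N_eq c ht, ← Prm.N_eq c ht] at hN
  unfold Rt
  simp only [Prod.mk.injEq]
  refine ⟨trivial, by rw [hl], hD, ?_⟩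
  rcases F.T'_cases hD with ⟨-, hT⟩ | ⟨hT, hT'⟩
  · unfold Nf
    rw [← hT]
    exact Prm.N_nest (min_le_left _ _) hN
  · unfold Nf
    rw [min_eq_left (by omega), min_eq_left (by omega)]
    exact hN

/-- the number of periods -/
theorem periods (c : p.Kap) {γ : ℕ} (hγ : γ ≤ p.Γ) :
    2 ^ (Prm.js c + (p.Γ - γ)) * (3 * 2 ^ (Prm.ex c + γ)) = p.nT := by
  unfold Prm.nT
  have h1 := Prm.js_le c
  have h2 : Prm.ex c = p.K - Prm.js c + p.M := rfl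
  rw [mul_left_comm, ← pow_add]
  congr 2
  omega

/-! ### change of the offset -/

/-- a change of the offset by multiples of the fine unit does not change the fine rows -/
theorem Nr_offset (k : p.Kap) (i i' : Fin p.nT) {ω : Ω} (hT : F.T' ω ≤ Prm.ex k) {z : ℤ}
    (h : ((i' : ℕ) : ℤ) = (i : ℕ) + z * (3 * 2 ^ (Prm.ex k - F.T' ω))) :
    Nr F ln p (k, i') ω = Nr F ln p (k, i) ω + z := by
  unfold Nr
  rw [Prm.N_eq (γ := 0) (k, i') (by simpa using hT), Prm.N_eq (γ := 0) (k, i) (by simpa using hT)]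
  have e : ((i' : ℕ) : ℝ) = (i : ℕ) + z * (3 * 2 ^ (Prm.ex k - F.T' ω)) := by
    exact_mod_cast h
  simp only [add_zero]
  rw [e, ← Int.floor_add_intCast]
  congr 1
  push_cast
  have : (0 : ℝ) < 2 ^ (Prm.ex k - F.T' ω) := by positivity
  field_simp
  ring

end boxes

end Vale.Agent.P065.H154
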