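import Vale.Agent.P065.H154.FrameGuard
import Vale.Agent.P065.H353.Book

/-!
# P065, FRAME: the bookkeeping theorem on the frame (helper154)

353's theorem for the pieces `F.Q u s₀`, the columns `p.Col`, the boxes `Rt F ln p u γ` (rows) and
`Rt F ln p u γ'` (time). The structural hypotheses and the guard losses are discharged.
-/

set_option autoImplicit false

open Finset Real

noncomputable section

namespace Vale.Agent.P065.H154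

open Vale.Agent.P065.UB Vale.Agent.P065.Ent Vale.Agent.P065.H268 Vale.Agent.P065.H725
open Vale.Agent.P065.H353 (lbl)

variable {Ω : Type*} [Fintype Ω] [Nonempty Ω] {F : Fr Ω} {ln : Ω → Pt} {p : Prm} {Lab : Type*}
  {lam : Ω → Lab}

instance : Nonempty p.Col := ⟨((false, 0, ⟨0, by positivity⟩, ⟨0, by positivity⟩), ⟨0, p.nT_pos⟩)⟩

/-- the pieces of the frame on columns and flags -/
def Pf (F : Fr Ω) (p : Prm) (u : ℝ) (s₀ : ℕ) : Pcs (p.Col × Ω) :=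
  (F.Q u s₀).pull (Prod.snd : p.Col × Ω → Ω)

open Classical in
/-- **the bookkeeping theorem on the frame**, any kernel -/
theorem bookF_kb (u : ℝ) (s₀ γ γ' : ℕ) (hγ : γ ≤ p.Γ) (hγ' : γ' ≤ p.Γ)
    (hM : F.P.T + s₀ ≤ p.M) {Q q : p.Col × Ω → ℝ} (hQ : IsProb Q) (hq : IsProb q)
    (hsame : ∀ x, Pr q (rb F ln p lam) x = Pr Q (rb F ln p lam) x) (hper : LPer F p q)
    (hW0 : ∀ ω ω', F.P.W 0 ω = F.P.W 0 ω') {B L₀ : ℕ} (hB0 : 0 < B)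
    (hB : ∀ j < F.n, ∀ ω, (lbl (F.Q u s₀) j ω).card ≤ B) (hL₀ : log (9 * B) ≤ L₀ * log 2)
    -- thick boxes and the constants of the cover lemma
    (th : ℕ → p.Col × Ω → Prop)
    (hth : ∀ t a a', Rt F ln p u γ' t a = Rt F ln p u γ' t a' → th t a → th t a')
    {ρ : ℝ} (hρ : 0 ≤ ρ) (hρ1 : ρ ≤ 1) (g₀ A₀ M : ℕ) (hMg : g₀ + L₀ * (2 + A₀) ≤ M + 1)
    {c : ℝ} (hc : 0 < c) {ζ : ℝ} (hζ : ∑ i ∈ Icc A₀ F.n, 2 * (i : ℝ) * (exp c * ρ) ^ i ≤ ζ)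
    -- the kernel
    {kap : ℕ → p.Col × Ω → ℝ} (hkap : Avg.Ker q (fun a => (a.1, ln a.2)) (Rt F ln p u γ')
      (fun t a => kap t a * Avg.kb (Pf F p u s₀) q (fun a => (a.1, ln a.2)) (Rt F ln p u γ') t a))
    (hpos : ∀ t a, 0 < q a → 0 < kap t a)
    -- inputs
    {G₀ mend err near bad thin thk r₀ : ℝ} (cov : p.Col × Ω → ℝ) (hcov : Det (rb F ln p lam) cov)
    (hG : G₀ ≤ Hc q (fun a => F.P.W F.n a.2) (fun a => (a.1, ln a.2)))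
    (hmend : Hc Q (Rt F ln p u γ (F.P.T + s₀)) (fun a => (F.D u (F.P.T + s₀) a.2, a.1)) ≤ mend)
    (hrows : log 2 * ∑ a, Q a * cov a - err ≤ ∑ t ∈ range (F.P.T + s₀),
      Hc Q (Rt F ln p u γ (t + 1)) (fun a => (F.D u (t + 1) a.2, Rt F ln p u γ t a)))
    (hnear : ∑ a, q a * #(Cov (Pf F p u s₀) th M a) ≤ ∑ a, q a * cov a + near)
    (hbad : ∑ a, q a * #{j ∈ range F.n | g₀ ≤ (F.Q u s₀).tm j a.2 ∧
      ¬ Good (Pf F p u s₀) q (fun a => (a.1, ln a.2)) (Rt F ln p u γ') ρ g₀ j a} ≤ bad)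
    (hthin : ∑ a, q a * ∑ t ∈ range (F.P.T + s₀) with ¬ th t a, -log (kap t a) ≤ thin)
    (hthk : ∑ a, q a * #{t ∈ range (F.P.T + s₀) | th t a} ≤ thk)
    (hr₀ : Hc q (Rt F ln p u γ 0) (fun a => (a.1, ln a.2)) ≤ r₀) :
    G₀ ≤ mend + err + 4 / 2 ^ γ * log (#(univ.image (F.P.W F.n))) + r₀ + F.n * log 36 + log 9 +
      log 2 * (near + L₀ * bad +
      L₀ * (c⁻¹ * (thin + 4 / 2 ^ γ' * log (#(univ.image (F.P.W F.n)))) + ζ * (1 + thk)) +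
        (g₀ + L₀ * (2 + A₀))) := by
  have hTm : F.Tm ≤ F.P.T + s₀ := F.Tm_le.trans (Nat.le_add_right _ _)
  have hlam : ∀ γ, γ ≤ p.Γ → ∑ t ∈ range (F.P.T + s₀), Hc q (Rt F ln p u γ (t + 1))
      (fun a => ((F.D u (t + 1) a.2, Rt F ln p u γ t a), (a.1, ln a.2))) ≤
      4 / 2 ^ γ * log (#(univ.image (F.P.W F.n))) := by
    intro γ hγ
    refine (lam_le hq hper u hTm hM hγ).trans ?_
    exact mul_le_mul_of_nonneg_left (Hc_D_le hq u _ _) (by positivity)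
  exact H353.book_kb (F.Q u s₀) hQ hq (rb F ln p lam) hsame ln (Rt F ln p u γ) (Rt_det u γ)
    (Rt_D u γ) (Rt_col u γ 0) (rb_Rt u γ _) (Rt F ln p u γ') (Rt_det u γ') (Rt_D u γ') F.n
    (rb_W F.n le_rfl) (fun ω ω' h => by
      rw [Fr.Q_x, Fr.Q_x, F.xW ω ω' h]) hW0 hB0 hB hL₀ th hth hρ hρ1 g₀ A₀ M hMg hc hζ hkap hpos
    cov hcov hG hmend hrows hnear (hlam γ hγ) (hlam γ' hγ') hbad hthin hthk hr₀

open Classical in
/-- **the bookkeeping theorem on the frame**, convex combinations of the kernels of line and box -/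
theorem bookF_conv (u : ℝ) (s₀ γ γ' : ℕ) (hγ : γ ≤ p.Γ) (hγ' : γ' ≤ p.Γ)
    (hM : F.P.T + s₀ ≤ p.M) {Q q : p.Col × Ω → ℝ} (hQ : IsProb Q) (hq : IsProb q)
    (hsame : ∀ x, Pr q (rb F ln p lam) x = Pr Q (rb F ln p lam) x) (hper : LPer F p q)
    (hW0 : ∀ ω ω', F.P.W 0 ω = F.P.W 0 ω') {B L₀ : ℕ} (hB0 : 0 < B)
    (hB : ∀ j < F.n, ∀ ω, (lbl (F.Q u s₀) j ω).card ≤ B) (hL₀ : log (9 * B) ≤ L₀ * log 2)
    -- thick boxes and the constants of the cover lemma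
    (th : ℕ → p.Col × Ω → Prop)
    (hth : ∀ t a a', Rt F ln p u γ' t a = Rt F ln p u γ' t a' → th t a → th t a')
    {ρ : ℝ} (hρ : 0 ≤ ρ) (hρ1 : ρ ≤ 1) (g₀ A₀ M : ℕ) (hMg : g₀ + L₀ * (2 + A₀) ≤ M + 1)
    {c : ℝ} (hc : 0 < c) {ζ : ℝ} (hζ : ∑ i ∈ Icc A₀ F.n, 2 * (i : ℝ) * (exp c * ρ) ^ i ≤ ζ)
    -- the choice of the kernel
    (s : ℕ → p.Col × Ω → ℝ)
    (hs : ∀ t a a', Rt F ln p u γ' t a = Rt F ln p u γ' t a' → ln a.2 = ln a'.2 →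
      s t a = s t a')
    (hs0 : ∀ t a, 0 ≤ s t a) (hs1 : ∀ t a, s t a ≤ 1)
    -- inputs
    {G₀ mend err near bad thin thk r₀ : ℝ} (cov : p.Col × Ω → ℝ) (hcov : Det (rb F ln p lam) cov)
    (hG : G₀ ≤ Hc q (fun a => F.P.W F.n a.2) (fun a => (a.1, ln a.2)))
    (hmend : Hc Q (Rt F ln p u γ (F.P.T + s₀)) (fun a => (F.D u (F.P.T + s₀) a.2, a.1)) ≤ mend)
    (hrows : log 2 * ∑ a, Q a * cov a - err ≤ ∑ t ∈ range (F.P.T + s₀),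
      Hc Q (Rt F ln p u γ (t + 1)) (fun a => (F.D u (t + 1) a.2, Rt F ln p u γ t a)))
    (hnear : ∑ a, q a * #(Cov (Pf F p u s₀) th M a) ≤ ∑ a, q a * cov a + near)
    (hbad : ∑ a, q a * #{j ∈ range F.n | g₀ ≤ (F.Q u s₀).tm j a.2 ∧
      ¬ Good (Pf F p u s₀) q (fun a => (a.1, ln a.2)) (Rt F ln p u γ') ρ g₀ j a} ≤ bad)
    (hthin : ∑ a, q a * ∑ t ∈ range (F.P.T + s₀) with ¬ th t a,
      -log (s t a * H353.kt (Pf F p u s₀) q (fun a => (a.1, ln a.2)) (Rt F ln p u γ') t a +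
        (1 - s t a) * Avg.ka (Pf F p u s₀) q (Rt F ln p u γ') t a) ≤ thin)
    (hthk : ∑ a, q a * #{t ∈ range (F.P.T + s₀) | th t a} ≤ thk)
    (hr₀ : Hc q (Rt F ln p u γ 0) (fun a => (a.1, ln a.2)) ≤ r₀) :
    G₀ ≤ mend + err + 4 / 2 ^ γ * log (#(univ.image (F.P.W F.n))) + r₀ + F.n * log 36 + log 9 +
      log 2 * (near + L₀ * bad +
      L₀ * (c⁻¹ * (thin + 4 / 2 ^ γ' * log (#(univ.image (F.P.W F.n)))) + ζ * (1 + thk)) +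
        (g₀ + L₀ * (2 + A₀))) := by
  have hTm : F.Tm ≤ F.P.T + s₀ := F.Tm_le.trans (Nat.le_add_right _ _)
  have hlam : ∀ γ, γ ≤ p.Γ → ∑ t ∈ range (F.P.T + s₀), Hc q (Rt F ln p u γ (t + 1))
      (fun a => ((F.D u (t + 1) a.2, Rt F ln p u γ t a), (a.1, ln a.2))) ≤
      4 / 2 ^ γ * log (#(univ.image (F.P.W F.n))) := by
    intro γ hγ
    refine (lam_le hq hper u hTm hM hγ).trans ?_
    exact mul_le_mul_of_nonneg_left (Hc_D_le hq u _ _) (by positivity)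
  exact H353.book_conv (F.Q u s₀) hQ hq (rb F ln p lam) hsame ln (Rt F ln p u γ) (Rt_det u γ)
    (Rt_D u γ) (Rt_col u γ 0) (rb_Rt u γ _) (Rt F ln p u γ') (Rt_det u γ') (Rt_D u γ') F.n
    (rb_W F.n le_rfl) (fun ω ω' h => by
      rw [Fr.Q_x, Fr.Q_x, F.xW ω ω' h]) hW0 hB0 hB hL₀ th hth hρ hρ1 g₀ A₀ M hMg hc hζ s
    (fun t a a' h1 _ h3 => hs t a a' h1 h3) hs0 hs1
    cov hcov hG hmend hrows hnear (hlam γ hγ) (hlam γ' hγ') hbad hthin hthk hr₀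

end Vale.Agent.P065.H154
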