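import Vale.Agent.P065.H279.RowShift

/-!
# P065, package GUARDQ: the guard lemma for a periodic law (helper154)

A law `q` on pairs (column, flag); a column is `(k, i)`, `i` the offset of the rows. If in every
line cell `(ln, D s)` in which the height is not constant the law `q` depends on the offset modulo
the unit of the level `s` only, then the entropy of the row digits, given the line and the time
digits, is at most `4 / 2 ^ γ` times the entropy of the time digits given the line.
-/

set_option autoImplicit false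

open Finset Real

noncomputable section

namespace Vale.Agent.P065.H154

open Vale.Agent.P065.Ent

/-! ### positions -/

lemma sum_range_mul' (f : ℕ → ℝ) (m u : ℕ) :
    ∑ i ∈ range (m * u), f i = ∑ s ∈ range m, ∑ a ∈ range u, f (s * u + a) := by
  induction m with
  | zero => simp
  | succ m ih => rw [Nat.succ_mul, sum_range_add, ih, sum_range_succ]

/-- **averaging over the positions**: `f` depends on `i mod u` only, the cell of `B + i` (cells of
length `u`) has one given position out of `G` -/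
theorem sum_pos {u G c n : ℕ} (hu : 0 < u) (hG : 0 < G) (hn : c * (u * G) = n) (B r : ℤ)
    (h0 : 0 ≤ r) (h1 : r < G) (f : ℕ → ℝ)
    (hf : ∀ i j, i < n → j < n → i % u = j % u → f i = f j) :
    ∑ i ∈ range n, (if ((B + (i : ℤ)) / (u : ℤ)) % (G : ℤ) = r then f i else 0) =
      (1 / (G : ℝ)) * ∑ i ∈ range n, f i := by
  have hu' : (u : ℤ) ≠ 0 := by exact_mod_cast hu.ne'
  have hG' : (G : ℝ) ≠ 0 := by exact_mod_cast hG.ne'
  have e0 : n = (c * G) * u := by rw [← hn]; ring
  rcases Nat.eq_zero_or_pos c with hc | hc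
  · subst hc
    rw [zero_mul] at hn
    subst hn
    simp
  have hun : u ≤ n := by
    rw [← hn]
    calc u = 1 * (u * 1) := by ring
      _ ≤ c * (u * G) := Nat.mul_le_mul hc (Nat.mul_le_mul_left u hG)
  have hfa : ∀ s ∈ range (c * G), ∀ a ∈ range u, f (s * u + a) = f a := by
    intro s hs a ha
    have hs' := mem_range.1 hs
    have ha' := mem_range.1 ha
    refine hf _ _ ?_ (by omega) ?_
    · rw [e0]
      calc s * u + a < s * u + u := by omega
        _ = (s + 1) * u := by ring
        _ ≤ c * G * u := Nat.mul_le_mul_right u hs'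
    · rw [Nat.mul_add_mod', Nat.mod_eq_of_lt ha']
  rw [e0, sum_range_mul' _ (c * G) u, sum_range_mul' f (c * G) u]
  have e1 : ∑ s ∈ range (c * G), ∑ a ∈ range u, f (s * u + a) =
      (c * G : ℕ) * ∑ a ∈ range u, f a := by
    rw [sum_congr rfl fun s hs => sum_congr rfl fun a ha => hfa s hs a ha, sum_const, card_range,
      nsmul_eq_mul]
  have e2 : ∀ s ∈ range (c * G), ∀ a ∈ range u,
      (if ((B + ((s * u + a : ℕ) : ℤ)) / (u : ℤ)) % (G : ℤ) = r then f (s * u + a) else 0) =
      f a * (if ((B + a) / (u : ℤ) + s) % (G : ℤ) = r then (1 : ℝ) else 0) := by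
    intro s hs a ha
    rw [hfa s hs a ha]
    have : (B + ((s * u + a : ℕ) : ℤ)) / (u : ℤ) = (B + a) / (u : ℤ) + s := by
      push_cast
      rw [show B + ((s : ℤ) * u + a) = B + a + s * u by ring, Int.add_mul_ediv_right _ _ hu']
    rw [this]
    split_ifs <;> simp
  have e3 : ∀ a : ℕ, ∑ s ∈ range (c * G),
      (if ((B + a) / (u : ℤ) + s) % (G : ℤ) = r then (1 : ℝ) else 0) = c := by
    intro a
    rw [sum_range_mul']
    have : ∀ s' ∈ range c, ∑ s ∈ range G,
        (if ((B + a) / (u : ℤ) + ((s' * G + s : ℕ) : ℤ)) % (G : ℤ) = r then (1 : ℝ) else 0) =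
        1 := by
      intro s' _
      have h2 := H279.sum_mod_one G hG ((B + a) / (u : ℤ) + s' * G) r h0 h1
      refine Eq.trans (sum_congr rfl fun s _ => ?_) h2
      push_cast
      rw [add_assoc]
    rw [sum_congr rfl this, sum_const, card_range, nsmul_eq_mul, mul_one]
  rw [sum_congr rfl fun s hs => sum_congr rfl fun a ha => e2 s hs a ha, sum_comm, e1]
  have e4 : ∀ a ∈ range u, ∑ s ∈ range (c * G),
      f a * (if ((B + a) / (u : ℤ) + s) % (G : ℤ) = r then (1 : ℝ) else 0) = c * f a := by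
    intro a _
    rw [← mul_sum, e3 a, mul_comm]
  rw [sum_congr rfl e4, ← mul_sum]
  push_cast
  field_simp

/-- **two positions** -/
theorem sum_pos2 {u G c n : ℕ} (hu : 0 < u) (hG : 0 < G) (hn : c * (u * G) = n) (B : ℤ)
    (f : ℕ → ℝ) (hf : ∀ i j, i < n → j < n → i % u = j % u → f i = f j) (hf0 : ∀ i, 0 ≤ f i)
    (E : ℕ → Prop) [DecidablePred E]
    (hE : ∀ i, i < n → E i → ((B + (i : ℤ)) / (u : ℤ)) % (G : ℤ) = 0 ∨
      ((B + (i : ℤ)) / (u : ℤ)) % (G : ℤ) = G - 1) :
    ∑ i ∈ range n, (if E i then f i else 0) ≤ (2 / (G : ℝ)) * ∑ i ∈ range n, f i := by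
  have h1 := sum_pos hu hG hn B 0 le_rfl (by exact_mod_cast hG) f hf
  have h2 := sum_pos hu hG hn B (G - 1) (by have : (1 : ℤ) ≤ G := by exact_mod_cast hG
                                            omega) (by omega) f hf
  have h3 : ∑ i ∈ range n, (if E i then f i else 0) ≤
      ∑ i ∈ range n, (if ((B + (i : ℤ)) / (u : ℤ)) % (G : ℤ) = 0 then f i else 0) +
      ∑ i ∈ range n, (if ((B + (i : ℤ)) / (u : ℤ)) % (G : ℤ) = (G : ℤ) - 1 then f i else 0) := by
    rw [← sum_add_distrib]
    refine sum_le_sum fun i hi => ?_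
    have hi' := mem_range.1 hi
    have g1 : 0 ≤ (if ((B + (i : ℤ)) / (u : ℤ)) % (G : ℤ) = 0 then f i else 0) := by
      split_ifs
      · exact hf0 i
      · exact le_rfl
    have g2 : 0 ≤ (if ((B + (i : ℤ)) / (u : ℤ)) % (G : ℤ) = (G : ℤ) - 1 then f i else 0) := by
      split_ifs
      · exact hf0 i
      · exact le_rfl
    by_cases h : E i
    · rw [if_pos h]
      rcases hE i hi' h with h4 | h4
      · rw [if_pos h4]
        linarith
      · rw [if_pos h4] at g2 ⊢
        linarith
    · rw [if_neg h]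
      linarith
  rw [h1, h2] at h3
  refine h3.trans (le_of_eq ?_)
  ring

/-- the row cell of a real height -/
lemma floor_div (x : ℝ) (i m : ℕ) : ⌊(x + i) / (m : ℝ)⌋ = (⌊x⌋ + (i : ℤ)) / (m : ℤ) := by
  rw [Int.floor_div_natCast, Int.floor_add_natCast]

/-- if a row boundary separates two heights at distance at most `u` then the cell of length `u` is
the first or the last one of its row -/
lemma pos_of_ne {u G : ℕ} (hu : 0 < u) (hG : 0 < G) {x y : ℝ} {i : ℕ} (h1 : y - x ≤ u)
    (h2 : x - y ≤ u)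
    (h : ⌊(x + i) / ((u * G : ℕ) : ℝ)⌋ ≠ ⌊(y + i) / ((u * G : ℕ) : ℝ)⌋) :
    ((⌊x⌋ + (i : ℤ)) / (u : ℤ)) % (G : ℤ) = 0 ∨
      ((⌊x⌋ + (i : ℤ)) / (u : ℤ)) % (G : ℤ) = G - 1 := by
  have hu' : (0 : ℤ) < u := by exact_mod_cast hu
  have hG' : (0 : ℤ) < G := by exact_mod_cast hG
  rw [floor_div, floor_div] at h
  push_cast at h
  rw [← Int.ediv_ediv_of_nonneg hu'.le, ← Int.ediv_ediv_of_nonneg hu'.le] at h
  have h3 : ⌊y⌋ ≤ ⌊x⌋ + u := by
    have : ⌊y⌋ ≤ ⌊x + u⌋ := Int.floor_mono (by linarith)
    rwa [Int.floor_add_natCast] at this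
  have h4 : ⌊x⌋ ≤ ⌊y⌋ + u := by
    have : ⌊x⌋ ≤ ⌊y + u⌋ := Int.floor_mono (by linarith)
    rwa [Int.floor_add_natCast] at this
  set a := (⌊x⌋ + (i : ℤ)) / (u : ℤ) with ha
  set b := (⌊y⌋ + (i : ℤ)) / (u : ℤ) with hb
  have h5 : b ≤ a + 1 := by
    have : b ≤ (⌊x⌋ + (i : ℤ) + 1 * u) / (u : ℤ) := Int.ediv_le_ediv hu' (by linarith)
    rwa [Int.add_mul_ediv_right _ _ hu'.ne'] at this
  have h6 : a ≤ b + 1 := by
    have : a ≤ (⌊y⌋ + (i : ℤ) + 1 * u) / (u : ℤ) := Int.ediv_le_ediv hu' (by linarith)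
    rwa [Int.add_mul_ediv_right _ _ hu'.ne'] at this
  have h7 : a ≠ b := fun e => h (by rw [e])
  have e1 := Int.emod_add_mul_ediv a G
  have e2 := Int.emod_add_mul_ediv b G
  have e3 := Int.emod_nonneg a hG'.ne'
  have e4 := Int.emod_lt_of_pos a hG'
  have e5 := Int.emod_nonneg b hG'.ne'
  have e6 := Int.emod_lt_of_pos b hG'
  rcases (by omega : b = a + 1 ∨ b = a - 1) with h8 | h8
  · right
    -- a / G ≠ b / G, so b / G = a / G + 1
    by_contra hc
    apply h
    have h9 : a % G + 1 < G := by omega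
    rw [h8]
    have : (a + 1) / (G : ℤ) = a / G := by
      rw [show a + 1 = (a % G + 1) + G * (a / G) by linarith, Int.add_mul_ediv_left _ _ hG'.ne',
        Int.ediv_eq_zero_of_lt (by omega) h9, zero_add]
    rw [this]
  · left
    by_contra hc
    apply h
    have h9 : 0 ≤ a % G - 1 := by omega
    rw [h8]
    have : (a - 1) / (G : ℤ) = a / G := by
      rw [show a - 1 = (a % G - 1) + G * (a / G) by linarith, Int.add_mul_ediv_left _ _ hG'.ne',
        Int.ediv_eq_zero_of_lt h9 (by omega), zero_add]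
    rw [this]

/-! ### the guard lemma -/

section guard

variable {Ω : Type*} [Fintype Ω] {κ' : Type*} [Fintype κ'] {L δ β η : Type*}

/-- sum of the geometric series of the guards -/
lemma sum_guard_le (γ s : ℕ) :
    ∑ t ∈ range s, (2 / (2 : ℝ) ^ (γ + (s - (t + 1)))) ≤ 4 / 2 ^ γ := by
  have h1 : ∑ t ∈ range s, (2 / (2 : ℝ) ^ (γ + (s - (t + 1)))) =
      ∑ j ∈ range s, (2 / (2 : ℝ) ^ (γ + j)) := by
    rw [← sum_range_reflect]
    refine sum_congr rfl fun j hj => ?_
    have := mem_range.1 hj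
    congr 3
    omega
  rw [h1]
  have h2 : ∀ s : ℕ, ∑ j ∈ range s, (2 / (2 : ℝ) ^ (γ + j)) = 4 / 2 ^ γ - 4 / 2 ^ (γ + s) := by
    intro s
    induction s with
    | zero => simp
    | succ s ih =>
      rw [sum_range_succ, ih, ← add_assoc, pow_succ]
      have : (0 : ℝ) < 2 ^ (γ + s) := by positivity
      field_simp
      ring
  rw [h2]
  have : (0 : ℝ) ≤ 4 / 2 ^ (γ + s) := by positivity
  linarith

open Classical in
/-- **the guard lemma for a periodic law** -/
theorem guardQ {nT : ℕ} {q : (κ' × Fin nT) × Ω → ℝ} (hq : IsProb q) (ln : Ω → L)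
    (D : ℕ → Ω → δ) (hD : ∀ t, Det (D (t + 1)) (D t)) {T γ υ : ℕ} (hυ : 0 < υ)
    (M c₀ : κ' → ℕ) (hTM : ∀ k, T ≤ M k) (hM : ∀ k, c₀ k * (υ * 2 ^ (M k + γ)) = nT)
    (b : κ' → Ω → ℝ)
    (hb : ∀ k t, t < T → ∀ ω ω', ln ω = ln ω' → D t ω = D t ω' →
      b k ω' - b k ω ≤ υ * 2 ^ (M k - t))
    (hbT : ∀ k ω ω', ln ω = ln ω' → D T ω = D T ω' → b k ω = b k ω')
    (hper : ∀ k t, t < T → ∀ ω,
      (∀ ω', ln ω = ln ω' → D t ω = D t ω' → b k ω = b k ω') ∨
      (∀ ω', ln ω = ln ω' → D t ω = D t ω' → ∀ i i' : Fin nT,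
        (i : ℕ) % (υ * 2 ^ (M k - t)) = i' % (υ * 2 ^ (M k - t)) →
          q ((k, i), ω') = q ((k, i'), ω')))
    (R : ℕ → (κ' × Fin nT) × Ω → β)
    (hR : ∀ t, t < T → ∀ (k : κ' × Fin nT) ω ω', ln ω = ln ω' → D (t + 1) ω = D (t + 1) ω' →
      R t (k, ω) = R t (k, ω') →
      ⌊(b k.1 ω + (k.2 : ℕ)) / (υ * 2 ^ (M k.1 + γ - (t + 1)))⌋ =
        ⌊(b k.1 ω' + (k.2 : ℕ)) / (υ * 2 ^ (M k.1 + γ - (t + 1)))⌋ →
      R (t + 1) (k, ω) = R (t + 1) (k, ω'))
    (Y : (κ' × Fin nT) × Ω → η) (hY : Det Y (fun p => (ln p.2, p.1))) :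
    ∑ t ∈ range T, Hc q (R (t + 1)) (fun p => ((D (t + 1) p.2, R t p), Y p)) ≤
      4 / 2 ^ γ * Hc q (fun p => D T p.2) (fun p => (D 0 p.2, (ln p.2, p.1))) := by
  -- the classes
  set Cl : ℕ → (κ' × Fin nT) × Ω → δ × (L × (κ' × Fin nT)) :=
    fun s p => (D s p.2, (ln p.2, p.1)) with hCl
  have hCld : ∀ s, Det (Cl (s + 1)) (Cl s) := by
    intro s p p' h
    simp only [hCl, Prod.mk.injEq] at h ⊢
    exact ⟨hD s _ _ h.1, h.2⟩
  set m : ℕ → (κ' × Fin nT) × Ω → ℝ := fun s p => Pr q (Cl s) (Cl s p) with hm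
  set F : ℕ → (κ' × Fin nT) × Ω → ℤ := fun t p =>
    ⌊(b p.1.1 p.2 + (p.1.2 : ℕ)) / (υ * 2 ^ (M p.1.1 + γ - (t + 1)))⌋ with hF
  have hmpos : ∀ s p, 0 < q p → 0 < m s p := fun s p hp => Pr_pos hq (Cl s) hp
  have hmanti : ∀ s p, m (s + 1) p ≤ m s p := fun s p => Pr_mono hq (hCld s) p
  set σ : ℕ → (κ' × Fin nT) × Ω → ℝ := fun s p => log (m s p) - log (m (s + 1) p) with hσ
  have hσ0 : ∀ s p, 0 < q p → 0 ≤ σ s p := fun s p hp =>
    sub_nonneg.2 (log_le_log (hmpos (s + 1) p hp) (hmanti s p))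
  -- step 1
  have h1 : ∀ t ∈ range T, Hc q (R (t + 1)) (fun p => ((D (t + 1) p.2, R t p), Y p)) ≤
      Hc q (F t) (Cl (t + 1)) := by
    intro t ht
    have ht' := mem_range.1 ht
    have e1 : Hc q (R (t + 1)) (fun p => ((D (t + 1) p.2, R t p), Y p)) ≤
        Hc q (R (t + 1)) (fun p => ((D (t + 1) p.2, R t p), (ln p.2, p.1))) :=
      Hc_anti hq _ ((det_fst _ _).pair ((det_snd _ _).trans hY))
    have e2 : Hc q (R (t + 1)) (fun p => ((D (t + 1) p.2, R t p), (ln p.2, p.1))) ≤
        Hc q (F t) (fun p => ((D (t + 1) p.2, R t p), (ln p.2, p.1))) := by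
      have e3 := Hc_le_add hq (R (t + 1)) (F t)
        (fun p => ((D (t + 1) p.2, R t p), (ln p.2, p.1)))
      have e4 : Hc q (R (t + 1)) (fun p => (F t p,
          ((D (t + 1) p.2, R t p), (ln p.2, p.1)))) = 0 := by
        refine Hc_eq_zero ?_
        rintro ⟨k, ω⟩ ⟨k', ω'⟩ h
        simp only [Prod.mk.injEq] at h
        obtain ⟨f1, ⟨f2, f3⟩, f4, f5⟩ := h
        subst f5
        exact hR t ht' k ω ω' f4 f2 f3 f1
      rw [e4, zero_add] at e3
      exact e3
    have e3 : Hc q (F t) (fun p => ((D (t + 1) p.2, R t p), (ln p.2, p.1))) ≤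
        Hc q (F t) (Cl (t + 1)) := by
      refine Hc_anti hq _ ?_
      intro p p' h
      simp only [hCl, Prod.mk.injEq] at h ⊢
      exact ⟨h.1.1, h.2⟩
    exact e1.trans (e2.trans e3)
  -- step 2: pointwise
  set Z : ℕ → ℕ → (κ' × Fin nT) × Ω → Prop := fun t s p =>
    ∃ p', Cl s p' = Cl s p ∧ F t p' ≠ F t p with hZ
  have hcl_eq : ∀ s (p p' : (κ' × Fin nT) × Ω), Cl s p' = Cl s p →
      D s p'.2 = D s p.2 ∧ ln p'.2 = ln p.2 ∧ p'.1 = p.1 := by
    intro s p p' h
    simp only [hCl, Prod.mk.injEq] at h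
    exact ⟨h.1, h.2.1, h.2.2⟩
  have h2 : ∀ t p, 0 < q p → ∀ d s, s + d = T →
      log (m s p) - log (Pr q (fun p => (F t p, Cl s p)) (F t p, Cl s p)) ≤
        ∑ s' ∈ Ico s T, (if Z t s' p then σ s' p else 0) := by
    intro t p hp d
    induction d with
    | zero =>
      intro s hs
      rw [add_zero] at hs
      subst hs
      rw [Ico_self, sum_empty]
      have e : Pr q (fun p => (F t p, Cl s p)) (F t p, Cl s p) = m s p := by
        refine Pr_congr (X := fun p => (F t p, Cl s p)) (Y := Cl s) (det_snd _ _) ?_ p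
        intro p₁ p₂ h
        obtain ⟨a1, a2, a3⟩ := hcl_eq s p₂ p₁ h
        refine Prod.ext ?_ h
        simp only [hF]
        rw [a3, hbT p₂.1.1 p₁.2 p₂.2 a2 a1]
      rw [e, sub_self]
    | succ d ih =>
      intro s hs
      have ih' := ih (s + 1) (by omega)
      have hsT : s < T := by omega
      rw [sum_eq_sum_Ico_succ_bot hsT]
      by_cases hz : Z t s p
      · rw [if_pos hz]
        have e1 : log (Pr q (fun p => (F t p, Cl (s + 1) p)) (F t p, Cl (s + 1) p)) ≤
            log (Pr q (fun p => (F t p, Cl s p)) (F t p, Cl s p)) := by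
          refine log_le_log (Pr_pos hq (fun p => (F t p, Cl (s + 1) p)) hp) ?_
          exact Pr_mono hq (X := fun p => (F t p, Cl (s + 1) p)) (Y := fun p => (F t p, Cl s p))
            ((det_fst _ _).pair ((det_snd _ _).trans (hCld s))) p
        simp only [hσ]
        linarith
      · have e : Pr q (fun p => (F t p, Cl s p)) (F t p, Cl s p) = m s p := by
          unfold Pr
          simp only [hm]
          unfold Pr
          refine sum_congr rfl fun p' _ => ?_
          by_cases hc : Cl s p' = Cl s p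
          · have hf : F t p' = F t p := by
              by_contra hne
              exact hz ⟨p', hc, hne⟩
            rw [if_pos (by rw [hc, hf]), if_pos hc]
          · rw [if_neg fun h => hc (Prod.mk.inj h).2, if_neg hc]
        rw [e, sub_self]
        refine add_nonneg ?_ (sum_nonneg fun s' _ => ?_)
        · rw [if_neg hz]
        · split_ifs
          · exact hσ0 s' p hp
          · exact le_rfl
  have h3 : ∀ t ∈ range T, Hc q (F t) (Cl (t + 1)) ≤
      ∑ p, ∑ s ∈ Ico (t + 1) T, (if Z t s p then q p * σ s p else 0) := by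
    intro t ht
    have ht' := mem_range.1 ht
    rw [Hc_eq_sum hq]
    refine sum_le_sum fun p _ => ?_
    rcases (hq.nonneg p).eq_or_lt with h0 | h0
    · rw [← h0, zero_mul]
      refine sum_nonneg fun s _ => ?_
      simp
    · have e1 := h2 t p h0 (T - (t + 1)) (t + 1) (by omega)
      have e2 : - log (Pr q (fun p => (F t p, Cl (t + 1) p)) (F t p, Cl (t + 1) p) /
          Pr q (Cl (t + 1)) (Cl (t + 1) p)) =
          log (m (t + 1) p) - log (Pr q (fun p => (F t p, Cl (t + 1) p)) (F t p, Cl (t + 1) p)) := by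
        rw [log_div (Pr_pos hq (fun p => (F t p, Cl (t + 1) p)) h0).ne' (hmpos (t + 1) p h0).ne']
        ring
      rw [e2]
      calc q p * (log (m (t + 1) p) -
            log (Pr q (fun p => (F t p, Cl (t + 1) p)) (F t p, Cl (t + 1) p)))
          ≤ q p * ∑ s ∈ Ico (t + 1) T, (if Z t s p then σ s p else 0) :=
            mul_le_mul_of_nonneg_left e1 h0.le
        _ = ∑ s ∈ Ico (t + 1) T, (if Z t s p then q p * σ s p else 0) := by
            rw [mul_sum]
            refine sum_congr rfl fun s _ => ?_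
            split_ifs
            · rfl
            · rw [mul_zero]
  -- step 3: average over the offset
  have h4 : ∀ t s, t + 1 ≤ s → s < T → ∀ (k : κ') (ω : Ω),
      ∑ i : Fin nT, (if Z t s ((k, i), ω) then q ((k, i), ω) * σ s ((k, i), ω) else 0) ≤
        2 / 2 ^ (γ + (s - (t + 1))) * ∑ i : Fin nT, q ((k, i), ω) * σ s ((k, i), ω) := by
    intro t s hts hsT k ω
    have hnn : ∀ i : Fin nT, 0 ≤ q ((k, i), ω) * σ s ((k, i), ω) := by
      intro i
      rcases (hq.nonneg ((k, i), ω)).eq_or_lt with h0 | h0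
      · rw [← h0, zero_mul]
      · exact mul_nonneg h0.le (hσ0 s _ h0)
    rcases hper k s hsT ω with hl | hr
    · -- the height is constant
      refine le_trans (le_of_eq ?_) (mul_nonneg (by positivity) (sum_nonneg fun i _ => hnn i))
      refine sum_eq_zero fun i _ => if_neg ?_
      rintro ⟨p', hc, hne⟩
      obtain ⟨a1, a2, a3⟩ := hcl_eq s _ p' hc
      apply hne
      simp only [hF]
      rw [a3, hl p'.2 a2.symm a1.symm]
    · -- the law is periodic
      set u := υ * 2 ^ (M k - s) with hu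
      have hu0 : 0 < u := by positivity
      set G := 2 ^ (γ + (s - (t + 1))) with hG
      have hG0 : 0 < G := by positivity
      have hsM : s ≤ M k := hsT.le.trans (hTM k)
      have huG : u * G = υ * 2 ^ (M k + γ - (t + 1)) := by
        rw [hu, hG, mul_assoc, ← pow_add]
        congr 2
        omega
      have hn : (c₀ k * 2 ^ (t + 1)) * (u * G) = nT := by
        rw [huG, ← hM k]
        have : 2 ^ (M k + γ) = 2 ^ (t + 1) * 2 ^ (M k + γ - (t + 1)) := by
          rw [← pow_add]
          congr 1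
          omega
        rw [this]
        ring
      have hclass : ∀ i i' : Fin nT, (i : ℕ) % u = i' % u → ∀ s', s ≤ s' →
          m s' ((k, i), ω) = m s' ((k, i'), ω) := by
        intro i i' hii s' hs'
        have key : ∀ j : Fin nT, m s' ((k, j), ω) =
            ∑ ω', if D s' ω' = D s' ω ∧ ln ω' = ln ω then q ((k, j), ω') else 0 := by
          intro j
          simp only [hm]
          unfold Pr
          rw [Fintype.sum_prod_type, sum_eq_single (k, j)]
          · refine sum_congr rfl fun ω' _ => ?_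
            simp only [hCl, Prod.mk.injEq, and_true]
          · rintro ⟨k', j'⟩ _ hne
            refine sum_eq_zero fun ω' _ => if_neg fun h => hne ?_
            simp only [hCl, Prod.mk.injEq] at h
            exact Prod.ext h.2.2.1 h.2.2.2
          · intro h
            exact absurd (mem_univ _) h
        rw [key i, key i']
        refine sum_congr rfl fun ω' _ => ?_
        split_ifs with h
        · have hDs : D s ω = D s ω' := by
            have : ∀ s', s ≤ s' → Det (D s') (D s) := by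
              intro s' hs'
              induction s', hs' using Nat.le_induction with
              | base => exact Det.refl _
              | succ n _ ih => exact (hD n).trans ih
            exact (this s' hs' _ _ h.1).symm
          exact hr ω' h.2.symm hDs i i' hii
        · rfl
      set f : ℕ → ℝ := fun i => if h : i < nT then
        q ((k, ⟨i, h⟩), ω) * σ s ((k, ⟨i, h⟩), ω) else 0 with hf
      have hfv : ∀ i : Fin nT, f i = q ((k, i), ω) * σ s ((k, i), ω) := fun i => by
        simp only [hf, i.2, dif_pos]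
      have hf0 : ∀ i, 0 ≤ f i := by
        intro i
        simp only [hf]
        split_ifs with h
        · exact hnn _
        · exact le_rfl
      have hfp : ∀ i j, i < nT → j < nT → i % u = j % u → f i = f j := by
        intro i j hi hj hij
        simp only [hf, hi, hj, dif_pos, hσ]
        rw [hclass ⟨i, hi⟩ ⟨j, hj⟩ hij s le_rfl, hclass ⟨i, hi⟩ ⟨j, hj⟩ hij (s + 1) (Nat.le_succ s),
          hr ω rfl rfl ⟨i, hi⟩ ⟨j, hj⟩ hij]
      have key := sum_pos2 hu0 hG0 hn ⌊b k ω⌋ f hfp hf0
        (fun i => if h : i < nT then Z t s ((k, ⟨i, h⟩), ω) else False) (by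
          intro i hi hE
          simp only [hi, dif_pos] at hE
          obtain ⟨p', hc, hne⟩ := hE
          obtain ⟨a1, a2, a3⟩ := hcl_eq s _ p' hc
          simp only [hF] at hne
          rw [a3] at hne
          simp only at hne a1 a2
          have hcast : ((υ : ℝ) * 2 ^ (M k + γ - (t + 1))) = ((u * G : ℕ) : ℝ) := by
            rw [huG]
            push_cast
            rfl
          rw [hcast] at hne
          have hucast : ((u : ℕ) : ℝ) = (υ : ℝ) * 2 ^ (M k - s) := by
            rw [hu]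
            push_cast
            rfl
          refine pos_of_ne hu0 hG0 (x := b k ω) (y := b k p'.2) ?_ ?_ (Ne.symm hne)
          · rw [hucast]
            exact hb k s hsT ω p'.2 a2.symm a1.symm
          · rw [hucast]
            exact hb k s hsT p'.2 ω a2 a1)
      have e1 : ∑ i : Fin nT, (if Z t s ((k, i), ω) then q ((k, i), ω) * σ s ((k, i), ω) else 0) =
          ∑ i ∈ range nT, (if (if h : i < nT then Z t s ((k, ⟨i, h⟩), ω) else False)
            then f i else 0) := by
        rw [Finset.sum_range (fun i => if (if h : i < nT then Z t s ((k, ⟨i, h⟩), ω) else False)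
            then f i else 0)]
        refine sum_congr rfl fun i _ => ?_
        simp only [i.2, dif_pos, hfv]
      have e2 : ∑ i : Fin nT, q ((k, i), ω) * σ s ((k, i), ω) = ∑ i ∈ range nT, f i := by
        rw [Finset.sum_range f]
        exact sum_congr rfl fun i _ => (hfv i).symm
      rw [e1, e2]
      refine key.trans (le_of_eq ?_)
      rw [hG]
      push_cast
      rfl
  -- step 4: summation
  have h5 : ∑ t ∈ range T, ∑ p, ∑ s ∈ Ico (t + 1) T, (if Z t s p then q p * σ s p else 0) ≤
      4 / 2 ^ γ * ∑ s ∈ range T, ∑ p, q p * σ s p := by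
    have e1 : ∀ t s, t + 1 ≤ s → s < T → ∑ p, (if Z t s p then q p * σ s p else 0) ≤
        2 / 2 ^ (γ + (s - (t + 1))) * ∑ p, q p * σ s p := by
      intro t s hts hsT
      have f1 : ∀ g : (κ' × Fin nT) × Ω → ℝ, ∑ p, g p =
          ∑ k : κ', ∑ ω : Ω, ∑ i : Fin nT, g ((k, i), ω) := by
        intro g
        rw [Fintype.sum_prod_type, Fintype.sum_prod_type]
        exact sum_congr rfl fun k _ => sum_comm
      rw [f1 (fun p => if Z t s p then q p * σ s p else 0), f1 (fun p => q p * σ s p), mul_sum]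
      refine sum_le_sum fun k _ => ?_
      rw [mul_sum]
      exact sum_le_sum fun ω _ => h4 t s hts hsT k ω
    have e2 : ∀ t ∈ range T, ∑ p, ∑ s ∈ Ico (t + 1) T, (if Z t s p then q p * σ s p else 0) ≤
        ∑ s ∈ Ico (t + 1) T, 2 / 2 ^ (γ + (s - (t + 1))) * ∑ p, q p * σ s p := by
      intro t _
      rw [sum_comm]
      refine sum_le_sum fun s hs => ?_
      obtain ⟨hs1, hs2⟩ := mem_Ico.1 hs
      exact e1 t s hs1 hs2
    refine (sum_le_sum e2).trans ?_
    have e3 : ∑ t ∈ range T, ∑ s ∈ Ico (t + 1) T,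
        2 / 2 ^ (γ + (s - (t + 1))) * ∑ p, q p * σ s p =
        ∑ s ∈ range T, ∑ t ∈ range s, 2 / 2 ^ (γ + (s - (t + 1))) * ∑ p, q p * σ s p := by
      refine sum_comm' ?_
      intro t s
      simp only [mem_range, mem_Ico]
      omega
    rw [e3, mul_sum]
    refine sum_le_sum fun s _ => ?_
    rw [← sum_mul]
    refine mul_le_mul_of_nonneg_right (sum_guard_le γ s) (sum_nonneg fun p _ => ?_)
    rcases (hq.nonneg p).eq_or_lt with h0 | h0
    · rw [← h0, zero_mul]
    · exact mul_nonneg h0.le (hσ0 s p h0)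
  -- step 5: telescoping
  have h6 : ∑ s ∈ range T, ∑ p, q p * σ s p =
      Hc q (fun p => D T p.2) (fun p => (D 0 p.2, (ln p.2, p.1))) := by
    have e1 : ∀ s, ∑ p, q p * σ s p = H q (Cl (s + 1)) - H q (Cl s) := by
      intro s
      unfold H
      rw [← sum_sub_distrib]
      refine sum_congr rfl fun p _ => ?_
      simp only [hσ, hm]
      ring
    rw [sum_congr rfl fun s _ => e1 s, sum_range_sub (fun s => H q (Cl s)) T]
    symm
    refine Hc_eq (X' := Cl T) ?_ ?_ ?_
    · exact det_fst _ _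
    · have : ∀ s, Det (Cl s) (Cl 0) := by
        intro s
        induction s with
        | zero => exact Det.refl _
        | succ n ih => exact (hCld n).trans ih
      exact this T
    · intro p p' h
      simp only [hCl, Prod.mk.injEq] at h ⊢
      exact ⟨h.1, h.2.2⟩
  refine (sum_le_sum fun t ht => (h1 t ht).trans (h3 t ht)).trans ?_
  rw [← h6]
  exact h5

end guard

end Vale.Agent.P065.H154
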