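import Vale.Agent.P065.H154.Frame
import Vale.Agent.P065.H154.GuardQ

/-!
# P065, FRAME: the auxiliary laws are periodic in the offset; the guard lemma (helper154)

`FPer f` : the weights of the fine boxes depend on the offset modulo the fine unit of the flag only.
Then the laws `Q` and `Qs` have the same property, and the losses of the rows are small.
-/

set_option autoImplicit false

open Finset

noncomputable section

namespace Vale.Agent.P065.H154

open Vale.Agent.P065.UB Vale.Agent.P065.Ent Vale.Agent.P065.H268 Vale.Agent.P065.H725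

section per

variable {Ω : Type*} {F : Fr Ω} {ln : Ω → Pt} {p : Prm} {Lab : Type*} {lam : Ω → Lab}

/-- a function of column and fine box which depends on the offset modulo the fine unit only -/
def FPer {θ : Type*} (F : Fr Ω) (ln : Ω → Pt) (p : Prm) (lam : Ω → Lab)
    (f : p.Col → (ℕ × Lab) × ℤ × ℤ → θ) : Prop :=
  ∀ (k : p.Kap) (i i' : Fin p.nT) (ω : Ω),
    (i : ℕ) % (3 * 2 ^ (Prm.ex k - F.T' ω)) = i' % (3 * 2 ^ (Prm.ex k - F.T' ω)) →
      f (k, i) (rho F ln p lam (k, i) ω) = f (k, i') (rho F ln p lam (k, i') ω)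

/-- two offsets which agree modulo the fine unit give the same fine boxes, as sets of flags -/
theorem rho_iff (hM : F.Tm ≤ p.M) (k : p.Kap) {i i' : Fin p.nT} {ω ω' : Ω}
    (h : (i : ℕ) % (3 * 2 ^ (Prm.ex k - F.T' ω)) = i' % (3 * 2 ^ (Prm.ex k - F.T' ω))) :
    rho F ln p lam (k, i) ω' = rho F ln p lam (k, i) ω ↔
      rho F ln p lam (k, i') ω' = rho F ln p lam (k, i') ω := by
  have hex : ∀ ω, F.T' ω ≤ Prm.ex k := fun ω => by
    have h1 := F.T'_le ω
    have h2 : Prm.ex k = p.K - Prm.js k + p.M := rfl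
    omega
  -- the difference of the offsets
  have key : ∃ z : ℤ, ((i' : ℕ) : ℤ) = (i : ℕ) + z * (3 * 2 ^ (Prm.ex k - F.T' ω)) := by
    have h1 : ((i' : ℕ) : ℤ) ≡ ((i : ℕ) : ℤ) [ZMOD ((3 * 2 ^ (Prm.ex k - F.T' ω) : ℕ) : ℤ)] := by
      rw [Int.natCast_modEq_iff]
      exact h.symm
    obtain ⟨z, hz⟩ := h1.symm.dvd
    refine ⟨z, ?_⟩
    push_cast at hz
    linarith
  obtain ⟨z, hz⟩ := key
  have h1 := Nr_offset (F := F) (ln := ln) (p := p) k i i' (hex ω) hz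
  have aux : ∀ ω', F.P.W F.n ω' = F.P.W F.n ω →
      Nr F ln p (k, i') ω' = Nr F ln p (k, i) ω' + z := by
    intro ω' hW
    have hT := F.T'x _ _ (F.xW _ _ hW)
    refine Nr_offset (F := F) (ln := ln) (p := p) k i i' (hex ω') ?_
    rw [hT]
    exact hz
  unfold rho
  simp only [Prod.mk.injEq]
  constructor
  · rintro ⟨⟨a1, a2⟩, a3, a4⟩
    exact ⟨⟨a1, a2⟩, a3, by rw [aux ω' a1, h1, a4]⟩
  · rintro ⟨⟨a1, a2⟩, a3, a4⟩
    rw [aux ω' a1, h1] at a4
    exact ⟨⟨a1, a2⟩, a3, by linarith⟩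

variable [Fintype Ω] {μ : Ω → ℝ} {f : p.Col → (ℕ × Lab) × ℤ × ℤ → ℝ} {f0 : ∀ k r, 0 ≤ f k r}
  {f1 : ∀ k r, f k r ≤ 1}

/-- masses of fine boxes -/
theorem Pr_rho_per (hM : F.Tm ≤ p.M) (k : p.Kap) {i i' : Fin p.nT} {ω : Ω}
    (h : (i : ℕ) % (3 * 2 ^ (Prm.ex k - F.T' ω)) = i' % (3 * 2 ^ (Prm.ex k - F.T' ω))) :
    Pr μ (rho F ln p lam (k, i)) (rho F ln p lam (k, i) ω) =
      Pr μ (rho F ln p lam (k, i')) (rho F ln p lam (k, i') ω) := by
  classical
  unfold Pr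
  refine sum_congr rfl fun ω' _ => ?_
  by_cases h1 : rho F ln p lam (k, i) ω' = rho F ln p lam (k, i) ω
  · rw [if_pos h1, if_pos ((rho_iff hM k h).1 h1)]
  · rw [if_neg h1, if_neg fun h2 => h1 ((rho_iff hM k h).2 h2)]

omit [Fintype Ω] in
/-- the label does not depend on the offset -/
lemma lb_off (k : p.Kap) (i i' : Fin p.nT) (ω : Ω) : lb ln p (k, i) ω = lb ln p (k, i') ω := rfl

theorem c_per (hM : F.Tm ≤ p.M) (k : p.Kap) {i i' : Fin p.nT} {ω : Ω}
    (h : (i : ℕ) % (3 * 2 ^ (Prm.ex k - F.T' ω)) = i' % (3 * 2 ^ (Prm.ex k - F.T' ω))) (b : Bool) :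
    (cols F ln p lam f f0 f1).c μ (k, i) b (rho F ln p lam (k, i) ω) =
      (cols F ln p lam f f0 f1).c μ (k, i') b (rho F ln p lam (k, i') ω) := by
  classical
  unfold H700.Cols.c
  have e1 : Pr μ (fun ω => ((cols F ln p lam f f0 f1).E (k, i) ω,
      (cols F ln p lam f f0 f1).ρ (k, i) ω)) (some b, rho F ln p lam (k, i) ω) =
      Pr μ (fun ω => ((cols F ln p lam f f0 f1).E (k, i') ω,
      (cols F ln p lam f f0 f1).ρ (k, i') ω)) (some b, rho F ln p lam (k, i') ω) := by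
    unfold Pr
    refine sum_congr rfl fun ω' _ => ?_
    have e2 : (((cols F ln p lam f f0 f1).E (k, i) ω', (cols F ln p lam f f0 f1).ρ (k, i) ω') =
        (some b, rho F ln p lam (k, i) ω)) ↔
        (((cols F ln p lam f f0 f1).E (k, i') ω', (cols F ln p lam f f0 f1).ρ (k, i') ω') =
        (some b, rho F ln p lam (k, i') ω)) := by
      have e3 := rho_iff (lam := lam) (ln := ln) (ω' := ω') hM k h
      constructor
      · intro h4
        have h5 := Prod.ext_iff.1 h4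
        exact Prod.ext h5.1 (e3.1 h5.2)
      · intro h4
        have h5 := Prod.ext_iff.1 h4
        exact Prod.ext h5.1 (e3.2 h5.2)
    by_cases h1 : ((cols F ln p lam f f0 f1).E (k, i) ω', (cols F ln p lam f f0 f1).ρ (k, i) ω') =
        (some b, rho F ln p lam (k, i) ω)
    · rw [if_pos h1, if_pos (e2.1 h1)]
    · rw [if_neg h1, if_neg fun h2 => h1 (e2.2 h2)]
  rw [e1]
  congr 1
  exact Pr_rho_per hM k h

/-- **the law `Q` is periodic** -/
theorem Q_per (hM : F.Tm ≤ p.M) (hf : FPer F ln p lam f) (k : p.Kap) {i i' : Fin p.nT} {ω : Ω}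
    (h : (i : ℕ) % (3 * 2 ^ (Prm.ex k - F.T' ω)) = i' % (3 * 2 ^ (Prm.ex k - F.T' ω))) :
    (cols F ln p lam f f0 f1).Q μ ((k, i), ω) = (cols F ln p lam f f0 f1).Q μ ((k, i'), ω) := by
  set C := cols F ln p lam f f0 f1 with hC
  have e0 : ∀ b, C.c μ (k, i) b (C.ρ (k, i) ω) = C.c μ (k, i') b (C.ρ (k, i') ω) :=
    fun b => c_per hM k h b
  have e1 : C.pi μ (k, i) (C.ρ (k, i) ω) = C.pi μ (k, i') (C.ρ (k, i') ω) := by
    unfold H700.Cols.pi
    rw [e0, e0]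
  have e2 : C.wt μ (k, i) (C.ρ (k, i) ω) = C.wt μ (k, i') (C.ρ (k, i') ω) := by
    unfold H700.Cols.wt
    rw [e1]
    congr 1
    exact hf k i i' ω h
  have e3 : C.dens μ (k, i) ω = C.dens μ (k, i') ω := by
    unfold H700.Cols.dens
    have e4 : C.E (k, i) ω = C.E (k, i') ω := rfl
    rw [e4]
    rcases C.E (k, i') ω with _ | b
    · rfl
    · simp only
      rw [e2, e0]
  unfold H700.Cols.Q
  simp only
  rw [e3]

/-- **the law `Qs` is periodic** -/
theorem Qs_per (hM : F.Tm ≤ p.M) (hf : FPer F ln p lam f)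
    {s : p.Col → (ℕ × Lab) × ℤ × ℤ → Bool} (hs : FPer F ln p lam s) (k : p.Kap)
    {i i' : Fin p.nT} {ω : Ω}
    (h : (i : ℕ) % (3 * 2 ^ (Prm.ex k - F.T' ω)) = i' % (3 * 2 ^ (Prm.ex k - F.T' ω))) :
    (cols F ln p lam f f0 f1).Qs μ s ((k, i), ω) =
      (cols F ln p lam f f0 f1).Qs μ s ((k, i'), ω) := by
  classical
  set C := cols F ln p lam f f0 f1 with hC
  unfold H700.Cols.Qs
  have e1 : s (k, i) (C.ρ (k, i) ω) = s (k, i') (C.ρ (k, i') ω) := hs k i i' ω h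
  have e2 : C.E (k, i) ω = C.E (k, i') ω := rfl
  have e3 := Q_per (μ := μ) (f0 := f0) (f1 := f1) hM hf k h
  simp only
  rw [e1, e2, e3]

end per

/-! ## The guard lemma of the frame -/

section guard

variable {Ω : Type*} [Fintype Ω] {F : Fr Ω} {ln : Ω → Pt} {p : Prm}

/-- a law on columns and flags which depends on the offset modulo the fine unit only -/
def LPer (F : Fr Ω) (p : Prm) (q : p.Col × Ω → ℝ) : Prop :=
  ∀ (k : p.Kap) (i i' : Fin p.nT) (ω : Ω),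
    (i : ℕ) % (3 * 2 ^ (Prm.ex k - F.T' ω)) = i' % (3 * 2 ^ (Prm.ex k - F.T' ω)) →
      q ((k, i), ω) = q ((k, i'), ω)

omit [Fintype Ω] in
lemma LPer.mod {q : p.Col × Ω → ℝ} (h : LPer F p q) (k : p.Kap) {t : ℕ} {ω : Ω}
    (hT : F.T' ω ≤ Prm.ex k) (ht : t ≤ F.T' ω) {i i' : Fin p.nT}
    (hi : (i : ℕ) % (3 * 2 ^ (Prm.ex k - t)) = i' % (3 * 2 ^ (Prm.ex k - t))) :
    q ((k, i), ω) = q ((k, i'), ω) := by
  apply h
  have hd : 3 * 2 ^ (Prm.ex k - F.T' ω) ∣ 3 * 2 ^ (Prm.ex k - t) :=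
    Nat.mul_dvd_mul_left 3 (pow_dvd_pow 2 (by omega))
  rw [← Nat.mod_mod_of_dvd (i : ℕ) hd, hi, Nat.mod_mod_of_dvd _ hd]

omit [Fintype Ω] in
/-- in a cell with two centres the law depends on the offset modulo the unit of the cell only -/
theorem LPer.cell {q : p.Col × Ω → ℝ} (h : LPer F p q) (hM : F.Tm ≤ p.M) (u : ℝ) (k : p.Kap)
    (t : ℕ) (ω : Ω) :
    (∀ ω', F.D u t ω = F.D u t ω' → F.P.x ω = F.P.x ω') ∨
      (∀ ω', F.D u t ω = F.D u t ω' → ∀ i i' : Fin p.nT,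
        (i : ℕ) % (3 * 2 ^ (Prm.ex k - t)) = i' % (3 * 2 ^ (Prm.ex k - t)) →
          q ((k, i), ω') = q ((k, i'), ω')) := by
  by_cases hx : ∀ ω', F.D u t ω = F.D u t ω' → F.P.x ω = F.P.x ω'
  · exact Or.inl hx
  · right
    push Not at hx
    obtain ⟨ω₁, h1, h2⟩ := hx
    intro ω' hω' i i' hii
    have hex : F.T' ω' ≤ Prm.ex k := by
      have h3 := F.T'_le ω'
      have h4 : Prm.ex k = p.K - Prm.js k + p.M := rfl
      omega
    refine h.mod k hex ?_ hii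
    by_cases h5 : F.P.x ω = F.P.x ω'
    · rw [← F.T'x _ _ h5]
      exact (F.lt_of_ne h1 h2).le
    · exact (F.lt_of_ne hω'.symm (Ne.symm h5)).le

/-- **the guard lemma of the frame** (inputs `hlam`, `hlam'` of the bookkeeping theorem) -/
theorem lam_le {q : p.Col × Ω → ℝ} (hq : IsProb q) (h : LPer F p q) (u : ℝ) {T γ : ℕ}
    (hT : F.Tm ≤ T) (hTM : T ≤ p.M) (hγ : γ ≤ p.Γ) :
    ∑ t ∈ range T, Hc q (Rt F ln p u γ (t + 1))
      (fun a => ((F.D u (t + 1) a.2, Rt F ln p u γ t a), (a.1, ln a.2))) ≤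
      4 / 2 ^ γ * Hc q (fun a => F.D u T a.2) (fun a => (F.D u 0 a.2, (ln a.2, a.1))) := by
  have hex : ∀ k : p.Kap, p.M ≤ Prm.ex k := fun k => by
    have h4 : Prm.ex k = p.K - Prm.js k + p.M := rfl
    omega
  have hbx : ∀ (k : p.Kap) (ω ω' : Ω), ln ω = ln ω' → F.P.x ω = F.P.x ω' →
      Prm.b k (F.P.x ω) (ln ω) = Prm.b k (F.P.x ω') (ln ω') := by
    intro k ω ω' h1 h2
    rw [h1, h2]
  refine guardQ (κ' := p.Kap) (nT := p.nT) hq ln (F.D u) (F.D_det u) (T := T) (γ := γ) (υ := 3)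
    (by norm_num) (fun k => Prm.ex k) (fun k => 2 ^ (Prm.js k + (p.Γ - γ)))
    (fun k => hTM.trans (hex k)) (fun k => periods k hγ)
    (fun k ω => Prm.b k (F.P.x ω) (ln ω)) ?_ ?_ ?_ (Rt F ln p u γ) ?_
    (fun a => (a.1, ln a.2)) ?_
  · intro k t ht ω ω' h1 h2
    exact b_le k u (by have := hex k
                       omega) h1 h2
  · intro k ω ω' h1 h2
    exact hbx k ω ω' h1 (F.x_eq_of_le h2 ((F.T'_le ω).trans hT))
  · intro k t ht ω
    rcases h.cell (hT.trans hTM) u k t ω with h1 | h1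
    · exact Or.inl fun ω' h2 h3 => hbx k ω ω' h2 (h1 ω' h3)
    · exact Or.inr fun ω' _ h3 i i' hi => h1 ω' h3 i i' hi
  · intro t ht k ω ω' h1 h2 _ h4
    refine Rt_of_row u k ?_ h1 h2 h4
    have := hex k.1
    omega
  · intro a a' h1
    simp only [Prod.mk.injEq] at h1 ⊢
    exact ⟨h1.2, h1.1⟩

/-- entropies of times are at most the logarithm of the number of bottom pieces -/
theorem Hc_D_le {δ : Type*} {q : p.Col × Ω → ℝ} (hq : IsProb q) [Nonempty Ω] (u : ℝ) (T : ℕ)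
    (Z : p.Col × Ω → δ) :
    Hc q (fun a => F.D u T a.2) Z ≤ Real.log (#(univ.image (F.P.W F.n))) := by
  have h1 : Hc q (fun a => F.D u T a.2) Z ≤ H q (fun a => F.D u T a.2) := Hc_le_H hq _ _
  have h2 : H q (fun a : p.Col × Ω => F.D u T a.2) ≤ H q (fun a => F.P.W F.n a.2) :=
    H_mono hq fun a a' h => F.D_of_x (F.xW _ _ h)
  have h3 := H_le_log hq (fun a : p.Col × Ω => F.P.W F.n a.2) (univ.image (F.P.W F.n))
    (fun a => mem_image_of_mem _ (mem_univ _)) (card_pos.2 (univ_nonempty.image _))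
  linarith

end guard

end Vale.Agent.P065.H154
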