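import Vale.Agent.P065.H154.FrameBook

/-!
# P065, FRAME: inputs `hthk` and `hr₀` of the bookkeeping theorem (helper154)
-/

set_option autoImplicit false

open Finset Real

noncomputable section

namespace Vale.Agent.P065.H154

open Vale.Agent.P065.UB Vale.Agent.P065.Ent Vale.Agent.P065.H268 Vale.Agent.P065.H725

section abs

variable {Ω : Type*} [Fintype Ω] {β γ : Type*} {q : Ω → ℝ}

/-- **time entropy of nested boxes**: at most the entropy of the last box -/
theorem sum_Hc_le (hq : IsProb q) {δ : Type*} (R : ℕ → Ω → β) (hR : ∀ t, Det (R (t + 1)) (R t))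
    (D : ℕ → Ω → δ) (hRD : ∀ t, Det (R t) (D t)) (c : Ω → γ) (hc : Det (R 0) c) (T : ℕ) :
    ∑ t ∈ range T, Hc q (D (t + 1)) (R t) ≤ Hc q (D T) c + Hc q (R T) (fun ω => (D T ω, c ω)) := by
  have hcT : ∀ t, Det (R t) c := by
    intro t
    induction t with
    | zero => exact hc
    | succ n ih => exact (hR n).trans ih
  have e1 : ∀ t ∈ range T, Hc q (D (t + 1)) (R t) ≤ H q (R (t + 1)) - H q (R t) := by
    intro t _
    have h1 : Hc q (D (t + 1)) (R t) ≤ Hc q (R (t + 1)) (R t) := Hc_mono_left hq (hRD (t + 1))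
    have h2 : Hc q (R (t + 1)) (R t) = H q (R (t + 1)) - H q (R t) :=
      Hc_eq (Det.refl _) (hR t) (det_fst _ _)
    linarith
  have e2 := sum_le_sum e1
  rw [sum_range_sub (fun t => H q (R t)) T] at e2
  have e3 : H q c ≤ H q (R 0) := H_mono hq hc
  have e4 : Hc q (R T) (fun ω => (D T ω, c ω)) = H q (R T) - H q (fun ω => (D T ω, c ω)) :=
    Hc_eq (Det.refl _) ((hRD T).pair (hcT T)) (det_fst _ _)
  have e5 := H_pair q (D T) c
  linarith

open Classical in
/-- **the number of thick levels**: at a thick level the own half has probability at most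
`1 - ps` given the box -/
theorem thk_abs (P : Pcs Ω) (hq : IsProb q) (R : ℕ → Ω → β) (hR : ∀ t, Det (R (t + 1)) (R t))
    (hRD : ∀ t, Det (R t) (P.D t)) (c : Ω → γ) (hc : Det (R 0) c) (T : ℕ) {ps : ℝ} (hps : 0 < ps)
    (th : ℕ → Ω → Prop) (hth : ∀ t ω, t < T → 0 < q ω → th t ω → Avg.ka P q R t ω ≤ 1 - ps) :
    ∑ ω, q ω * #{t ∈ range T | th t ω} ≤
      (Hc q (P.D T) c + Hc q (R T) (fun ω => (P.D T ω, c ω))) / ps := by
  rw [le_div_iff₀ hps]
  refine le_trans ?_ (sum_Hc_le hq R hR P.D hRD c hc T)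
  have e1 : ∀ t, Hc q (P.D (t + 1)) (R t) = ∑ ω, q ω * (-log (Avg.ka P q R t ω)) := fun t => by
    rw [Hc_eq_sum hq]
    rfl
  rw [sum_congr rfl fun t _ => e1 t, sum_comm, sum_mul]
  refine sum_le_sum fun ω _ => ?_
  rw [← mul_sum, mul_assoc]
  rcases (hq.nonneg ω).eq_or_lt with h0 | h0
  · rw [← h0, zero_mul, zero_mul]
  refine mul_le_mul_of_nonneg_left ?_ h0.le
  rw [card_filter]
  push_cast
  rw [sum_mul]
  refine sum_le_sum fun t ht => ?_
  have hka := Avg.ka_pos (P := P) (R := R) hq t h0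
  split_ifs with h
  · have h1 := hth t ω (mem_range.1 ht) h0 h
    have h2 := log_le_sub_one_of_pos hka
    linarith
  · rw [zero_mul]
    have h1 : Avg.ka P q R t ω ≤ 1 := by
      unfold Avg.ka
      refine div_le_one_of_le₀ ?_ (Pr_nonneg hq _ _)
      exact Pr_mono hq (X := fun ω => (P.D (t + 1) ω, R t ω)) (Y := R t) (det_snd _ _) ω
    have h2 := log_nonpos hka.le h1
    linarith

end abs

variable {Ω : Type*} [Fintype Ω] [Nonempty Ω] {F : Fr Ω} {ln : Ω → Pt} {p : Prm}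

open Classical in
/-- **input `hthk`** of the bookkeeping theorem -/
theorem thkF (u : ℝ) (s₀ γ' : ℕ) {q : p.Col × Ω → ℝ} (hq : IsProb q) {ps : ℝ} (hps : 0 < ps)
    (th : ℕ → p.Col × Ω → Prop)
    (hth : ∀ t a, t < F.P.T + s₀ → 0 < q a → th t a →
      Avg.ka (Pf F p u s₀) q (Rt F ln p u γ') t a ≤ 1 - ps)
    {mend : ℝ} (hmend : Hc q (Rt F ln p u γ' (F.P.T + s₀))
      (fun a => (F.D u (F.P.T + s₀) a.2, a.1)) ≤ mend) :
    ∑ a, q a * #{t ∈ range (F.P.T + s₀) | th t a} ≤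
      (log (#(univ.image (F.P.W F.n))) + mend) / ps := by
  refine (thk_abs (Pf F p u s₀) hq (Rt F ln p u γ') (Rt_det u γ') (Rt_D u γ')
    (fun a : p.Col × Ω => a.1) (Rt_col u γ' 0) (F.P.T + s₀) hps th hth).trans ?_
  have h1 : Hc q ((Pf F p u s₀).D (F.P.T + s₀)) (fun a : p.Col × Ω => a.1) ≤
      log (#(univ.image (F.P.W F.n))) := Hc_D_le hq u _ _
  exact div_le_div_of_nonneg_right (add_le_add h1 hmend) hps.le

/-- **input `hr₀`** of the bookkeeping theorem -/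
theorem r0F (u : ℝ) (γ : ℕ) {q : p.Col × Ω → ℝ} (hq : IsProb q) :
    Hc q (Rt F ln p u γ 0) (fun a => (a.1, ln a.2)) ≤ log 4 := by
  classical
  obtain ⟨ω₀, -, hmin⟩ := exists_min_image (univ : Finset Ω) F.P.x univ_nonempty
  have key : ∀ x y : ℝ, x ≤ y → y < x + 1 → ⌊y⌋ = ⌊x⌋ ∨ ⌊y⌋ = ⌊x⌋ + 1 := by
    intro x y h1 h2
    have h3 : ⌊x⌋ ≤ ⌊y⌋ := Int.floor_mono h1
    have h4 : ⌊y⌋ < ⌊x⌋ + 2 := by
      rw [Int.floor_lt]
      push_cast
      linarith [Int.lt_floor_add_one x]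
    omega
  have h := Hc_le_log hq (Rt F ln p u γ 0) (fun a : p.Col × Ω => (a.1, ln a.2)) 4 (by norm_num)
    (fun a => by
      set d := ⌊F.P.x ω₀ + u⌋ with hd
      set m := ⌊Prm.h a.1 (F.P.x ω₀) (ln a.2) / 2 ^ γ⌋ with hm
      refine ⟨{(a.1, Prm.S a.1.1 (ln a.2), d, m), (a.1, Prm.S a.1.1 (ln a.2), d, m + 1),
        (a.1, Prm.S a.1.1 (ln a.2), d + 1, m), (a.1, Prm.S a.1.1 (ln a.2), d + 1, m + 1)},
        card_le_four, ?_⟩
      rintro ⟨c', ω'⟩ h'
      obtain ⟨h1, h2⟩ := Prod.mk.inj h'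
      simp only at h1 h2
      have hx0 : F.P.x ω₀ ≤ F.P.x ω' := hmin ω' (mem_univ _)
      have hx1 : F.P.x ω' < F.P.x ω₀ + 1 := by
        have e1 := F.P.diam ω₀ ω'
        have e2 := F.P.δ_pos
        linarith
      have eD : F.D u 0 ω' = ⌊F.P.x ω' + u⌋ := by
        unfold Fr.D
        rw [pow_zero, one_mul]
      have hD : F.D u 0 ω' = d ∨ F.D u 0 ω' = d + 1 := by
        rw [eD]
        exact key _ _ (by linarith) (by linarith)
      have eN : Nf F ln p γ 0 a.1 ω' = ⌊Prm.h a.1 (F.P.x ω') (ln a.2) / 2 ^ γ⌋ := by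
        unfold Nf Prm.N
        rw [Nat.zero_min, pow_zero, one_mul, h2]
      have hg : (1 : ℝ) ≤ 2 ^ γ := one_le_pow₀ (by norm_num)
      have hs := Prm.h_sub a.1 (F.P.x ω₀) (F.P.x ω') (ln a.2)
      have f0 := Prm.f_nonneg a.1.1 (ln a.2)
      have f1 := Prm.f_lt_one a.1.1 (ln a.2)
      have hh0 : Prm.h a.1 (F.P.x ω₀) (ln a.2) ≤ Prm.h a.1 (F.P.x ω') (ln a.2) := by
        have : 0 ≤ (F.P.x ω' - F.P.x ω₀) * Prm.f a.1.1 (ln a.2) :=
          mul_nonneg (by linarith) f0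
        linarith
      have hh1 : Prm.h a.1 (F.P.x ω') (ln a.2) < Prm.h a.1 (F.P.x ω₀) (ln a.2) + 1 := by
        have h3 : (F.P.x ω' - F.P.x ω₀) * Prm.f a.1.1 (ln a.2) ≤ F.P.x ω' - F.P.x ω₀ :=
          mul_le_of_le_one_right (by linarith) f1.le
        linarith
      have hN : Nf F ln p γ 0 a.1 ω' = m ∨ Nf F ln p γ 0 a.1 ω' = m + 1 := by
        rw [eN]
        refine key _ _ (div_le_div_of_nonneg_right hh0 (by positivity)) ?_
        rw [div_lt_iff₀ (by positivity), add_mul, div_mul_cancel₀ _ (by positivity)]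
        linarith
      unfold Rt
      simp only
      rw [h1, h2]
      simp only [mem_insert, mem_singleton, Prod.mk.injEq, true_and]
      rcases hD with h3 | h3 <;> rcases hN with h4 | h4 <;> simp [h3, h4])
  norm_num at h
  exact h

end Vale.Agent.P065.H154
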