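import Vale.Agent.P065.H154.TBoxFr3
import Vale.Agent.P065.H987.ACont

/-!
# P065, package TTHIN: the sum of the informations of the boxes (helper154)

The divergences `DQ` (windows of levels, content of the slope cells of helper987) and the line
informations `DL` (line budget of helper60).
-/

set_option autoImplicit false

open Finset Real

noncomputable section

namespace Vale.Agent.P065.H154

open Vale.Agent.P065.UB Vale.Agent.P065.Ent Vale.Agent.P065.H268 Vale.Agent.P065.H725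
open Vale.Agent.P065.H819 Vale.Agent.P065.H562 Vale.Agent.P065.H700

variable {Ω : Type*} [Fintype Ω] {F : Fr Ω} {ln : Ω → Pt} {p : Prm} {Lab : Type*} {lam : Ω → Lab}
  {f : p.Col → (ℕ × Lab) × ℤ × ℤ → ℝ} {f0 : ∀ k r, 0 ≤ f k r} {f1 : ∀ k r, f k r ≤ 1} {μ : Ω → ℝ}

/-! ## The initial value -/

/-- the initial value of the divergence, boxes of the frame -/
theorem KL_Rt_ge (hμ : IsProb μ) (hJ : 0 < (cols F ln p lam f f0 f1).J μ) {E : ℝ} (hE : 0 ≤ E)
    (hsup : ∀ c ω, 0 < (cols F ln p lam f f0 f1).wt μ c (rho F ln p lam c ω) → ∀ b,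
      exp (-E) ≤ Pr μ (fun ω => (lb ln p c ω, Prm.S c.1 (ln ω))) (some b, Prm.S c.1 (ln ω)))
    (u : ℝ) (a v : ℕ) (b : Bool) :
    - log ((cols F ln p lam f f0 f1).J μ) -
      6 * H987.XA p E / (cols F ln p lam f f0 f1).J μ ≤
      KL ((cols F ln p lam f f0 f1).Q μ) (zl (cols F ln p lam f f0 f1) μ b) (Rt F ln p u a v) := by
  set C := cols F ln p lam f f0 f1 with hC
  let G : C.Filt := H987.fil (F := F) (ln := ln) (p := p) (lam := lam) (f := f) f0 f1 μ E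
    (ty := fun _ => ℤ) (fun _ c ω => Prm.S c.1 (ln ω)) (fun _ _ x => x.2.1) (fun _ _ _ => rfl)
    (fun _ _ => Det.refl _) (fun _ => Det.refl _)
  have hG : H987.SlopeFilt G μ E := H987.fil_good (ty := fun _ => ℤ)
    (N := fun _ c ω => Prm.S c.1 (ln ω)) (n := fun _ _ x => x.2.1) (fun _ _ _ => rfl)
    (fun _ _ => Det.refl _) (fun _ => Det.refl _) hsup
  have h1 := KL_zero_ge (C := C) hμ hJ G hG.good b
  have h2 : 3 * (G.A μ false + G.A μ true) / C.J μ ≤ 6 * H987.XA p E / C.J μ := by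
    refine div_le_div_of_nonneg_right ?_ hJ.le
    linarith [hG.A_le hμ hE false, hG.A_le hμ hE true]
  have hw : ∀ t, 0 ≤ C.Q μ t := fun t => Cols.Q_nonneg hμ t
  have hz : ∀ t, 0 ≤ zl C μ b t := fun t => zl_nonneg hμ b t
  have hdet : Det (Rt F ln p u a v) (fun t : p.Col × Ω => (t.1, G.R 0 t.1 t.2)) := by
    rintro ⟨c, ω⟩ ⟨c', ω'⟩ h
    unfold Rt at h
    simp only [Prod.mk.injEq] at h
    obtain ⟨rfl, h2, -, -⟩ := h
    have : G.R 0 c ω = G.R 0 c ω' := h2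
    simp only [this]
  have ac : ∀ t, 0 < C.Q μ t → 0 < Pr (zl C μ b) (Rt F ln p u a v) (Rt F ln p u a v t) :=
    fun t ht => zl_ac hμ hJ b (det_rho_Rt (lam := lam) u a v) ht
  have h3 := KL_mono_nn hw hz hdet ac
  linarith

/-! ## The divergences -/

/-- the digits of a box -/
def YT (F : Fr Ω) (ln : Ω → Pt) (p : Prm) (u : ℝ) (dX PB PR v : ℕ) (τ : p.Col × Ω) :
    (ℤ × Prop) × ℤ := (XT F u dX PR v τ.2, BT F ln PB v τ.1 τ.2)

omit [Fintype Ω] in
lemma YT_det {u : ℝ} {a dX PB PR v m : ℕ} (h1 : dX ≤ m) (h2 : PR ≤ m) (h3 : PB + a ≤ m) :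
    Det (Rt F ln p u a (v + m)) (fun τ => (YT F ln p u dX PB PR v τ, Rt F ln p u a v τ)) := by
  rintro ⟨c, ω⟩ ⟨c', ω'⟩ h
  have hc : c = c' := Rt_col u a _ _ _ h
  subst hc
  have e3 := Rt_D u a (v + m) _ _ h
  have e4 := XT_congr (F := F) h1 h2 _ _ e3
  have e5 := BT_congr (F := F) (ln := ln) h3 h
  have e6 := Rt_det_le u a (Nat.le_add_right v m) _ _ h
  unfold YT
  simp only at e4
  simp only [e4, e5, e6]

open Classical in
/-- the divergence of one box as a term of the budget -/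
theorem DQ_le (hμ : IsProb μ) (hJ : 0 < (cols F ln p lam f f0 f1).J μ) (u : ℝ)
    (a dX PB PR v : ℕ) (b : Bool) (r : p.Col × ℤ × ℤ × ℤ) :
    DQ (nuT ((cols F ln p lam f f0 f1).Q μ) (Rt F ln p u a v) r)
      (fun τ => XT F u dX PR v τ.2) (fun τ => BT F ln PB v τ.1 τ.2) μ (XT F u dX PR v)
      (lb ln p r.1) (BT F ln PB v r.1) (RT F ln p u a v r) (some b) ≤
    ∑ y ∈ univ.image (XT F u dX PR v) ×ˢ univ.image (fun τ : p.Col × Ω => BT F ln PB v τ.1 τ.2),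
      gk (Pr ((cols F ln p lam f f0 f1).Q μ)
        (fun τ => (YT F ln p u dX PB PR v τ, Rt F ln p u a v τ)) (y, r) /
          Pr ((cols F ln p lam f f0 f1).Q μ) (Rt F ln p u a v) r)
        (Pr (zl (cols F ln p lam f f0 f1) μ b)
          (fun τ => (YT F ln p u dX PB PR v τ, Rt F ln p u a v τ)) (y, r) /
          Pr (zl (cols F ln p lam f f0 f1) μ b) (Rt F ln p u a v) r) := by
  set C := cols F ln p lam f f0 f1 with hC
  have hw : ∀ t, 0 ≤ C.Q μ t := fun t => Cols.Q_nonneg hμ t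
  have hz : ∀ t, 0 ≤ zl C μ b t := fun t => zl_nonneg hμ b t
  have e1 : ∀ y : (ℤ × Prop) × ℤ, PE (nuT (C.Q μ) (Rt F ln p u a v) r)
      (fun τ => XT F u dX PR v τ.2 = y.1 ∧ BT F ln PB v τ.1 τ.2 = y.2) =
      Pr (C.Q μ) (fun τ => (YT F ln p u dX PB PR v τ, Rt F ln p u a v τ)) (y, r) /
          Pr (C.Q μ) (Rt F ln p u a v) r := by
    intro y
    rw [PE_nuT]
    congr 1
    unfold MB
    rw [PE_def]
    unfold Pr
    refine sum_congr rfl fun τ _ => ?_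
    by_cases h : Rt F ln p u a v τ = r ∧ XT F u dX PR v τ.2 = y.1 ∧ BT F ln PB v τ.1 τ.2 = y.2
    · rw [if_pos h, if_pos (Prod.ext (Prod.ext h.2.1 h.2.2) h.1)]
    · rw [if_neg h, if_neg]
      intro h'
      have h2 := Prod.mk.inj h'
      have h3 := Prod.mk.inj h2.1
      exact h ⟨h2.2, h3.1, h3.2⟩
  have e2 : ∀ y : (ℤ × Prop) × ℤ, PE μ (fun ω => XT F u dX PR v ω = y.1 ∧
      BT F ln PB v r.1 ω = y.2 ∧ lb ln p r.1 ω = some b ∧ RT F ln p u a v r ω) =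
      Pr (zl C μ b) (fun τ => (YT F ln p u dX PB PR v τ, Rt F ln p u a v τ)) (y, r) := by
    intro y
    have h := Pr_zl_box (F := F) (ln := ln) (p := p) (lam := lam) (f0 := f0) (f1 := f1) (μ := μ)
      u a v b (fun c ω => (XT F u dX PR v ω, BT F ln PB v c ω)) y r
    rw [show Pr (zl C μ b) (fun τ => (YT F ln p u dX PB PR v τ, Rt F ln p u a v τ)) (y, r) =
      _ from h]
    exact PE_congr fun ω => by
      constructor
      · rintro ⟨h1, h2, h3, h4⟩
        exact ⟨Prod.ext h1 h2, h3, h4⟩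
      · rintro ⟨h1, h3, h4⟩
        exact ⟨congrArg Prod.fst h1, congrArg Prod.snd h1, h3, h4⟩
  have e3 : PE μ (fun ω => lb ln p r.1 ω = some b ∧ RT F ln p u a v r ω) =
      Pr (zl C μ b) (Rt F ln p u a v) r := by
    have h := Pr_zl_box (F := F) (ln := ln) (p := p) (lam := lam) (f0 := f0) (f1 := f1) (μ := μ)
      u a v b (fun _ _ => ()) () r
    have h2 : Pr (zl C μ b) (fun τ : p.Col × Ω => ((), Rt F ln p u a v τ)) ((), r) =
        Pr (zl C μ b) (Rt F ln p u a v) r := by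
      unfold Pr
      exact sum_congr rfl fun τ _ => by simp
    rw [← h2, h]
    exact PE_congr fun ω => by simp
  unfold DQ
  rw [sum_congr rfl fun y _ => by rw [e1 y, e2 y, e3]]
  refine sum_le_sum_of_subset_of_nonneg ?_ fun y _ _ => ?_
  · intro y hy
    rw [mem_product] at hy ⊢
    obtain ⟨ω1, -, h1⟩ := (@mem_image _ _ (fun a b => propDecidable (a = b)) _ _ _).mp hy.1
    obtain ⟨ω2, -, h2⟩ := (@mem_image _ _ (fun a b => propDecidable (a = b)) _ _ _).mp hy.2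
    exact ⟨mem_image.mpr ⟨ω1, mem_univ _, h1⟩, mem_image.mpr ⟨(r.1, ω2), mem_univ _, h2⟩⟩
  · refine gk_ratio_nonneg hw hz (YT F ln p u dX PB PR v) (Rt F ln p u a v) ?_ r y
    intro t ht
    refine zl_ac hμ hJ b ?_ ht
    refine (det_rho_Rt (lam := lam) u a (v + max (max dX PR) (PB + a))).trans (YT_det ?_ ?_ ?_)
    · exact (le_max_left _ _).trans (le_max_left _ _)
    · exact (le_max_right _ _).trans (le_max_left _ _)
    · exact le_max_right _ _

open Classical in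
/-- **the sum of the divergences** -/
theorem sum_DQ_le (hμ : IsProb μ) (hJ : 0 < (cols F ln p lam f f0 f1).J μ) {E : ℝ} (hE : 0 ≤ E)
    (hsup : ∀ c ω, 0 < (cols F ln p lam f f0 f1).wt μ c (rho F ln p lam c ω) → ∀ b,
      exp (-E) ≤ Pr μ (fun ω => (lb ln p c ω, Prm.S c.1 (ln ω))) (some b, Prm.S c.1 (ln ω)))
    (u : ℝ) {a dX PB PR m : ℕ} (h1 : dX ≤ m) (h2 : PR ≤ m) (h3 : PB + a ≤ m) (b : Bool) (n : ℕ)
    (G : ℕ → Finset (p.Col × ℤ × ℤ × ℤ)) :
    ∑ v ∈ range n, ∑ r ∈ G v, Pr ((cols F ln p lam f f0 f1).Q μ) (Rt F ln p u a v) r *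
      DQ (nuT ((cols F ln p lam f f0 f1).Q μ) (Rt F ln p u a v) r)
      (fun τ => XT F u dX PR v τ.2) (fun τ => BT F ln PB v τ.1 τ.2) μ (XT F u dX PR v)
      (lb ln p r.1) (BT F ln PB v r.1) (RT F ln p u a v r) (some b) ≤
    m * (6 * H987.XA p E / (cols F ln p lam f f0 f1).J μ) := by
  set C := cols F ln p lam f f0 f1 with hC
  have hw : ∀ t, 0 ≤ C.Q μ t := fun t => Cols.Q_nonneg hμ t
  have hz : ∀ t, 0 ≤ zl C μ b t := fun t => zl_nonneg hμ b t
  set K : ℕ → ℝ := fun v => KL (C.Q μ) (zl C μ b) (Rt F ln p u a v) with hK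
  have ac : ∀ v, ∀ t, 0 < C.Q μ t → 0 < Pr (zl C μ b) (Rt F ln p u a v) (Rt F ln p u a v t) :=
    fun v t ht => zl_ac hμ hJ b (det_rho_Rt (lam := lam) u a v) ht
  have hKm : ∀ v, K v ≤ K (v + 1) := fun v => KL_mono_nn hw hz (Rt_det u a v) (ac (v + 1))
  have key : ∀ v ∈ range n, ∑ r ∈ G v, Pr (C.Q μ) (Rt F ln p u a v) r *
      DQ (nuT (C.Q μ) (Rt F ln p u a v) r)
      (fun τ => XT F u dX PR v τ.2) (fun τ => BT F ln PB v τ.1 τ.2) μ (XT F u dX PR v)
      (lb ln p r.1) (BT F ln PB v r.1) (RT F ln p u a v r) (some b) ≤ K (v + m) - K v := by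
    intro v _
    refine (sum_le_sum fun r _ => mul_le_mul_of_nonneg_left (DQ_le hμ hJ u a dX PB PR v b r)
      (Pr_nn hw _ _)).trans ?_
    refine sum_gk_le' hw hz (X := Rt F ln p u a (v + m)) (YT F ln p u dX PB PR v)
      (Rt F ln p u a v) (YT_det h1 h2 h3) (ac (v + m)) (G v) (fun _ => _) ?_
    intro r τ _
    exact mem_product.mpr ⟨mem_image.mpr ⟨τ.2, mem_univ _, rfl⟩,
      mem_image.mpr ⟨τ, mem_univ _, rfl⟩⟩
  refine (sum_le_sum key).trans ?_
  refine (window_sum K hKm n m).trans ?_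
  refine mul_le_mul_of_nonneg_left ?_ (Nat.cast_nonneg m)
  have h4 : K (n + m) ≤ - log (C.J μ) := by
    have := KL_fine_le (C := C) hμ hJ b (X := Rt F ln p u a (n + m))
      (det_rho_Rt (lam := lam) u a (n + m))
    exact this
  have h5 := KL_Rt_ge (F := F) (ln := ln) (p := p) (lam := lam) hμ hJ hE hsup u a 0 b
  linarith

/-! ## The line informations -/

section lines

variable (F ln p)

/-- the line information of a box, slope `b`, grid `θ` of line cells, line cell `jl` -/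
def DLT (μ : Ω → ℝ) (u θ : ℝ) (a dX PB PR PC a2 v : ℕ) (r : p.Col × ℤ × ℤ × ℤ) (jl : ℤ)
    (b : Bool) : ℝ :=
  DL μ (XT F u dX PR v) (lb ln p r.1) (CT F ln p u θ PC v r.1) (fun x => xhh dX r.2.2.1 x.1)
    (ehh p.PP (Prm.b0 r.1.1) (Prm.b1 r.1.1))
    (fun n => (n : ℝ) / 2 ^ PC - H60.dlt r.1 u θ v r.2.1 r.2.2.1)
    (LT F ln p u θ a2 v r.1 (r.2.1, r.2.2.1, jl)) (RT F ln p u a v r)
    (r.2.2.2 * 2 ^ a) ((r.2.2.2 + 1) * 2 ^ a - 1 / 2 ^ PB)
    (pX μ (XT F u dX PR v) (LT F ln p u θ a2 v r.1 (r.2.1, r.2.2.1, jl))) (some b)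

end lines

lemma DLT_nonneg (hμ : IsProb μ) (u θ : ℝ) (a dX PB PR PC a2 v : ℕ) (r : p.Col × ℤ × ℤ × ℤ)
    (jl : ℤ) (b : Bool) : 0 ≤ DLT F ln p μ u θ a dX PB PR PC a2 v r jl b := by
  unfold DLT
  refine DL_nonneg hμ (fun x => NBox.pX_nonneg hμ x) (fun x h => ?_) _
  unfold pX
  exact div_pos h (h.trans_le (PE_mono hμ fun ω h' => h'.2))

open Classical in
/-- one level, one grid of line cells -/
theorem sum_DLT_level (hμ : IsProb μ) (u θ : ℝ) (a dX PB PR PC a2 v : ℕ) (b : Bool)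
    (G : Finset (p.Col × ℤ × ℤ × ℤ)) (jl : p.Col × ℤ × ℤ × ℤ → ℤ) :
    ∑ r ∈ G, PE μ (fun ω => lb ln p r.1 ω = some b ∧ RT F ln p u a v r ω) *
      DLT F ln p μ u θ a dX PB PR PC a2 v r (jl r) b ≤
    ∑ c : p.Col, I μ (XT F u dX PR v)
      (fun ω => (lb ln p c ω, H60.Lh F ln u θ v (v + Prm.sc c.1 + PC) ω))
      (fun ω => (H60.Lc F ln p.k₀ (Prm.sy c.1) u θ v (Prm.sc c.1) (-(a2 : ℤ)) ω, ())) := by
  have h1 : ∑ r ∈ G, PE μ (fun ω => lb ln p r.1 ω = some b ∧ RT F ln p u a v r ω) *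
      DLT F ln p μ u θ a dX PB PR PC a2 v r (jl r) b =
      ∑ c : p.Col, ∑ r ∈ G.filter (fun r => r.1 = c),
        PE μ (fun ω => lb ln p r.1 ω = some b ∧ RT F ln p u a v r ω) *
          DLT F ln p μ u θ a dX PB PR PC a2 v r (jl r) b := by
    rw [sum_fiberwise]
  rw [h1]
  refine sum_le_sum fun c _ => ?_
  have h2 := H60.sum_DL_le (ι := p.Col × ℤ × ℤ × ℤ) hμ (XT F u dX PR v) (lb ln p c)
    (CT F ln p u θ PC v c)
    (fun ω => (H60.Lc F ln p.k₀ (Prm.sy c.1) u θ v (Prm.sc c.1) (-(a2 : ℤ)) ω, ())) (some b)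
    (G.filter (fun r => r.1 = c)) (fun r => ((r.2.1, r.2.2.1, jl r), ()))
    (fun r => LT F ln p u θ a2 v c (r.2.1, r.2.2.1, jl r)) (fun r => RT F ln p u a v r)
    (fun r hr ω => by
      unfold LT
      constructor
      · intro h
        rw [h]
      · intro h
        exact (Prod.mk.inj h).1)
    (fun r x => xhh dX r.2.2.1 x.1) (fun _ => ehh p.PP (Prm.b0 c.1) (Prm.b1 c.1))
    (fun r n => (n : ℝ) / 2 ^ PC - H60.dlt c u θ v r.2.1 r.2.2.1)
    (fun r => r.2.2.2 * 2 ^ a) (fun r => (r.2.2.2 + 1) * 2 ^ a - 1 / 2 ^ PB)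
    (fun r => pX μ (XT F u dX PR v) (LT F ln p u θ a2 v c (r.2.1, r.2.2.1, jl r)))
    (fun r _ x => rfl) (by
      intro r hr r' hr' hne hl x n h h'
      have e1 := (mem_filter.mp hr).2
      have e2 := (mem_filter.mp hr').2
      have e3 := Prod.mk.inj (Prod.mk.inj hl).1
      have e4 := Prod.mk.inj e3.2
      rw [e3.1, e4.1] at h
      have hp : (0 : ℝ) < 1 / 2 ^ PB := by positivity
      have ha : (0 : ℝ) < 2 ^ a := by positivity
      rcases lt_trichotomy r.2.2.2 r'.2.2.2 with h5 | h5 | h5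
      · have h6 : (r.2.2.2 : ℝ) + 1 ≤ r'.2.2.2 := by exact_mod_cast h5
        have h7 := mul_le_mul_of_nonneg_right h6 ha.le
        linarith [h.2, h'.1]
      · exact hne (Prod.ext (e1.trans e2.symm) (Prod.ext e3.1 (Prod.ext e4.1 h5)))
      · have h6 : (r'.2.2.2 : ℝ) + 1 ≤ r.2.2.2 := by exact_mod_cast h5
        have h7 := mul_le_mul_of_nonneg_right h6 ha.le
        linarith [h.1, h'.2])
  refine le_trans (le_of_eq ?_) h2
  refine sum_congr rfl fun r hr => ?_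
  have e1 := (mem_filter.mp hr).2
  unfold DLT
  rw [e1]

open Classical in
/-- **the sum of the line informations**, one grid -/
theorem sum_DLT_le (hμ : IsProb μ) (u θ : ℝ) {a dX PB PR PC a2 m m' : ℕ} (h1 : dX ≤ m)
    (h2 : PR ≤ m) (h3 : p.PP ≤ m') (h4 : PC + a2 ≤ m') (b : Bool) (n : ℕ)
    (G : ℕ → Finset (p.Col × ℤ × ℤ × ℤ)) (jl : ℕ → p.Col × ℤ × ℤ × ℤ → ℤ) :
    ∑ v ∈ range n, ∑ r ∈ G v, PE μ (fun ω => lb ln p r.1 ω = some b ∧ RT F ln p u a v r ω) *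
      DLT F ln p μ u θ a dX PB PR PC a2 v r (jl v r) b ≤
    2 * 4 ^ p.PP * p.nT * m' * (m * H μ F.P.x) := by
  refine (sum_le_sum fun v _ => sum_DLT_level hμ u θ a dX PB PR PC a2 v b (G v) (jl v)).trans ?_
  rw [sum_comm]
  refine (H60.line_budget (p := p) (ln := ln) hμ u θ (-(a2 : ℤ)) PC m' h3 (by omega) (range n)
    (fun v => XT F u dX PR v) (fun _ _ => ())).trans ?_
  refine mul_le_mul_of_nonneg_left ?_ (by positivity)
  have h5 : ∀ v ∈ range n, Hc μ (XT F u dX PR v) (fun ω => (F.D u v ω, ())) ≤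
      Hc μ (F.D u (v + m)) (F.D u v) := by
    intro v _
    refine (Hc_mono_left hμ (XT_congr h1 h2)).trans ?_
    exact Hc_anti hμ _ (det_fst _ _)
  refine (sum_le_sum h5).trans ?_
  exact H60.sum_levels_le hμ (fun v => F.D u v) F.P.x (fun v => F.D_det u v)
    (fun v ω ω' h => F.D_of_x h) m n

end Vale.Agent.P065.H154
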