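import Vale.Agent.P065.H154.InfoBud

/-!
# P065, package TTHIN: the sum of the informations of the boxes, both labels and grids (helper154)
-/

set_option autoImplicit false

open Finset Real

noncomputable section

namespace Vale.Agent.P065.H154

open Vale.Agent.P065.UB Vale.Agent.P065.Ent Vale.Agent.P065.H268 Vale.Agent.P065.H725
open Vale.Agent.P065.H819 Vale.Agent.P065.H562 Vale.Agent.P065.H700

variable {Ω : Type*} [Fintype Ω] {F : Fr Ω} {ln : Ω → Pt} {p : Prm} {Lab : Type*} {lam : Ω → Lab}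
  {f : p.Col → (ℕ × Lab) × ℤ × ℤ → ℝ} {f0 : ∀ k r, 0 ≤ f k r} {f1 : ∀ k r, f k r ≤ 1} {μ : Ω → ℝ}

/-- a grid and a line cell for every box -/
structure Gr (p : Prm) (u : ℝ) (a a2 : ℕ) (θ : ℕ → p.Col × ℤ × ℤ × ℤ → ℝ)
    (jl : ℕ → p.Col × ℤ × ℤ × ℤ → ℤ) : Prop where
  two : ∀ v r, θ v r = 0 ∨ θ v r = th1 p a2
  lo : ∀ v r, (jl v r : ℝ) * 2 ^ a2 + 1 ≤
    r.2.2.2 * 2 ^ a + H60.dlt r.1 u (θ v r) v r.2.1 r.2.2.1
  hi : ∀ v r, ((r.2.2.2 : ℝ) + 1) * 2 ^ a + H60.dlt r.1 u (θ v r) v r.2.1 r.2.2.1 ≤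
    (jl v r + 1) * 2 ^ a2

theorem exists_Gr (p : Prm) (u : ℝ) {a a2 : ℕ} (h : 3 * (2 ^ a + 1) ≤ 2 ^ a2) :
    ∃ θ jl, Gr p u a a2 θ jl := by
  have h1 : ∀ (v : ℕ) (r : p.Col × ℤ × ℤ × ℤ), ∃ θ : ℝ, ∃ jl : ℤ, (θ = 0 ∨ θ = th1 p a2) ∧
      (jl : ℝ) * 2 ^ a2 + 1 ≤ r.2.2.2 * 2 ^ a + H60.dlt r.1 u θ v r.2.1 r.2.2.1 ∧
      ((r.2.2.2 : ℝ) + 1) * 2 ^ a + H60.dlt r.1 u θ v r.2.1 r.2.2.1 ≤ (jl + 1) * 2 ^ a2 := by
    intro v r
    obtain ⟨θ, hθ, jl, h2, h3⟩ := exists_jl r.1 u h v r.2.1 r.2.2.1 r.2.2.2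
    exact ⟨θ, jl, hθ, h2, h3⟩
  choose θ jl h2 h3 h4 using h1
  exact ⟨θ, jl, h2, h3, h4⟩

section defs

variable (F ln p)

/-- **the information of a box**, slope `b` (`TInfo` of helper562 with the data of `tboxT`) -/
def TIT (μ : Ω → ℝ) (J : ℝ) (Q : p.Col × Ω → ℝ) (u : ℝ) (a dX PB PR PC a2 : ℕ) (v : ℕ)
    (θ : ℝ) (jl : ℤ) (r : p.Col × ℤ × ℤ × ℤ) (b : Bool) : ℝ :=
  TInfo μ (XT F u dX PR v) (lb ln p r.1) (CT F ln p u θ PC v r.1) (BT F ln PB v r.1)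
    (fun x => xhh dX r.2.2.1 x.1) (ehh p.PP (Prm.b0 r.1.1) (Prm.b1 r.1.1))
    (fun n => (n : ℝ) / 2 ^ PC - H60.dlt r.1 u θ v r.2.1 r.2.2.1)
    (LT F ln p u θ a2 v r.1 (r.2.1, r.2.2.1, jl)) (RT F ln p u a v r)
    (r.2.2.2 * 2 ^ a) ((r.2.2.2 + 1) * 2 ^ a - 1 / 2 ^ PB)
    (pX μ (XT F u dX PR v) (LT F ln p u θ a2 v r.1 (r.2.1, r.2.2.1, jl)))
    (nuT Q (Rt F ln p u a v) r) (fun τ => XT F u dX PR v τ.2) (fun τ => BT F ln PB v τ.1 τ.2)
    (uT F ln p μ J Q u a v r) (some b)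

end defs

/-- the information of a box is the sum of its two parts -/
lemma TIT_eq {J : ℝ} {Q : p.Col × Ω → ℝ} {u : ℝ} {a dX PB PR PC a2 v : ℕ} {θ : ℝ} {jl : ℤ}
    {r : p.Col × ℤ × ℤ × ℤ} {b : Bool} (hQ : 0 < Pr Q (Rt F ln p u a v) r) :
    Pr Q (Rt F ln p u a v) r * TIT F ln p μ J Q u a dX PB PR PC a2 v θ jl r b =
      Pr Q (Rt F ln p u a v) r * DQ (nuT Q (Rt F ln p u a v) r)
        (fun τ => XT F u dX PR v τ.2) (fun τ => BT F ln PB v τ.1 τ.2) μ (XT F u dX PR v)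
        (lb ln p r.1) (BT F ln PB v r.1) (RT F ln p u a v r) (some b) +
      J⁻¹ * (PE μ (fun ω => lb ln p r.1 ω = some b ∧ RT F ln p u a v r ω) *
        DLT F ln p μ u θ a dX PB PR PC a2 v r jl b) := by
  unfold TIT TInfo
  rw [mul_add]
  congr 1
  unfold DLT uT
  rw [← mul_assoc, ← mul_assoc]
  congr 1
  have := hQ.ne'
  rcases eq_or_ne J 0 with h0 | h0
  · rw [h0]; simp
  · field_simp

open Classical in
/-- **the sum of the informations of the boxes** -/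
theorem sum_TIT_le (hμ : IsProb μ) (hJ : 0 < (cols F ln p lam f f0 f1).J μ) {E : ℝ} (hE : 0 ≤ E)
    (hsup : ∀ c ω, 0 < (cols F ln p lam f f0 f1).wt μ c (rho F ln p lam c ω) → ∀ b,
      exp (-E) ≤ Pr μ (fun ω => (lb ln p c ω, Prm.S c.1 (ln ω))) (some b, Prm.S c.1 (ln ω)))
    (u : ℝ) {a dX PB PR PC a2 m m' : ℕ} (h1 : dX ≤ m) (h2 : PR ≤ m) (h3 : PB + a ≤ m)
    (h4 : p.PP ≤ m') (h5 : PC + a2 ≤ m') {θ : ℕ → p.Col × ℤ × ℤ × ℤ → ℝ}
    {jl : ℕ → p.Col × ℤ × ℤ × ℤ → ℤ} (hG : Gr p u a a2 θ jl) (n : ℕ)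
    (G : ℕ → Finset (p.Col × ℤ × ℤ × ℤ))
    (hpos : ∀ v < n, ∀ r ∈ G v, 0 < Pr ((cols F ln p lam f f0 f1).Q μ) (Rt F ln p u a v) r) :
    ∑ v ∈ range n, ∑ r ∈ G v,
      (Pr ((cols F ln p lam f f0 f1).Q μ) (Rt F ln p u a v) r *
        TIT F ln p μ ((cols F ln p lam f f0 f1).J μ) ((cols F ln p lam f f0 f1).Q μ)
          u a dX PB PR PC a2 v (θ v r) (jl v r) r false +
      Pr ((cols F ln p lam f f0 f1).Q μ) (Rt F ln p u a v) r *
        TIT F ln p μ ((cols F ln p lam f f0 f1).J μ) ((cols F ln p lam f f0 f1).Q μ)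
          u a dX PB PR PC a2 v (θ v r) (jl v r) r true) ≤
    (12 * m * H987.XA p E + 4 * (2 * 4 ^ p.PP * p.nT * m' * (m * H μ F.P.x))) /
      (cols F ln p lam f f0 f1).J μ := by
  set C := cols F ln p lam f f0 f1 with hC
  have key : ∀ b : Bool, ∑ v ∈ range n, ∑ r ∈ G v,
      Pr (C.Q μ) (Rt F ln p u a v) r * TIT F ln p μ (C.J μ) (C.Q μ)
          u a dX PB PR PC a2 v (θ v r) (jl v r) r b ≤
      m * (6 * H987.XA p E / C.J μ) +
        (C.J μ)⁻¹ * (2 * (2 * 4 ^ p.PP * p.nT * m' * (m * H μ F.P.x))) := by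
    intro b
    have e1 : ∑ v ∈ range n, ∑ r ∈ G v,
        Pr (C.Q μ) (Rt F ln p u a v) r * TIT F ln p μ (C.J μ) (C.Q μ)
          u a dX PB PR PC a2 v (θ v r) (jl v r) r b =
        ∑ v ∈ range n, ∑ r ∈ G v, Pr (C.Q μ) (Rt F ln p u a v) r *
          DQ (nuT (C.Q μ) (Rt F ln p u a v) r)
        (fun τ => XT F u dX PR v τ.2) (fun τ => BT F ln PB v τ.1 τ.2) μ (XT F u dX PR v)
        (lb ln p r.1) (BT F ln PB v r.1) (RT F ln p u a v r) (some b) +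
        (C.J μ)⁻¹ * ∑ v ∈ range n, ∑ r ∈ G v,
          PE μ (fun ω => lb ln p r.1 ω = some b ∧ RT F ln p u a v r ω) *
            DLT F ln p μ u (θ v r) a dX PB PR PC a2 v r (jl v r) b := by
      rw [mul_sum, ← sum_add_distrib]
      refine sum_congr rfl fun v hv => ?_
      rw [mul_sum, ← sum_add_distrib]
      exact sum_congr rfl fun r hr => TIT_eq (hpos v (mem_range.mp hv) r hr)
    rw [e1]
    refine add_le_add (sum_DQ_le hμ hJ hE hsup u h1 h2 h3 b n G) ?_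
    refine mul_le_mul_of_nonneg_left ?_ (inv_nonneg.mpr hJ.le)
    -- the two grids
    have g0 := sum_DLT_le (F := F) (ln := ln) (p := p) (a := a) (PB := PB) hμ u 0 h1 h2 h4 h5 b n
      (fun v => (G v).filter (fun r => θ v r = 0)) jl
    have g1 := sum_DLT_le (F := F) (ln := ln) (p := p) (a := a) (PB := PB) hμ u (th1 p a2)
      h1 h2 h4 h5 b n (fun v => (G v).filter (fun r => ¬ θ v r = 0)) jl
    have e2 : ∀ v ∈ range n, ∑ r ∈ G v,
          PE μ (fun ω => lb ln p r.1 ω = some b ∧ RT F ln p u a v r ω) *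
            DLT F ln p μ u (θ v r) a dX PB PR PC a2 v r (jl v r) b =
        ∑ r ∈ (G v).filter (fun r => θ v r = 0),
          PE μ (fun ω => lb ln p r.1 ω = some b ∧ RT F ln p u a v r ω) *
            DLT F ln p μ u 0 a dX PB PR PC a2 v r (jl v r) b +
        ∑ r ∈ (G v).filter (fun r => ¬ θ v r = 0),
          PE μ (fun ω => lb ln p r.1 ω = some b ∧ RT F ln p u a v r ω) *
            DLT F ln p μ u (th1 p a2) a dX PB PR PC a2 v r (jl v r) b := by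
      intro v _
      rw [← sum_filter_add_sum_filter_not (G v) (fun r => θ v r = 0)]
      congr 1
      · refine sum_congr rfl fun r hr => ?_
        rw [(mem_filter.mp hr).2]
      · refine sum_congr rfl fun r hr => ?_
        have h6 : θ v r = th1 p a2 := (hG.two v r).resolve_left (mem_filter.mp hr).2
        rw [h6]
    rw [sum_congr rfl e2, sum_add_distrib]
    linarith
  have e3 : ∑ v ∈ range n, ∑ r ∈ G v,
      (Pr (C.Q μ) (Rt F ln p u a v) r * TIT F ln p μ (C.J μ) (C.Q μ)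
          u a dX PB PR PC a2 v (θ v r) (jl v r) r false +
      Pr (C.Q μ) (Rt F ln p u a v) r * TIT F ln p μ (C.J μ) (C.Q μ)
          u a dX PB PR PC a2 v (θ v r) (jl v r) r true) =
      ∑ v ∈ range n, ∑ r ∈ G v, Pr (C.Q μ) (Rt F ln p u a v) r * TIT F ln p μ (C.J μ) (C.Q μ)
          u a dX PB PR PC a2 v (θ v r) (jl v r) r false +
      ∑ v ∈ range n, ∑ r ∈ G v, Pr (C.Q μ) (Rt F ln p u a v) r * TIT F ln p μ (C.J μ) (C.Q μ)
          u a dX PB PR PC a2 v (θ v r) (jl v r) r true := by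
    rw [← sum_add_distrib]
    exact sum_congr rfl fun v _ => sum_add_distrib
  rw [e3]
  refine (add_le_add (key false) (key true)).trans (le_of_eq ?_)
  have := hJ.ne'
  field_simp
  ring

end Vale.Agent.P065.H154
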