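import Vale.Agent.P065.H154.InfoBud2
import Vale.Agent.P065.H344.ThinPar

/-!
# P065, case (II): the information of the boxes for the final system (helper154)
-/

set_option autoImplicit false

open Finset Real

noncomputable section

namespace Vale.Agent.P065.H806

open Vale.Agent.P065.UB Vale.Agent.P065.Ent Vale.Agent.P065.H268 Vale.Agent.P065.H154
  Vale.Agent.P065.H700 Vale.Agent.P065.H725

namespace Sys

variable {B₀ K₁ PP Γ s₀ Λ kN : ℕ} {c₂ ρ ε₂ e : ℝ} {n g : ℕ}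
  (S : Sys B₀ K₁ PP Γ s₀ Λ kN c₂ ρ ε₂ e n g)

open Classical in
/-- **the sum of the informations of the boxes** of the final system -/
theorem sum_TIT_le (hg : 1 ≤ g) (u : ℝ) {a dX PB PR PC a2 m m' : ℕ}
    (h1 : dX ≤ m) (h2 : PR ≤ m) (h3 : PB + a ≤ m)
    (h4 : S.p.PP ≤ m') (h5 : PC + a2 ≤ m') {θ : ℕ → S.p.Col × ℤ × ℤ × ℤ → ℝ}
    {jl : ℕ → S.p.Col × ℤ × ℤ × ℤ → ℤ} (hG : Gr S.p u a a2 θ jl) (N : ℕ)
    (G : ℕ → Finset (S.p.Col × ℤ × ℤ × ℤ))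
    (hpos : ∀ v < N, ∀ r ∈ G v, 0 < Pr S.Q (Rt S.F S.ln S.p u a v) r) :
    ∑ v ∈ range N, ∑ r ∈ G v,
      (Pr S.Q (Rt S.F S.ln S.p u a v) r *
        TIT S.F S.ln S.p S.μ (S.C.J S.μ) S.Q u a dX PB PR PC a2 v (θ v r) (jl v r) r false +
      Pr S.Q (Rt S.F S.ln S.p u a v) r *
        TIT S.F S.ln S.p S.μ (S.C.J S.μ) S.Q u a dX PB PR PC a2 v (θ v r) (jl v r) r true) ≤
    S.infB m m' := by
  have hΛ : (0 : ℝ) < Λ := by exact_mod_cast S.Λ_pos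
  exact H154.sum_TIT_le (F := S.F) (ln := S.ln) (p := S.p) (lam := S.lam) (f := S.f)
    (f0 := S.f0) (f1 := S.f1) S.hμ (S.J_pos hg) (E := Λ * g) (by positivity) S.sup u h1 h2 h3 h4
    h5 hG N G hpos

end Sys

end Vale.Agent.P065.H806
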