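import Vale.Agent.P065.H60.LineFr
import Vale.Agent.P065.H819.Nb1
import Vale.Agent.P065.H562.ThinDef

/-!
# P065, package TTHIN: the box data `TBox` on the frame (helper154)

Box `r = (c, S, d, j)` of `Rt F ln p u a v` (guard `a`), `dX = PB + a`. Time digits
`XT = (F.D u (v + dX), T' < v + PR)`, rows `BT`, line cells of helper60.
-/

set_option autoImplicit false

open Finset Real

noncomputable section

namespace Vale.Agent.P065.H154

open Vale.Agent.P065.UB Vale.Agent.P065.Ent Vale.Agent.P065.H268 Vale.Agent.P065.H725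
open Vale.Agent.P065.H819 Vale.Agent.P065.H562 Vale.Agent.P065.H700

variable {Ω : Type*}

/-! ## Normalised coordinates -/

section coord

variable (F : Fr Ω) (ln : Ω → Pt) (p : Prm)

/-- normalised time -/
def Tn (u : ℝ) (t : ℕ) (ω : Ω) : ℝ := 2 ^ t * (F.P.x ω + u)

/-- normalised height -/
def yh (t : ℕ) (c : p.Col) (ω : Ω) : ℝ := 2 ^ t * Prm.h c (F.P.x ω) (ln ω)

/-- normalised height of the line at the left end of the time cell -/
def cl (u θ : ℝ) (t : ℕ) (c : p.Col) (S d : ℤ) (ω : Ω) : ℝ :=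
  2 ^ ((t : ℤ) + Prm.sc c.1) * (H60.yL F ln u t ω + θ) - H60.dlt c u θ t S d

variable {F ln p}

lemma floor_Tn (u : ℝ) (t : ℕ) (ω : Ω) : ⌊Tn F u t ω⌋ = F.D u t ω := rfl

lemma dg_Tn (u : ℝ) (t m : ℕ) (ω : Ω) : dg m (Tn F u t) ω = F.D u (t + m) ω := by
  unfold dg Tn Fr.D
  congr 1
  rw [pow_add]
  ring

lemma cl_eq (u θ : ℝ) (t : ℕ) (c : p.Col) {S d : ℤ} {ω : Ω} (hS : Prm.S c.1 (ln ω) = S)
    (hd : F.D u t ω = d) :
    cl F ln p u θ t c S d ω = 2 ^ t * Prm.h c (H60.xL F u t ω) (ln ω) := by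
  have h := H60.cl_eq (F := F) (ln := ln) c u θ t ω
  rw [hS, hd] at h
  rw [h]
  rfl

lemma yy_eq (u θ : ℝ) (t : ℕ) (c : p.Col) {S d : ℤ} {ω : Ω} (hS : Prm.S c.1 (ln ω) = S)
    (hd : F.D u t ω = d) :
    yy (Tn F u t) (fun ω => Prm.f c.1 (ln ω)) (cl F ln p u θ t c S d) ω = yh F ln p t c ω := by
  unfold yy yh
  rw [cl_eq u θ t c hS hd, ← H60.cv_eq]
  unfold cv Tn Tv
  ring

/-- the boxes in normalised coordinates -/
lemma Rt_iff (u θ : ℝ) (a t : ℕ) (c : p.Col) {S d j : ℤ}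
    (hT : ∀ ω, F.D u t ω = d → t ≤ F.T' ω + a) (ω : Ω) :
    Rt F ln p u a t (c, ω) = (c, S, d, j) ↔ RR (fun ω => Prm.S c.1 (ln ω) = S) (Tn F u t)
      (fun ω => Prm.f c.1 (ln ω)) (cl F ln p u θ t c S d) a d j ω := by
  unfold Rt RR
  simp only [Prod.mk.injEq, true_and]
  constructor
  · rintro ⟨h1, h2, h3⟩
    refine ⟨h1, by rw [floor_Tn]; exact h2, ?_⟩
    rw [yy_eq u θ t c h1 h2, ← h3, Nf_eq c (hT ω h2)]
    rfl
  · rintro ⟨h1, h2, h3⟩
    rw [floor_Tn] at h2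
    refine ⟨h1, h2, ?_⟩
    rw [yy_eq u θ t c h1 h2] at h3
    rw [← h3, Nf_eq c (hT ω h2)]
    rfl

/-- the line cells of helper60 in normalised coordinates -/
lemma Lc_iff (u θ : ℝ) (a2 t : ℕ) (c : p.Col) {S d jl : ℤ} (ω : Ω) :
    H60.Lc F ln p.k₀ (Prm.sy c.1) u θ t (Prm.sc c.1) (-(a2 : ℤ)) ω = (S, d, jl) ↔
      Prm.S c.1 (ln ω) = S ∧ F.D u t ω = d ∧
        ⌊(cl F ln p u θ t c S d ω + H60.dlt c u θ t S d) / 2 ^ a2⌋ = jl := by
  unfold H60.Lc H60.Lh cl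
  simp only [Prod.mk.injEq, sub_add_cancel]
  have e : (2 : ℝ) ^ ((t : ℤ) + Prm.sc c.1 + -(a2 : ℤ)) * (H60.yL F ln u t ω + θ) =
      2 ^ ((t : ℤ) + Prm.sc c.1) * (H60.yL F ln u t ω + θ) / 2 ^ a2 := by
    rw [zpow_add₀ (by norm_num : (2 : ℝ) ≠ 0) _ (-(a2 : ℤ)), zpow_neg, zpow_natCast]
    ring
  rw [e]
  exact Iff.rfl

/-- the line digits of helper60 -/
lemma Lh_dg (u θ : ℝ) (PC t : ℕ) (c : p.Col) (S d : ℤ) (ω : Ω) :
    H60.Lh F ln u θ t (t + Prm.sc c.1 + PC) ω =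
      dg PC (fun ω => cl F ln p u θ t c S d ω + H60.dlt c u θ t S d) ω := by
  unfold H60.Lh dg cl
  simp only [sub_add_cancel]
  congr 1
  rw [zpow_add₀ (by norm_num : (2 : ℝ) ≠ 0) _ (PC : ℤ), zpow_natCast]
  ring

end coord

/-! ## Integers -/

lemma mem_Ico_of_ediv {x d : ℤ} {m : ℕ} (h : x / 2 ^ m = d) :
    x ∈ Ico (d * 2 ^ m) ((d + 1) * 2 ^ m) := by
  have h2 : (0 : ℤ) < 2 ^ m := by positivity
  rw [Finset.mem_Ico, ← h]
  exact ⟨Int.ediv_mul_le x h2.ne', Int.lt_ediv_add_one_mul_self x h2⟩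

lemma card_Ico_pow (q : ℤ) (s : ℕ) : (Ico (q * 2 ^ s) ((q + 1) * 2 ^ s)).card = 2 ^ s := by
  rw [Int.card_Ico]
  have : (q + 1) * 2 ^ s - q * 2 ^ s = ((2 ^ s : ℕ) : ℤ) := by
    push_cast
    ring
  rw [this]
  exact Int.toNat_natCast _

lemma D_add (F : Fr Ω) (u : ℝ) (t m : ℕ) (ω : Ω) : F.D u (t + m) ω / 2 ^ m = F.D u t ω := by
  unfold Fr.D
  have e : (2 : ℝ) ^ t * (F.P.x ω + u) = 2 ^ (t + m) * (F.P.x ω + u) / ((2 ^ m : ℕ) : ℝ) := by
    rw [pow_add]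
    push_cast
    field_simp
  rw [e, Int.floor_div_natCast]
  push_cast
  rfl

lemma N_div {p : Prm} (γ t m : ℕ) (c : p.Col) (x : ℝ) (v : Pt) :
    Prm.N γ (t + m) c x v / 2 ^ m = Prm.N γ t c x v := by
  unfold Prm.N
  have e : (2 : ℝ) ^ t * Prm.h c x v / 2 ^ γ =
      2 ^ (t + m) * Prm.h c x v / 2 ^ γ / ((2 ^ m : ℕ) : ℝ) := by
    rw [pow_add]
    push_cast
    field_simp
  rw [e, Int.floor_div_natCast]
  push_cast
  rfl

/-! ## The pieces of a box -/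

section pieces

variable (F : Fr Ω) (ln : Ω → Pt) (p : Prm)

/-- line digits -/
def CT (u θ : ℝ) (PC v : ℕ) (c : p.Col) (ω : Ω) : ℤ := H60.Lh F ln u θ v (v + Prm.sc c.1 + PC) ω

/-- line cell -/
def LT (u θ : ℝ) (a2 v : ℕ) (c : p.Col) (l : ℤ × ℤ × ℤ) (ω : Ω) : Prop :=
  H60.Lc F ln p.k₀ (Prm.sy c.1) u θ v (Prm.sc c.1) (-(a2 : ℤ)) ω = l

/-- point box -/
def RT (u : ℝ) (a v : ℕ) (r : p.Col × ℤ × ℤ × ℤ) (ω : Ω) : Prop := Rt F ln p u a v (r.1, ω) = r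

/-- rounding error -/
def sT (dX PB PC : ℕ) : ℝ := 1 / 2 ^ PB + 1 / 2 ^ PC + 1 / 2 ^ p.PP + 1 / 2 ^ dX

variable {F ln p}

lemma RT_eq (u θ : ℝ) (a v : ℕ) (c : p.Col) {S d j : ℤ}
    (hT : ∀ ω, F.D u v ω = d → v < F.T' ω) :
    RR (fun ω => Prm.S c.1 (ln ω) = S) (Tn F u v)
      (fun ω => Prm.f c.1 (ln ω)) (cl F ln p u θ v c S d) a d j = RT F ln p u a v (c, S, d, j) := by
  funext ω
  exact propext (Rt_iff u θ a v c (fun ω h => (hT ω h).le.trans (Nat.le_add_right _ _)) ω).symm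

/-- the true rows in normalised coordinates -/
lemma B0T_eq {u θ : ℝ} {PB v : ℕ} {c : p.Col} {S d : ℤ} {ω : Ω} (hS : Prm.S c.1 (ln ω) = S)
    (hd : F.D u v ω = d) : dg PB (yy (Tn F u v) (fun ω => Prm.f c.1 (ln ω))
      (cl F ln p u θ v c S d)) ω = B0T F ln PB v c ω := by
  unfold dg
  rw [yy_eq u θ v c hS hd]
  unfold yh B0T Prm.N
  congr 1
  rw [pow_add, pow_zero, div_one]
  ring

lemma BT_of_le {PB v : ℕ} {c : p.Col} {ω : Ω} (h : v + PB ≤ F.T' ω) :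
    BT F ln PB v c ω = B0T F ln PB v c ω := if_pos h

/-- the rows stay in the row of the box -/
lemma BT_div {a PB v : ℕ} {c : p.Col} {ω : Ω} (hT : v ≤ F.T' ω) :
    BT F ln PB v c ω / 2 ^ (PB + a) = Nf F ln p a v c ω := by
  have h1 : Nf F ln p a v c ω = Prm.N a v c (F.P.x ω) (ln ω) := by
    unfold Nf
    rw [min_eq_left (by omega)]
  have h2 : ∀ z : ℕ, Prm.N 0 (v + z) c (F.P.x ω) (ln ω) / 2 ^ (z + a) =
      Prm.N a v c (F.P.x ω) (ln ω) := by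
    intro z
    have h3 := Prm.N_add 0 (v + z) a c (F.P.x ω) (ln ω)
    rw [zero_add] at h3
    rw [← h3, add_assoc, N_div]
  unfold BT
  split_ifs with h
  · unfold B0T
    rw [h2, h1]
  · push Not at h
    unfold Nr
    obtain ⟨z, hz⟩ : ∃ z, F.T' ω = v + z := ⟨F.T' ω - v, by omega⟩
    obtain ⟨y, hy⟩ : ∃ y, v + PB = F.T' ω + y := ⟨v + PB - F.T' ω, by omega⟩
    have e1 : v + PB - F.T' ω = y := by omega
    have e2 : PB + a = (z + a) + y := by omega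
    rw [e1, e2, pow_add _ (z + a) y, Int.mul_ediv_mul_of_pos_left _ _ (by positivity), hz, h2, h1]

/-- the rows are functions of the later boxes -/
lemma BT_congr {u : ℝ} {a PB v m : ℕ} (hm : PB + a ≤ m) {c : p.Col} {ω ω' : Ω}
    (h : Rt F ln p u a (v + m) (c, ω) = Rt F ln p u a (v + m) (c, ω')) :
    BT F ln PB v c ω = BT F ln PB v c ω' := by
  have h' : Rt F ln p u a (v + (PB + a)) (c, ω) = Rt F ln p u a (v + (PB + a)) (c, ω') :=
    Rt_det_le u a (by omega) _ _ h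
  unfold Rt at h'
  simp only [Prod.mk.injEq, true_and] at h'
  obtain ⟨-, hD, hN⟩ := h'
  have key : ∀ ω₁ : Ω, v + PB ≤ F.T' ω₁ → Nf F ln p a (v + (PB + a)) c ω₁ =
      B0T F ln PB v c ω₁ := by
    intro ω₁ h1
    unfold Nf B0T
    rw [min_eq_left (by omega)]
    have h3 := Prm.N_add 0 (v + PB) a c (F.P.x ω₁) (ln ω₁)
    rw [zero_add] at h3
    rw [← h3, add_assoc]
  rcases F.T'_cases hD with ⟨-, hT⟩ | ⟨hT, hT'⟩
  · unfold BT
    rw [← hT]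
    by_cases h1 : v + PB ≤ F.T' ω
    · rw [if_pos h1, if_pos h1, ← key ω h1, ← key ω' (by rw [← hT]; exact h1), hN]
    · rw [if_neg h1, if_neg h1]
      push Not at h1
      rw [Nf_last c (by omega), Nf_last c (by omega)] at hN
      rw [hN]
  · rw [BT_of_le (by omega), BT_of_le (by omega), ← key ω (by omega), ← key ω' (by omega), hN]

/-- the time digits are functions of the later time cells -/
lemma XT_congr {u : ℝ} {dX PR v m : ℕ} (h1 : dX ≤ m) (h2 : PR ≤ m) :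
    Det (F.D u (v + m)) (XT F u dX PR v) := by
  intro ω ω' h
  unfold XT lgT
  rw [F.D_det_le u (show v + dX ≤ v + m by omega) _ _ h]
  rcases F.T'_cases h with ⟨-, hT⟩ | ⟨hT, hT'⟩
  · rw [hT]
  · have e1 : ¬ F.T' ω < v + PR := by omega
    have e2 : ¬ F.T' ω' < v + PR := by omega
    simp only [e1, e2]

end pieces

end Vale.Agent.P065.H154
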