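import Vale.Agent.P065.H154.TBoxFr

/-!
# P065, package TTHIN: the box data `TBox` on the frame, part 2 (helper154)
-/

set_option autoImplicit false

open Finset Real

noncomputable section

namespace Vale.Agent.P065.H154

open Vale.Agent.P065.UB Vale.Agent.P065.Ent Vale.Agent.P065.H268 Vale.Agent.P065.H725
open Vale.Agent.P065.H819 Vale.Agent.P065.H562 Vale.Agent.P065.H700

variable {Ω : Type*} [Fintype Ω]

section defs

variable (F : Fr Ω) (ln : Ω → Pt) (p : Prm)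

open Classical in
/-- the time digits of a cell -/
def XS (u : ℝ) (dX PR v : ℕ) (d : ℤ) : Finset (ℤ × Prop) :=
  (univ.filter (fun ω => F.D u v ω = d)).image (XT F u dX PR v)

/-- the pairs of digits of a box -/
def VT (u : ℝ) (a dX PB PR v : ℕ) (d j : ℤ) : Finset ((ℤ × Prop) × ℤ) :=
  XS F u dX PR v d ×ˢ Ico (j * 2 ^ (PB + a)) ((j + 1) * 2 ^ (PB + a))

/-- the domination constant -/
def uT (μ : Ω → ℝ) (J : ℝ) (Q : p.Col × Ω → ℝ) (u : ℝ) (a v : ℕ) (r : p.Col × ℤ × ℤ × ℤ)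
    (e : Option Bool) : ℝ :=
  PE μ (fun ω => lb ln p r.1 ω = e ∧ RT F ln p u a v r ω) / (J * Pr Q (Rt F ln p u a v) r)

end defs

variable {F : Fr Ω} {ln : Ω → Pt} {p : Prm}

lemma mem_XS {u : ℝ} {dX PR v : ℕ} {d : ℤ} {x : ℤ × Prop} (h : x ∈ XS F u dX PR v d) :
    x.1 / 2 ^ dX = d := by
  classical
  obtain ⟨ω, hω, rfl⟩ := mem_image.mp h
  unfold XT
  rw [D_add]
  exact (mem_filter.mp hω).2

lemma card_XS_le (u : ℝ) (dX PR v : ℕ) (d : ℤ) : (XS F u dX PR v d).card ≤ 2 * 2 ^ dX := by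
  classical
  have h1 : XS F u dX PR v d ⊆ Ico (d * 2 ^ dX) ((d + 1) * 2 ^ dX) ×ˢ ({True, False} : Finset Prop) := by
    intro x hx
    rw [mem_product]
    refine ⟨mem_Ico_of_ediv (mem_XS hx), ?_⟩
    by_cases h : x.2
    · rw [eq_true h]; simp
    · rw [eq_false h]; simp
  refine (card_le_card h1).trans ?_
  rw [card_product, card_Ico_pow, mul_comm]
  refine Nat.mul_le_mul_right _ ?_
  exact card_le_two

lemma card_VT_le (u : ℝ) (a dX PB PR v : ℕ) (d j : ℤ) :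
    (VT F u a dX PB PR v d j).card ≤ 2 * 2 ^ dX * 2 ^ (PB + a) := by
  unfold VT
  rw [card_product, card_Ico_pow]
  exact Nat.mul_le_mul_right _ (card_XS_le u dX PR v d)

lemma xhh_mem_of_ediv {dX : ℕ} {d x : ℤ} (h : x / 2 ^ dX = d) :
    0 ≤ xhh dX d x ∧ xhh dX d x < 1 := by
  have h1 := mem_Ico_of_ediv h
  rw [Finset.mem_Ico] at h1
  have hp : (0 : ℝ) < 2 ^ dX := by positivity
  have h2 : (d : ℝ) * 2 ^ dX ≤ x := by exact_mod_cast h1.1
  have h3 : (x : ℝ) < (d + 1) * 2 ^ dX := by exact_mod_cast h1.2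
  unfold xhh
  constructor
  · rw [sub_nonneg, le_div_iff₀ hp]; exact h2
  · rw [sub_lt_iff_lt_add, div_lt_iff₀ hp]; linarith

lemma ehh_mem (c : p.Col) {e : Option Bool} (he : e = some false ∨ e = some true) :
    0 ≤ ehh p.PP (Prm.b0 c.1) (Prm.b1 c.1) e ∧ ehh p.PP (Prm.b0 c.1) (Prm.b1 c.1) e ≤ 1 := by
  have hp : (0 : ℝ) < 2 ^ p.PP := by positivity
  have h := blk_le (p := p) c
  have h0 : (Prm.b0 c.1 : ℝ) ≤ 2 ^ p.PP := by exact_mod_cast h.1
  have h1 : (Prm.b1 c.1 : ℝ) ≤ 2 ^ p.PP := by exact_mod_cast h.2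
  rcases he with rfl | rfl
  · unfold ehh
    exact ⟨by positivity, by rw [div_le_one hp]; exact h0⟩
  · unfold ehh
    exact ⟨by positivity, by rw [div_le_one hp]; exact h1⟩

/-- the number of line digits through a point -/
lemma card_line_le {PC : ℕ} {q s : ℝ} (hs : s * 2 ^ PC ≤ 4) (A : Finset ℤ)
    (hA : ∀ n ∈ A, |q - (n : ℝ) / 2 ^ PC| ≤ s) : A.card ≤ 9 := by
  have hp : (0 : ℝ) < 2 ^ PC := by positivity
  have h1 : A ⊆ Icc ⌈2 ^ PC * q - 4⌉ ⌊2 ^ PC * q + 4⌋ := by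
    intro n hn
    have h2 := abs_le.mp (hA n hn)
    have h3 : 2 ^ PC * (q - (n : ℝ) / 2 ^ PC) = 2 ^ PC * q - n := by field_simp
    have h4 : 2 ^ PC * (q - (n : ℝ) / 2 ^ PC) ≤ 2 ^ PC * s := mul_le_mul_of_nonneg_left h2.2 hp.le
    have h5 : 2 ^ PC * (-s) ≤ 2 ^ PC * (q - (n : ℝ) / 2 ^ PC) :=
      mul_le_mul_of_nonneg_left h2.1 hp.le
    rw [h3] at h4 h5
    rw [Finset.mem_Icc, Int.ceil_le, Int.le_floor]
    constructor
    · nlinarith
    · nlinarith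
  refine (card_le_card h1).trans ?_
  rw [Int.card_Icc]
  have h6 : (⌊2 ^ PC * q + 4⌋ : ℝ) ≤ 2 ^ PC * q + 4 := Int.floor_le _
  have h7 : 2 ^ PC * q - 4 ≤ (⌈2 ^ PC * q - 4⌉ : ℝ) := Int.le_ceil _
  have h8 : ((⌊2 ^ PC * q + 4⌋ + 1 - ⌈2 ^ PC * q - 4⌉ : ℤ) : ℝ) ≤ 9 := by
    push_cast
    linarith
  have h9 : ⌊2 ^ PC * q + 4⌋ + 1 - ⌈2 ^ PC * q - 4⌉ ≤ 9 := by exact_mod_cast h8
  omega

lemma sT_mul_le {dX PB PC : ℕ} (h1 : PC ≤ PB) (h2 : PC ≤ p.PP) (h3 : PC ≤ dX) :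
    sT p dX PB PC * 2 ^ PC ≤ 4 := by
  have key : ∀ n : ℕ, PC ≤ n → (1 : ℝ) / 2 ^ n * 2 ^ PC ≤ 1 := by
    intro n hn
    rw [one_div, inv_mul_le_iff₀ (by positivity), mul_one]
    exact pow_le_pow_right₀ (by norm_num) hn
  unfold sT
  have a1 := key PB h1
  have a2 := key p.PP h2
  have a3 := key dX h3
  have a4 := key PC le_rfl
  nlinarith

variable {Lab : Type*} {lam : Ω → Lab} {f : p.Col → (ℕ × Lab) × ℤ × ℤ → ℝ}
  {f0 : ∀ k r, 0 ≤ f k r} {f1 : ∀ k r, f k r ≤ 1} {μ : Ω → ℝ}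

lemma Pr_zl_box (u : ℝ) (a v : ℕ) (b : Bool) {β : Type*} (Y : p.Col → Ω → β) (y : β)
    (r : p.Col × ℤ × ℤ × ℤ) :
    Pr (zl (cols F ln p lam f f0 f1) μ b)
      (fun τ : p.Col × Ω => (Y τ.1 τ.2, Rt F ln p u a v τ)) (y, r) =
      PE μ (fun ω => Y r.1 ω = y ∧ lb ln p r.1 ω = some b ∧ RT F ln p u a v r ω) := by
  classical
  rw [PE_def]
  unfold Pr
  rw [Fintype.sum_prod_type, sum_eq_single r.1]
  · refine sum_congr rfl fun ω _ => ?_
    unfold zl RT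
    have e : (cols F ln p lam f f0 f1).E r.1 ω = lb ln p r.1 ω := rfl
    simp only [e]
    by_cases h1 : Y r.1 ω = y <;> by_cases h2 : Rt F ln p u a v (r.1, ω) = r <;>
      by_cases h3 : lb ln p r.1 ω = some b <;> simp [h1, h2, h3]
  · intro c _ hc
    refine sum_eq_zero fun ω _ => if_neg fun h => hc ?_
    have h2 := (Prod.mk.inj h).2
    unfold Rt at h2
    rw [← h2]
  · intro h
    exact absurd (mem_univ _) h

omit [Fintype Ω] in
lemma nuT_eq_cnd {Θ β : Type*} [Fintype Θ] (Q : Θ → ℝ) (R : Θ → β) (r : β) :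
    nuT Q R r = cnd Q R r := rfl

omit [Fintype Ω] in
lemma det_rho_Rt (u : ℝ) (a v : ℕ) : Det (fun τ : p.Col × Ω => (τ.1, rho F ln p lam τ.1 τ.2))
    (Rt F ln p u a v) := rb_Rt u a v

/-- the mass of a box is at most the mass of each label -/
lemma Pr_Q_RT_le (hμ : IsProb μ) (u : ℝ) (a v : ℕ) (b : Bool) (r : p.Col × ℤ × ℤ × ℤ) :
    Pr ((cols F ln p lam f f0 f1).Q μ) (Rt F ln p u a v) r ≤
      PE μ (fun ω => lb ln p r.1 ω = some b ∧ RT F ln p u a v r ω) /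
        (cols F ln p lam f f0 f1).J μ := by
  have h1 := Pr_Q_le (C := cols F ln p lam f f0 f1) hμ b (X := fun τ : p.Col × Ω =>
    ((), Rt F ln p u a v τ)) (fun τ τ' h => by
      have := det_rho_Rt (F := F) (ln := ln) (lam := lam) u a v τ τ' h
      simp only [this]) ((), r)
  rw [Pr_zl_box u a v b (fun _ _ => ()) () r] at h1
  have e1 : Pr ((cols F ln p lam f f0 f1).Q μ) (fun τ : p.Col × Ω => ((), Rt F ln p u a v τ))
      ((), r) = Pr ((cols F ln p lam f f0 f1).Q μ) (Rt F ln p u a v) r := by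
    classical
    unfold Pr
    exact sum_congr rfl fun τ _ => by simp
  rw [e1] at h1
  simpa using h1

/-- 819's box data -/
theorem nboxT (hμ : IsProb μ) (u θ : ℝ) (a dX PR PC a2 v : ℕ) {c : p.Col} {S d j jl : ℤ}
    (hT : ∀ ω, F.D u v ω = d → v < F.T' ω)
    (hpos : ∀ b, 0 < PE μ (fun ω => lb ln p c ω = some b ∧ RT F ln p u a v (c, S, d, j) ω))
    (hj0 : (jl : ℝ) * 2 ^ a2 + 1 ≤ j * 2 ^ a + H60.dlt c u θ v S d)
    (hj1 : ((j : ℝ) + 1) * 2 ^ a + H60.dlt c u θ v S d ≤ (jl + 1) * 2 ^ a2) :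
    NBox μ (Tn F u v) (fun ω => Prm.f c.1 (ln ω)) (cl F ln p u θ v c S d)
      (fun ω => Prm.S c.1 (ln ω) = S) (LT F ln p u θ a2 v c (S, d, jl)) (lb ln p c)
      (XT F u dX PR v) Prod.fst (CT F ln p u θ PC v c)
      (fun n => (n : ℝ) / 2 ^ PC - H60.dlt c u θ v S d) dX p.PP PC a (Prm.b0 c.1) (Prm.b1 c.1)
      d j := by
  have hb := blk_le (p := p) c
  have ha : (0 : ℝ) < 2 ^ a := by positivity
  have ha2 : (0 : ℝ) < 2 ^ a2 := by positivity
  refine ⟨hμ, fun ω _ => Prm.f_nonneg _ _, fun ω _ => Prm.f_lt_one _ _,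
    fun ω b _ h => lb_some h, hb.1, hb.2, ?_, ?_, ?_, ?_, ?_⟩
  · rintro ω ⟨hG, hd, hy⟩
    refine (Lc_iff u θ a2 v c ω).mpr ⟨hG, hd, ?_⟩
    have h1 := Int.floor_eq_iff.mp hy
    rw [le_div_iff₀ ha, div_lt_iff₀ ha] at h1
    have hu0 := Int.fract_nonneg (Tn F u v ω)
    have hu1 := Int.fract_lt_one (Tn F u v ω)
    have hf0 := Prm.f_nonneg c.1 (ln ω)
    have hf1 := Prm.f_lt_one c.1 (ln ω)
    have h2 : yy (Tn F u v) (fun ω => Prm.f c.1 (ln ω)) (cl F ln p u θ v c S d) ω =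
      cl F ln p u θ v c S d ω + Prm.f c.1 (ln ω) * Int.fract (Tn F u v ω) := rfl
    have h3 : 0 ≤ Prm.f c.1 (ln ω) * Int.fract (Tn F u v ω) := mul_nonneg hf0 hu0
    have h4 : Prm.f c.1 (ln ω) * Int.fract (Tn F u v ω) < 1 := by nlinarith
    rw [Int.floor_eq_iff, le_div_iff₀ ha2, div_lt_iff₀ ha2]
    constructor
    · linarith
    · linarith
  · intro ω hL
    have h := (Lc_iff u θ a2 v c ω).mp hL
    exact ⟨h.1, h.2.1⟩
  · intro ω _
    exact (dg_Tn u v dX ω).symm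
  · intro ω _
    have h := dg_bounds PC (fun ω => cl F ln p u θ v c S d ω + H60.dlt c u θ v S d) ω
    rw [← Lh_dg u θ PC v c S d ω] at h
    unfold CT
    constructor
    · linarith [h.1]
    · linarith [h.2]
  · intro b
    rw [RT_eq u θ a v c hT]
    exact hpos b

open Classical in
/-- **the box data of the one-box inequality on the frame** -/
theorem tboxT (hμ : IsProb μ) (hJ : 0 < (cols F ln p lam f f0 f1).J μ) (u θ : ℝ)
    {a dX PB PR PC a2 v : ℕ} (hPB : PC ≤ PB) (hPP : PC ≤ p.PP) (hdX : dX = PB + a) (hPR : PB ≤ PR)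
    {c : p.Col} {S d j jl : ℤ}
    (hQ : 0 < Pr ((cols F ln p lam f f0 f1).Q μ) (Rt F ln p u a v) (c, S, d, j))
    (hT : ∀ ω, F.D u v ω = d → v < F.T' ω)
    (hj0 : (jl : ℝ) * 2 ^ a2 + 1 ≤ j * 2 ^ a + H60.dlt c u θ v S d)
    (hj1 : ((j : ℝ) + 1) * 2 ^ a + H60.dlt c u θ v S d ≤ (jl + 1) * 2 ^ a2) :
    TBox μ (XT F u dX PR v) (lb ln p c) (CT F ln p u θ PC v c) (B0T F ln PB v c)
      (BT F ln PB v c) (fun x => xhh dX d x.1) (ehh p.PP (Prm.b0 c.1) (Prm.b1 c.1))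
      (fun n => (n : ℝ) / 2 ^ PC - H60.dlt c u θ v S d) (fun n => (n : ℝ) / 2 ^ PB)
      (LT F ln p u θ a2 v c (S, d, jl)) (RT F ln p u a v (c, S, d, j))
      (j * 2 ^ a) ((j + 1) * 2 ^ a - 1 / 2 ^ PB) (sT p dX PB PC) (some false) (some true)
      (pX μ (XT F u dX PR v) (LT F ln p u θ a2 v c (S, d, jl)))
      (nuT ((cols F ln p lam f f0 f1).Q μ) (Rt F ln p u a v) (c, S, d, j))
      (fun τ => XT F u dX PR v τ.2) (fun τ => BT F ln PB v τ.1 τ.2)
      (XS F u dX PR v d) (VT F u a dX PB PR v d j) LgS 9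
      (uT F ln p μ ((cols F ln p lam f f0 f1).J μ) ((cols F ln p lam f f0 f1).Q μ) u a v
        (c, S, d, j)) 1 := by
  set C := cols F ln p lam f f0 f1 with hC
  have hQp := Cols.isProb_Q (C := C) hμ hJ
  -- positivity of the labels
  have hle : ∀ b, Pr (C.Q μ) (Rt F ln p u a v) (c, S, d, j) ≤
      PE μ (fun ω => lb ln p c ω = some b ∧ RT F ln p u a v (c, S, d, j) ω) / C.J μ :=
    fun b => Pr_Q_RT_le hμ u a v b (c, S, d, j)
  have hpos : ∀ b, 0 < PE μ (fun ω => lb ln p c ω = some b ∧ RT F ln p u a v (c, S, d, j) ω) := by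
    intro b
    have h1 := hQ.trans_le (hle b)
    by_contra hcon
    have h2 : PE μ (fun ω => lb ln p c ω = some b ∧ RT F ln p u a v (c, S, d, j) ω) / C.J μ ≤ 0 :=
      div_nonpos_of_nonpos_of_nonneg (not_lt.mp hcon) hJ.le
    linarith
  have NB := nboxT hμ u θ a dX PR PC a2 v hT hpos hj0 hj1
  have FB := NB.fbox PB
  rw [RT_eq u θ a v c hT] at FB
  have hLG : ∀ ω, LT F ln p u θ a2 v c (S, d, jl) ω → Prm.S c.1 (ln ω) = S ∧ F.D u v ω = d :=
    fun ω h => NB.LG ω h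
  have hB0 : ∀ ω, LT F ln p u θ a2 v c (S, d, jl) ω →
      dg PB (yy (Tn F u v) (fun ω => Prm.f c.1 (ln ω)) (cl F ln p u θ v c S d)) ω =
        B0T F ln PB v c ω := fun ω h => B0T_eq (hLG ω h).1 (hLG ω h).2
  -- the slopes
  have he : ∀ e, (e = some false ∨ e = some true) → ∃ b, e = some b := by
    rintro e (rfl | rfl)
    · exact ⟨_, rfl⟩
    · exact ⟨_, rfl⟩
  have hXL : ∀ ω, LT F ln p u θ a2 v c (S, d, jl) ω → XT F u dX PR v ω ∈ XS F u dX PR v d :=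
    fun ω h => mem_image.mpr ⟨ω, mem_filter.mpr ⟨mem_univ ω, (hLG ω h).2⟩, rfl⟩
  constructor
  · -- box
    refine ⟨FB.prob, FB.s0, ?_, FB.RL, ?_, FB.posR⟩
    · intro ω h1 h2
      have h3 := FB.rel ω h1 h2
      rw [hB0 ω h1] at h3
      exact h3
    · intro ω h1 h2 h3
      refine FB.LR ω h1 h2 ?_
      rw [hB0 ω h1]
      exact h3
  · -- hB
    intro ω _ hX
    refine BT_of_le ?_
    have : ¬ F.T' ω < v + PR := hX
    omega
  · -- posF
    rintro e he'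
    obtain ⟨b, rfl⟩ := he e he'
    exact hpos b
  · exact fun x => NBox.pX_nonneg hμ x
  · exact fun x h => NB.pX_pos x h
  · -- psum
    have h1 : PE μ (LT F ln p u θ a2 v c (S, d, jl)) ≤ ∑ x ∈ XS F u dX PR v d,
        PE μ (fun ω => XT F u dX PR v ω = x ∧ LT F ln p u θ a2 v c (S, d, jl) ω) :=
      PE_le_sum hμ _ (fun x ω => XT F u dX PR v ω = x ∧ LT F ln p u θ a2 v c (S, d, jl) ω) _
        fun ω h => ⟨_, hXL ω h, rfl, h⟩
    unfold pX
    rw [← sum_div, le_div_iff₀ NB.posL, one_mul]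
    exact h1
  · exact hXL
  · intro x hx
    obtain ⟨ω, -, h⟩ := mem_image.mp hx
    exact ⟨ω, h⟩
  · exact nuT_prob hQp hQ
  · -- supp
    intro τ hτ
    have h1 := cnd_pos hτ
    obtain ⟨c', ω⟩ := τ
    unfold Rt at h1
    simp only [Prod.mk.injEq] at h1
    obtain ⟨rfl, h2, h3, h4⟩ := h1
    refine mem_product.mpr ⟨mem_image.mpr ⟨ω, mem_filter.mpr ⟨mem_univ ω, h3⟩, rfl⟩, ?_⟩
    refine mem_Ico_of_ediv ?_
    simp only
    rw [BT_div (hT ω h3).le, h4]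
  · -- cardC
    intro x b e _ A hA
    refine card_line_le (q := (b : ℝ) / 2 ^ PB + H60.dlt c u θ v S d -
      ehh p.PP (Prm.b0 c.1) (Prm.b1 c.1) e * xhh dX d x.1) (sT_mul_le (dX := dX) hPB hPP (by omega)) A ?_
    intro n hn
    have h1 := (hA n hn).2
    have e1 : (b : ℝ) / 2 ^ PB + H60.dlt c u θ v S d -
      ehh p.PP (Prm.b0 c.1) (Prm.b1 c.1) e * xhh dX d x.1 - (n : ℝ) / 2 ^ PC =
      (b : ℝ) / 2 ^ PB - ((n : ℝ) / 2 ^ PC - H60.dlt c u θ v S d +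
        ehh p.PP (Prm.b0 c.1) (Prm.b1 c.1) e * xhh dX d x.1) := by ring
    rw [e1]
    exact h1
  · -- disp
    intro e he' x hx x' hx'
    obtain ⟨h0, h1⟩ := ehh_mem c he'
    obtain ⟨a1, a2⟩ := xhh_mem_of_ediv (mem_XS hx)
    obtain ⟨a3, a4⟩ := xhh_mem_of_ediv (mem_XS hx')
    rw [abs_mul, abs_of_nonneg h0]
    have h2 : |xhh dX d x'.1 - xhh dX d x.1| ≤ 1 := by
      rw [abs_le]
      constructor
      · linarith
      · linarith
    exact mul_le_one₀ h1 (abs_nonneg _) h2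
  · -- dom
    intro e he' x b
    obtain ⟨bb, rfl⟩ := he e he'
    have h1 := Pr_Q_le (C := C) hμ bb (X := fun τ : p.Col × Ω =>
      ((XT F u dX PR v τ.2, BT F ln PB v τ.1 τ.2), Rt F ln p u a v τ)) (fun τ τ' h => by
        obtain ⟨c₁, ω₁⟩ := τ
        obtain ⟨c₂, ω₂⟩ := τ'
        have hc : c₁ = c₂ := (Prod.mk.inj h).1
        subst hc
        have e2 := det_rho_Rt (F := F) (ln := ln) (lam := lam) u a (v + max dX PR) _ _ h
        have e3 := Rt_D u a (v + max dX PR) _ _ e2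
        have e4 := XT_congr (F := F) (le_max_left dX PR) (le_max_right dX PR) _ _ e3
        have e5 := BT_congr (F := F) (ln := ln) (PB := PB) (by omega) e2
        have e6 := Rt_det_le u a (Nat.le_add_right v (max dX PR)) _ _ e2
        simp only at e4
        simp only [e4, e5, e6]) ((x, b), (c, S, d, j))
    rw [Pr_zl_box u a v bb (fun c ω => (XT F u dX PR v ω, BT F ln PB v c ω)) (x, b)
      (c, S, d, j)] at h1
    have e1 : PE (nuT (C.Q μ) (Rt F ln p u a v) (c, S, d, j))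
        (fun τ => XT F u dX PR v τ.2 = x ∧ BT F ln PB v τ.1 τ.2 = b) =
        Pr (C.Q μ) (fun τ : p.Col × Ω =>
          ((XT F u dX PR v τ.2, BT F ln PB v τ.1 τ.2), Rt F ln p u a v τ))
          ((x, b), (c, S, d, j)) / Pr (C.Q μ) (Rt F ln p u a v) (c, S, d, j) := by
      rw [← Pr_cnd (C.Q μ) (fun τ : p.Col × Ω => (XT F u dX PR v τ.2, BT F ln PB v τ.1 τ.2)),
        nuT_eq_cnd, PE_def]
      unfold Pr
      refine sum_congr rfl fun τ _ => ?_
      by_cases h : XT F u dX PR v τ.2 = x ∧ BT F ln PB v τ.1 τ.2 = b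
      · rw [if_pos h, if_pos (Prod.ext h.1 h.2)]
      · rw [if_neg h, if_neg (fun h' => h (Prod.mk.inj h'))]
    rw [e1]
    have e2 : PE μ (fun ω => (XT F u dX PR v ω, BT F ln PB v c ω) = (x, b) ∧
        lb ln p c ω = some bb ∧ RT F ln p u a v (c, S, d, j) ω) =
        PE μ (fun ω => XT F u dX PR v ω = x ∧ BT F ln PB v c ω = b ∧
          lb ln p c ω = some bb ∧ RT F ln p u a v (c, S, d, j) ω) :=
      PE_congr fun ω => by rw [Prod.mk.injEq]; tauto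
    rw [e2] at h1
    unfold uT
    simp only
    rw [div_mul_eq_mul_div, div_mul_eq_mul_div, div_le_div_iff₀ hQ (mul_pos hJ hQ)]
    rw [le_div_iff₀ hJ] at h1
    have h3 := hpos bb
    calc _ = (Pr (C.Q μ) (fun τ : p.Col × Ω =>
          ((XT F u dX PR v τ.2, BT F ln PB v τ.1 τ.2), Rt F ln p u a v τ))
          ((x, b), (c, S, d, j)) * C.J μ) *
        (PE μ (fun ω => lb ln p c ω = some bb ∧ RT F ln p u a v (c, S, d, j) ω) *
          Pr (C.Q μ) (Rt F ln p u a v) (c, S, d, j)) := by ring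
      _ ≤ PE μ (fun ω => XT F u dX PR v ω = x ∧ BT F ln PB v c ω = b ∧
          lb ln p c ω = some bb ∧ RT F ln p u a v (c, S, d, j) ω) *
        (PE μ (fun ω => lb ln p c ω = some bb ∧ RT F ln p u a v (c, S, d, j) ω) *
          Pr (C.Q μ) (Rt F ln p u a v) (c, S, d, j)) :=
        mul_le_mul_of_nonneg_right h1 (mul_nonneg h3.le hQ.le)
      _ = _ := by ring
  · -- u1
    rintro e he'
    obtain ⟨b, rfl⟩ := he e he'
    have h1 := hle b
    rw [le_div_iff₀ hJ] at h1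
    unfold uT
    rw [one_le_div (mul_pos hJ hQ), mul_comm]
    exact h1

end Vale.Agent.P065.H154
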