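import Vale.Agent.P065.H154.TBoxFr2
import Vale.Agent.P065.H268.TimeAv

/-!
# P065, package TTHIN: the geometric hypotheses of the one-box inequality (helper154)
-/

set_option autoImplicit false

open Finset Real

noncomputable section

namespace Vale.Agent.P065.H154

open Vale.Agent.P065.UB Vale.Agent.P065.Ent Vale.Agent.P065.H268 Vale.Agent.P065.H725
open Vale.Agent.P065.H819 Vale.Agent.P065.H562 Vale.Agent.P065.H700

variable {Ω : Type*} {F : Fr Ω} {ln : Ω → Pt} {p : Prm}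

/-! ## Line cells: one of two grids -/

/-- the offset of the second grid of line cells -/
def th1 (p : Prm) (a2 : ℕ) : ℝ := 2 ^ ((a2 : ℤ) - p.k₀) / 3

lemma dlt_add (c : p.Col) (u θ : ℝ) (v : ℕ) (S d : ℤ) :
    H60.dlt c u θ v S d = H60.dlt c u 0 v S d + 2 ^ ((v : ℤ) + Prm.sc c.1) * θ := by
  unfold H60.dlt
  ring

/-- every row is inside a line cell of one of the two grids -/
theorem exists_jl (c : p.Col) (u : ℝ) {a a2 : ℕ} (h : 3 * (2 ^ a + 1) ≤ 2 ^ a2) (v : ℕ)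
    (S d j : ℤ) : ∃ θ : ℝ, (θ = 0 ∨ θ = th1 p a2) ∧ ∃ jl : ℤ,
      (jl : ℝ) * 2 ^ a2 + 1 ≤ j * 2 ^ a + H60.dlt c u θ v S d ∧
      ((j : ℝ) + 1) * 2 ^ a + H60.dlt c u θ v S d ≤ (jl + 1) * 2 ^ a2 := by
  have hp : (0 : ℝ) < 2 ^ a2 := by positivity
  have hh : (3 : ℝ) * (2 ^ a + 1) ≤ 2 ^ a2 := by exact_mod_cast h
  set y : ℝ := j * 2 ^ a + H60.dlt c u 0 v S d with hy
  obtain ⟨m, hm⟩ := two_pow_mod_three (v + Prm.js c.1)
  have e2 : (2 : ℝ) ^ ((v : ℤ) + Prm.sc c.1) * th1 p a2 / 2 ^ a2 =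
      ((2 : ℤ) ^ (v + Prm.js c.1) : ℤ) / 3 := by
    unfold th1
    have e3 : (v : ℤ) + Prm.sc c.1 = ((v + Prm.js c.1 : ℕ) : ℤ) + p.k₀ := by
      unfold Prm.sc Prm.js
      push_cast
      ring
    rw [e3, zpow_add₀ (by norm_num), zpow_sub₀ (by norm_num), zpow_natCast, zpow_natCast]
    push_cast
    have : (2 : ℝ) ^ p.k₀ ≠ 0 := by positivity
    field_simp
  obtain ⟨m', hm'⟩ : ∃ m' : ℤ, -((2 : ℝ) ^ ((v : ℤ) + Prm.sc c.1) * th1 p a2 / 2 ^ a2) =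
      m' + 1 / 3 ∨ -((2 : ℝ) ^ ((v : ℤ) + Prm.sc c.1) * th1 p a2 / 2 ^ a2) = m' - 1 / 3 := by
    rw [e2]
    rcases hm with hm | hm
    · refine ⟨-m, Or.inr ?_⟩
      rw [hm]; push_cast; ring
    · refine ⟨-m, Or.inl ?_⟩
      rw [hm]; push_cast; ring
  have h1 := third_unit (a := (y - 1) / 2 ^ a2) (b := (y + 2 ^ a) / 2 ^ a2)
    (c := -((2 : ℝ) ^ ((v : ℤ) + Prm.sc c.1) * th1 p a2 / 2 ^ a2)) (m := m') (by
      rw [← sub_div, abs_div, abs_of_pos hp, div_le_iff₀ hp]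
      have e4 : y - 1 - (y + 2 ^ a) = -(2 ^ a + 1) := by ring
      rw [e4, abs_neg, abs_of_pos (by positivity)]
      linarith) hm'
  have key : ∀ (z : ℝ) (jl : ℤ), ⌊(z - 1) / 2 ^ a2⌋ = jl → ⌊(z + 2 ^ a) / 2 ^ a2⌋ = jl →
      (jl : ℝ) * 2 ^ a2 + 1 ≤ z ∧ z + 2 ^ a ≤ (jl + 1) * 2 ^ a2 := by
    intro z jl h2 h3
    have h4 := (Int.floor_eq_iff.mp h2).1
    have h5 := (Int.floor_eq_iff.mp h3).2
    rw [le_div_iff₀ hp] at h4
    rw [div_lt_iff₀ hp] at h5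
    exact ⟨by linarith, h5.le⟩
  rcases h1 with h1 | h1
  · obtain ⟨h2, h3⟩ := key y _ rfl h1.symm
    refine ⟨0, Or.inl rfl, ⌊(y - 1) / 2 ^ a2⌋, h2, ?_⟩
    linarith
  · have e5 : ∀ z : ℝ, z / 2 ^ a2 - -((2 : ℝ) ^ ((v : ℤ) + Prm.sc c.1) * th1 p a2 / 2 ^ a2) =
        (z + 2 ^ ((v : ℤ) + Prm.sc c.1) * th1 p a2) / 2 ^ a2 := by
      intro z
      rw [sub_neg_eq_add, ← add_div]
    rw [e5, e5] at h1
    have e6 : y - 1 + 2 ^ ((v : ℤ) + Prm.sc c.1) * th1 p a2 =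
        y + 2 ^ ((v : ℤ) + Prm.sc c.1) * th1 p a2 - 1 := by ring
    have e7 : y + 2 ^ a + 2 ^ ((v : ℤ) + Prm.sc c.1) * th1 p a2 =
        y + 2 ^ ((v : ℤ) + Prm.sc c.1) * th1 p a2 + 2 ^ a := by ring
    rw [e6, e7] at h1
    obtain ⟨h2, h3⟩ := key (y + 2 ^ ((v : ℤ) + Prm.sc c.1) * th1 p a2) _ rfl h1.symm
    refine ⟨th1 p a2, Or.inr rfl,
      ⌊(y + 2 ^ ((v : ℤ) + Prm.sc c.1) * th1 p a2 - 1) / 2 ^ a2⌋, ?_, ?_⟩
    · rw [dlt_add c u (th1 p a2) v S d]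
      linarith
    · rw [dlt_add c u (th1 p a2) v S d]
      linarith

/-! ## Time digits -/

/-- the half of a time digit -/
lemma XT_half (u : ℝ) {dX PR v : ℕ} (h : 1 ≤ dX) (ω : Ω) :
    (XT F u dX PR v ω).1 / 2 ^ (dX - 1) = F.D u (v + 1) ω := by
  have h1 := D_add F u (v + 1) (dX - 1) ω
  rw [show v + 1 + (dX - 1) = v + dX by omega] at h1
  exact h1

lemma XT_cell (u : ℝ) (dX PR v : ℕ) (ω : Ω) :
    (XT F u dX PR v ω).1 / 2 ^ dX = F.D u v ω := D_add F u v dX ω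

/-- digits which are not near the midpoint -/
lemma nn_of_not_nearU {u : ℝ} {g dX PR v : ℕ} (hg : 1 ≤ g) (hgX : g ≤ dX) {d : ℤ} {ω : Ω}
    (hd : F.D u v ω = d) (h : ¬ nearU u g v (F.P.x ω)) : nn dX g d (XT F u dX PR v ω).1 := by
  obtain ⟨y, rfl⟩ : ∃ y, dX = g + y := ⟨dX - g, by omega⟩
  obtain ⟨z, rfl⟩ : ∃ z, g = z + 1 := ⟨g - 1, by omega⟩
  set n : ℤ := (XT F u (z + 1 + y) PR v ω).1 with hn
  set k : ℤ := F.D u (v + (z + 1)) ω with hk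
  have e1 : n / 2 ^ y = k := by
    have h1 := D_add F u (v + (z + 1)) y ω
    rw [show v + (z + 1) + y = v + (z + 1 + y) by ring] at h1
    exact h1
  have e2 : k / 2 ^ (z + 1) = d := by rw [← hd]; exact D_add F u v (z + 1) ω
  have h3 := mem_Ico_of_ediv e1
  rw [Finset.mem_Ico] at h3
  have h4 := Int.emod_add_mul_ediv k (2 ^ (z + 1))
  rw [e2] at h4
  set r : ℤ := k % 2 ^ (z + 1) with hr
  have hr0 : 0 ≤ r := Int.emod_nonneg _ (by positivity)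
  have h5 : ¬ (r = 2 ^ z - 1 ∨ r = 2 ^ z) := h
  have hp : (2 : ℤ) ^ (z + 1) = 2 * 2 ^ z := by rw [pow_succ]; ring
  have hpy : (0 : ℤ) < 2 ^ y := by positivity
  have h6 : r + 1 ≤ 2 ^ z - 1 ∨ 2 ^ z + 1 ≤ r := by omega
  unfold nn xhh
  have hR : (0 : ℝ) < 2 ^ (z + 1 + y) := by positivity
  have hRz : (0 : ℝ) < 2 ^ z := by positivity
  have hRy : (0 : ℝ) < 2 ^ y := by positivity
  have eR : (2 : ℝ) ^ (z + 1 + y) = 2 * 2 ^ z * 2 ^ y := by rw [pow_add, pow_succ]; ring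
  rcases h6 with h6 | h6
  · -- left
    have h7 : n < (d * (2 * 2 ^ z) + 2 ^ z - 1) * 2 ^ y := by
      have h8 : k + 1 ≤ d * (2 * 2 ^ z) + 2 ^ z - 1 := by
        rw [hp] at h4
        nlinarith
      have h9 := mul_le_mul_of_nonneg_right h8 hpy.le
      linarith [h3.2]
    have h8 : (n : ℝ) < (d * (2 * 2 ^ z) + 2 ^ z - 1) * 2 ^ y := by exact_mod_cast h7
    have h9 : (n : ℝ) / 2 ^ (z + 1 + y) ≤ d + 1 / 2 - 1 / 2 ^ (z + 1) := by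
      rw [div_le_iff₀ hR, eR]
      have e10 : ((d : ℝ) + 1 / 2 - 1 / 2 ^ (z + 1)) * (2 * 2 ^ z * 2 ^ y) =
          (d * (2 * 2 ^ z) + 2 ^ z - 1) * 2 ^ y := by
        rw [pow_succ]
        field_simp
      rw [e10]
      exact h8.le
    rw [abs_of_nonpos (by have : (0 : ℝ) < 1 / 2 ^ (z + 1) := by positivity
                          linarith)]
    linarith
  · -- right
    have h7 : (d * (2 * 2 ^ z) + 2 ^ z + 1) * 2 ^ y ≤ n := by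
      have h8 : d * (2 * 2 ^ z) + 2 ^ z + 1 ≤ k := by
        rw [hp] at h4
        nlinarith
      have h9 := mul_le_mul_of_nonneg_right h8 hpy.le
      linarith [h3.1]
    have h8 : ((d : ℝ) * (2 * 2 ^ z) + 2 ^ z + 1) * 2 ^ y ≤ n := by exact_mod_cast h7
    have h9 : d + 1 / 2 + 1 / 2 ^ (z + 1) ≤ (n : ℝ) / 2 ^ (z + 1 + y) := by
      rw [le_div_iff₀ hR, eR]
      have e10 : ((d : ℝ) + 1 / 2 + 1 / 2 ^ (z + 1)) * (2 * 2 ^ z * 2 ^ y) =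
          (d * (2 * 2 ^ z) + 2 ^ z + 1) * 2 ^ y := by
        rw [pow_succ]
        field_simp
      rw [e10]
      exact h8
    have h10 : (0 : ℝ) < 1 / 2 ^ (z + 1) := by positivity
    rw [abs_of_nonneg (by linarith)]
    linarith

/-- the two halves of a cell -/
lemma half_cases {dX : ℕ} (h : 1 ≤ dX) {d n : ℤ} (hn : n / 2 ^ dX = d) :
    (n / 2 ^ (dX - 1) = 2 * d ∧ xhh dX d n < 1 / 2) ∨
      (n / 2 ^ (dX - 1) = 2 * d + 1 ∧ 1 / 2 ≤ xhh dX d n) := by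
  obtain ⟨y, rfl⟩ : ∃ y, dX = y + 1 := ⟨dX - 1, by omega⟩
  simp only [Nat.add_sub_cancel]
  have e : n / 2 ^ y / 2 = d := by
    rw [Int.ediv_ediv_of_nonneg (by positivity), ← pow_succ]
    exact hn
  have h3 := mem_Ico_of_ediv (x := n) (m := y) rfl
  rw [Finset.mem_Ico] at h3
  have hR : (0 : ℝ) < 2 ^ (y + 1) := by positivity
  have hRy : (0 : ℝ) < 2 ^ y := by positivity
  have h4 : n / 2 ^ y = 2 * d ∨ n / 2 ^ y = 2 * d + 1 := by omega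
  rcases h4 with h4 | h4
  · left
    refine ⟨h4, ?_⟩
    rw [h4] at h3
    have h5 : (n : ℝ) < (2 * d + 1) * 2 ^ y := by exact_mod_cast h3.2
    unfold xhh
    rw [sub_lt_iff_lt_add, div_lt_iff₀ hR, pow_succ]
    linarith
  · right
    refine ⟨h4, ?_⟩
    rw [h4] at h3
    have h5 : ((2 : ℝ) * d + 1) * 2 ^ y ≤ n := by exact_mod_cast h3.1
    unfold xhh
    rw [le_sub_iff_add_le, le_div_iff₀ hR, pow_succ]
    linarith

/-- the heavy digits -/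
def HvT (dX : ℕ) (dh : ℤ) : Set (ℤ × Prop) := {x | x.1 / 2 ^ (dX - 1) = dh}

/-- the far short light digits -/
def SvT (dX g : ℕ) (d dh : ℤ) : Set (ℤ × Prop) :=
  {x | x.1 / 2 ^ dX = d ∧ x.1 / 2 ^ (dX - 1) ≠ dh ∧ ¬ x.2 ∧ nn dX g d x.1}

lemma SvT_not {dX g : ℕ} {d dh : ℤ} : ∀ x ∈ SvT dX g d dh, x ∉ HvT dX dh ∧ x ∉ LgS :=
  fun _ hx => ⟨hx.2.1, hx.2.2.1⟩

lemma XT_mem_HvT {u : ℝ} {dX PR v : ℕ} (h : 1 ≤ dX) {dh : ℤ} {ω : Ω} :
    XT F u dX PR v ω ∈ HvT dX dh ↔ F.D u (v + 1) ω = dh := by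
  unfold HvT
  rw [Set.mem_ofPred_eq, XT_half u h]

lemma XT_mem_SvT {u : ℝ} {g dX PR v : ℕ} (hg : 1 ≤ g) (hgX : g ≤ dX) {d dh : ℤ} {ω : Ω}
    (hd : F.D u v ω = d) (h1 : F.D u (v + 1) ω ≠ dh) (h2 : v + PR ≤ F.T' ω)
    (h3 : ¬ nearU u g v (F.P.x ω)) : XT F u dX PR v ω ∈ SvT dX g d dh := by
  refine ⟨by rw [XT_cell, hd], by rw [XT_half u (by omega)]; exact h1, ?_,
    nn_of_not_nearU hg hgX hd h3⟩
  change ¬ F.T' ω < v + PR
  omega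

/-- **far light digits and heavy digits are separated** (hypothesis `hsep`) -/
theorem sepT [Fintype Ω] {u : ℝ} {g dX PB PR PC v : ℕ} (hX : 1 ≤ dX) {d dh : ℤ} {c : p.Col}
    {sb : ℝ} (hb : sb ≤ |(Prm.b0 c.1 : ℝ) - Prm.b1 c.1| / 2 ^ p.PP)
    (hs : 4 * sT p dX PB PC < sb / 2 ^ g) :
    ∀ x ∈ SvT dX g d dh, ∀ x' ∈ XS F u dX PR v d, x' ∈ HvT dX dh →
      4 * sT p dX PB PC < |(ehh p.PP (Prm.b0 c.1) (Prm.b1 c.1) (some false) -
        ehh p.PP (Prm.b0 c.1) (Prm.b1 c.1) (some true)) * (xhh dX d x'.1 - xhh dX d x.1)| := by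
  intro x hx x' hx' hH
  obtain ⟨h1, h2, -, h3⟩ := hx
  have h4 := mem_XS hx'
  have h5 : x'.1 / 2 ^ (dX - 1) = dh := hH
  have hp : (0 : ℝ) < 2 ^ p.PP := by positivity
  have hg : (0 : ℝ) < 2 ^ g := by positivity
  have e1 : ehh p.PP (Prm.b0 c.1) (Prm.b1 c.1) (some false) -
      ehh p.PP (Prm.b0 c.1) (Prm.b1 c.1) (some true) =
      ((Prm.b0 c.1 : ℝ) - Prm.b1 c.1) / 2 ^ p.PP := by
    unfold ehh
    rw [sub_div]
  rw [e1, abs_mul, abs_div, abs_of_pos hp]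
  have h6 : 1 / 2 ^ g ≤ |xhh dX d x'.1 - xhh dX d x.1| := by
    unfold nn at h3
    rcases half_cases hX h1 with ⟨a1, a2⟩ | ⟨a1, a2⟩
    · rcases half_cases hX h4 with ⟨b1, b2⟩ | ⟨b1, b2⟩
      · exact absurd (a1.trans (b1.symm.trans h5)) h2
      · rw [abs_of_neg (by linarith)] at h3
        rw [abs_of_pos (by linarith)]
        linarith
    · rcases half_cases hX h4 with ⟨b1, b2⟩ | ⟨b1, b2⟩
      · rw [abs_of_nonneg (by linarith)] at h3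
        rw [abs_of_neg (by linarith)]
        linarith
      · exact absurd (a1.trans (b1.symm.trans h5)) h2
  have h7 : (0 : ℝ) < 1 / 2 ^ g := by positivity
  have h8 : 0 ≤ |(Prm.b0 c.1 : ℝ) - Prm.b1 c.1| / 2 ^ p.PP := by positivity
  calc 4 * sT p dX PB PC < sb * (1 / 2 ^ g) := by rw [mul_one_div]; exact hs
    _ ≤ |(Prm.b0 c.1 : ℝ) - Prm.b1 c.1| / 2 ^ p.PP * (1 / 2 ^ g) :=
      mul_le_mul_of_nonneg_right hb h7.le
    _ ≤ _ := mul_le_mul_of_nonneg_left h6 h8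

/-! ## Rows -/

/-- **the middle rows** (hypothesis `hMid`) -/
theorem midT {a PB PR dX v : ℕ} (ha : 1 ≤ a) (hPR : PB ≤ PR) {u : ℝ} {c : p.Col} {S d j : ℤ}
    (hT : ∀ ω, F.D u v ω = d → v < F.T' ω) (τ : p.Col × Ω)
    (hR : Rt F ln p u a v τ = (c, S, d, j)) (hM : MidT F ln a v τ)
    (hL : XT F u dX PR v τ.2 ∉ LgS) :
    (BT F ln PB v τ.1 τ.2 : ℝ) / 2 ^ PB ∈
      Set.Icc ((j : ℝ) * 2 ^ a + 2) ((j + 1) * 2 ^ a - 2) := by
  obtain ⟨c', ω⟩ := τ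
  unfold Rt at hR
  simp only [Prod.mk.injEq] at hR
  obtain ⟨rfl, -, h3, h4⟩ := hR
  have h5 : ¬ F.T' ω < v + PR := hL
  have h6 : BT F ln PB v c' ω = B0T F ln PB v c' ω := BT_of_le (by omega)
  obtain ⟨y, rfl⟩ : ∃ y, a = y + 1 := ⟨a - 1, by omega⟩
  unfold MidT posT at hM
  simp only [Nat.add_sub_cancel] at hM
  simp only
  rw [h6]
  set P : ℤ := B0T F ln PB v c' ω with hP
  set q : ℤ := Prm.N 1 v c' (F.P.x ω) (ln ω) with hq
  have e1 : P / 2 ^ (PB + 1) = q := by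
    have h7 := Prm.N_add 0 (v + PB) 1 c' (F.P.x ω) (ln ω)
    rw [zero_add] at h7
    rw [hP, hq, B0T, ← h7, add_assoc]
    exact N_div 1 v (PB + 1) c' _ _
  have e2 : q / 2 ^ y = j := by
    have h7 := Prm.N_add 1 v y c' (F.P.x ω) (ln ω)
    have h8 := N_div (1 + y) v y c' (F.P.x ω) (ln ω)
    rw [h7] at h8
    rw [hq, h8, ← h4]
    unfold Nf
    rw [min_eq_left (by have := hT ω h3; omega), add_comm 1 y]
  have h7 := mem_Ico_of_ediv e1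
  rw [Finset.mem_Ico] at h7
  have h8 := Int.emod_add_mul_ediv q (2 ^ y)
  rw [e2] at h8
  have hp : (0 : ℝ) < 2 ^ PB := by positivity
  have h9 : (j * 2 ^ y + 1) * (2 ^ PB * 2) ≤ P := by
    have h10 : j * 2 ^ y + 1 ≤ q := by nlinarith [hM.1]
    have h11 := mul_le_mul_of_nonneg_right h10 (show (0 : ℤ) ≤ 2 ^ (PB + 1) by positivity)
    rw [pow_succ] at h11 h7
    linarith [h7.1]
  have h10 : P < ((j + 1) * 2 ^ y - 1) * (2 ^ PB * 2) := by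
    have h11 : q + 1 ≤ (j + 1) * 2 ^ y - 1 := by nlinarith [hM.2]
    have h12 := mul_le_mul_of_nonneg_right h11 (show (0 : ℤ) ≤ 2 ^ (PB + 1) by positivity)
    rw [pow_succ] at h12 h7
    linarith [h7.2]
  have h11 : ((j : ℝ) * 2 ^ y + 1) * (2 ^ PB * 2) ≤ P := by exact_mod_cast h9
  have h12 : (P : ℝ) < ((j + 1) * 2 ^ y - 1) * (2 ^ PB * 2) := by exact_mod_cast h10
  constructor
  · rw [le_div_iff₀ hp, pow_succ]
    linarith
  · rw [div_le_iff₀ hp, pow_succ]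
    linarith

/-- the constants of the middle rows -/
lemma sT_small {dX PB PC : ℕ} (h0 : 4 ≤ PC) (h1 : PC ≤ PB) (h2 : PC ≤ p.PP) (h3 : PC ≤ dX) :
    3 * sT p dX PB PC + 1 / 2 ^ PB ≤ 1 := by
  have key : ∀ n : ℕ, PC ≤ n → (1 : ℝ) / 2 ^ n ≤ 1 / 16 := by
    intro n hn
    refine one_div_le_one_div_of_le (by norm_num) ?_
    calc (16 : ℝ) = 2 ^ 4 := by norm_num
      _ ≤ 2 ^ n := pow_le_pow_right₀ (by norm_num) (h0.trans hn)
  unfold sT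
  linarith [key PB h1, key p.PP h2, key dX h3, key PC le_rfl]

end Vale.Agent.P065.H154
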